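import Mathlib
import Vale.Agent.P074.Defs

open MeasureTheory Set Filter Topology
open scoped ENNReal NNReal RealInnerProductSpace

namespace Vale.Agent.P074

variable {d : ℕ}

/-- Two-cell map. -/
noncomputable def twoMap (y : EuclideanSpace ℝ (Fin d)) (c : ℝ) (x : EuclideanSpace ℝ (Fin d)) :
    EuclideanSpace ℝ (Fin d) := if c ≤ ⟪x, y⟫ then y else 0

lemma measurable_twoMap (y : EuclideanSpace ℝ (Fin d)) (c : ℝ) : Measurable (twoMap y c) := by
  unfold twoMap
  refine Measurable.ite ?_ measurable_const measurable_const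
  exact measurableSet_le measurable_const (by fun_prop)

lemma enorm_sq_eq (v : EuclideanSpace ℝ (Fin d)) : ‖v‖ₑ ^ 2 = ENNReal.ofReal (‖v‖ ^ 2) := by
  rw [← ofReal_norm, ENNReal.ofReal_pow (norm_nonneg _)]

lemma twoMap_optimal (ρ : Measure (EuclideanSpace ℝ (Fin d))) [IsFiniteMeasure ρ]
    (y : EuclideanSpace ℝ (Fin d)) (hy : y ≠ 0) (c : ℝ) :
    IsOptimalMap ρ (ρ.map (twoMap y c)) (twoMap y c) := by
  refine ⟨measurable_twoMap y c, rfl, fun S hS hmap => ?_⟩
  set β : ℝ := ‖y‖ ^ 2 - 2 * c with hβ
  set a : EuclideanSpace ℝ (Fin d) → ℝ≥0∞ :=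
    ({y} : Set _).indicator (fun _ => ENNReal.ofReal (max β 0)) with ha
  set b : EuclideanSpace ℝ (Fin d) → ℝ≥0∞ :=
    ({y} : Set _).indicator (fun _ => ENNReal.ofReal (max (-β) 0)) with hb
  have ham : Measurable a := measurable_const.indicator (measurableSet_singleton y)
  have hbm : Measurable b := measurable_const.indicator (measurableSet_singleton y)
  have hT := measurable_twoMap y c
  have ea : ∫⁻ x, a (S x) ∂ρ = ∫⁻ x, a (twoMap y c x) ∂ρ := by
    rw [← lintegral_map ham hS, ← lintegral_map ham hT, hmap]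
  have eb : ∫⁻ x, b (S x) ∂ρ = ∫⁻ x, b (twoMap y c x) ∂ρ := by
    rw [← lintegral_map hbm hS, ← lintegral_map hbm hT, hmap]
  have hfin : ∀ (r : ℝ) (U : EuclideanSpace ℝ (Fin d) → EuclideanSpace ℝ (Fin d)),
      ∫⁻ x, ({y} : Set _).indicator (fun _ => ENNReal.ofReal r) (U x) ∂ρ ≠ ∞ := by
    intro r U
    refine ne_top_of_le_ne_top (b := ∫⁻ _, ENNReal.ofReal r ∂ρ) ?_ (lintegral_mono fun x => ?_)
    · rw [lintegral_const]; exact ENNReal.mul_ne_top ENNReal.ofReal_ne_top (measure_ne_top _ _)
    · exact indicator_le_self' (fun _ _ => zero_le) _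
  have hae : ∀ᵐ x ∂ρ, S x ∈ ({y, 0} : Set _) := by
    have hm : MeasurableSet ({y, 0} : Set (EuclideanSpace ℝ (Fin d))) :=
      (Set.toFinite _).measurableSet
    have h1 : ∀ᵐ z ∂(ρ.map S), z ∈ ({y, 0} : Set _) := by
      rw [hmap]
      refine (ae_map_iff hT.aemeasurable (p := fun z => z ∈ ({y, 0} : Set _)) hm).2 ?_
      refine Eventually.of_forall fun x => ?_
      unfold twoMap; split_ifs <;> simp
    exact ae_of_ae_map hS.aemeasurable h1
  have key : ∫⁻ x, (‖x - twoMap y c x‖ₑ ^ 2 + (a (S x) + b (twoMap y c x))) ∂ρ ≤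
      ∫⁻ x, (‖x - S x‖ₑ ^ 2 + (a (twoMap y c x) + b (S x))) ∂ρ := by
    refine lintegral_mono_ae ?_
    filter_upwards [hae] with x hx
    have hn : ‖x - y‖ ^ 2 = ‖x‖ ^ 2 - 2 * ⟪x, y⟫ + ‖y‖ ^ 2 := norm_sub_sq_real x y
    have hmx : max β 0 - max (-β) 0 = β := by
      rcases le_total β 0 with h | h
      · rw [max_eq_right h, max_eq_left (by linarith)]; ring
      · rw [max_eq_left h, max_eq_right (by linarith)]; ring
    rcases hx with hx | hx
    · rw [hx]
      unfold twoMap
      split_ifs with hc
      · exact le_rfl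
      · simp only [ha, hb, mem_singleton_iff, indicator_of_mem, sub_zero,
          indicator_of_notMem (show (0 : EuclideanSpace ℝ (Fin d)) ∉ ({y} : Set _) from hy.symm),
          add_zero, zero_add, enorm_sq_eq]
        rw [← ENNReal.ofReal_add (by positivity) (le_max_right _ _),
          ← ENNReal.ofReal_add (by positivity) (le_max_right _ _)]
        refine ENNReal.ofReal_le_ofReal ?_
        push Not at hc
        linarith
    · rw [mem_singleton_iff.1 hx]
      unfold twoMap
      split_ifs with hc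
      · simp only [ha, hb, mem_singleton_iff, indicator_of_mem, sub_zero,
          indicator_of_notMem (show (0 : EuclideanSpace ℝ (Fin d)) ∉ ({y} : Set _) from hy.symm),
          add_zero, zero_add, enorm_sq_eq]
        rw [← ENNReal.ofReal_add (by positivity) (le_max_right _ _),
          ← ENNReal.ofReal_add (by positivity) (le_max_right _ _)]
        refine ENNReal.ofReal_le_ofReal ?_
        linarith
      · exact le_rfl
  rw [lintegral_add_right _ (by fun_prop), lintegral_add_right _ (by fun_prop),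
    lintegral_add_right _ (by fun_prop), lintegral_add_right _ (by fun_prop), ea, eb] at key
  exact (ENNReal.add_le_add_iff_right (ENNReal.add_ne_top.2 ⟨hfin _ _, hfin _ _⟩)).1 key

/-- A closed box. -/
def box (a b : Fin d → ℝ) : Set (EuclideanSpace ℝ (Fin d)) := {x | ∀ k, x k ∈ Icc (a k) (b k)}

lemma box_eq (a b : Fin d → ℝ) :
    box a b = WithLp.ofLp ⁻¹' (Set.pi univ fun k => Icc (a k) (b k)) := by
  ext x; simp only [box, mem_ofPred_eq, mem_preimage, Set.mem_pi, mem_univ, forall_true_left]

lemma measurableSet_box (a b : Fin d → ℝ) : MeasurableSet (box a b) := by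
  rw [box_eq]
  exact (PiLp.volume_preserving_ofLp (Fin d)).measurable
    (MeasurableSet.univ_pi fun _ => measurableSet_Icc)

lemma volume_box (a b : Fin d → ℝ) : volume (box a b) = ∏ k, ENNReal.ofReal (b k - a k) := by
  rw [box_eq, (PiLp.volume_preserving_ofLp (Fin d)).measure_preimage
    (MeasurableSet.univ_pi fun _ => measurableSet_Icc).nullMeasurableSet, volume_pi_pi]
  simp

/-- The cube. -/
def cube (d : ℕ) : Set (EuclideanSpace ℝ (Fin d)) := box (fun _ => -1) (fun _ => 1)

lemma isCompact_cube : IsCompact (cube d) := by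
  have : cube d = WithLp.toLp 2 '' (Set.pi univ fun _ => Icc (-1 : ℝ) 1) := by
    ext x
    simp only [cube, box, mem_ofPred_eq, mem_image, Set.mem_pi, mem_univ, forall_true_left]
    constructor
    · intro h; exact ⟨x.ofLp, h, rfl⟩
    · rintro ⟨z, hz, rfl⟩; exact hz
  rw [this]
  exact (isCompact_univ_pi fun _ => isCompact_Icc).image (PiLp.continuous_toLp 2 _)

lemma convex_cube : Convex ℝ (cube d) := by
  intro x hx y hy a b ha hb hab k
  simpa using convex_Icc (-1 : ℝ) 1 (hx k) (hy k) ha hb hab

lemma interior_cube : (interior (cube d)).Nonempty := by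
  refine ⟨0, mem_interior.2 ⟨Metric.ball 0 1, fun x hx k => ?_, Metric.isOpen_ball, by simp⟩⟩
  have h1 : ‖x k‖ ≤ ‖x‖ := PiLp.norm_apply_le x k
  have h2 : ‖x‖ < 1 := by simpa using hx
  exact abs_le.1 (le_trans h1 h2.le)

lemma unif_cube_box (a b : Fin d → ℝ) (h : box a b ⊆ cube d) :
    unif (cube d) (box a b) = ∏ k, ENNReal.ofReal ((b k - a k) / 2) := by
  rw [unif, Measure.smul_apply, Measure.restrict_apply (measurableSet_box a b),
    inter_eq_left.2 h, cube, volume_box, volume_box, smul_eq_mul,
    ENNReal.prod_inv_distrib (by intro i _ j _ _; left; norm_num), ← Finset.prod_mul_distrib]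
  refine Finset.prod_congr rfl fun k _ => ?_
  rw [ENNReal.ofReal_div_of_pos (by norm_num), div_eq_mul_inv, mul_comm]
  norm_num

instance : IsProbabilityMeasure (unif (cube d)) := ⟨by
  rw [unif, Measure.smul_apply, Measure.restrict_apply MeasurableSet.univ, univ_inter,
    smul_eq_mul, ENNReal.inv_mul_cancel]
  · rw [cube, volume_box]; simp
  · exact isCompact_cube.measure_lt_top.ne⟩

/-- Reflection of one coordinate. -/
noncomputable def refl1 (i : Fin d) : EuclideanSpace ℝ (Fin d) ≃ₗᵢ[ℝ] EuclideanSpace ℝ (Fin d) :=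
  LinearIsometryEquiv.piLpCongrRight 2
    (fun k => if k = i then LinearIsometryEquiv.neg ℝ else LinearIsometryEquiv.refl ℝ ℝ)

lemma refl1_apply (i : Fin d) (x : EuclideanSpace ℝ (Fin d)) (k : Fin d) :
    refl1 i x k = if k = i then - x k else x k := by
  simp only [refl1, LinearIsometryEquiv.piLpCongrRight_apply]
  split_ifs <;> simp

lemma map_refl1 (i : Fin d) : (unif (cube d)).map (refl1 i) = unif (cube d) := by
  have h1 : MeasurePreserving (refl1 i) volume volume := (refl1 i).measurePreserving
  have h2 : refl1 i ⁻¹' cube d = cube d := by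
    ext x
    simp only [cube, box, mem_preimage, mem_ofPred_eq, refl1_apply]
    refine forall_congr' fun k => ?_
    split_ifs
    · simp only [mem_Icc]; constructor <;> rintro ⟨h, h'⟩ <;> constructor <;> linarith
    · rfl
  have h3 := h1.restrict_preimage (s := cube d) (measurableSet_box _ _)
  rw [h2] at h3
  rw [unif, Measure.map_smul, h3.map_eq]

/-- The site of the small cell. -/
noncomputable def site (i j : Fin d) (s : ℝ) : EuclideanSpace ℝ (Fin d) :=
  EuclideanSpace.single i s + EuclideanSpace.single j 1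

lemma inner_site (i j : Fin d) (s : ℝ) (x : EuclideanSpace ℝ (Fin d)) :
    ⟪x, site i j s⟫ = s * x i + x j := by
  simp [site, inner_add_right, EuclideanSpace.inner_single_right]

lemma one_le_norm_site {i j : Fin d} (hij : i ≠ j) (s : ℝ) : 1 ≤ ‖site i j s‖ := by
  have h1 : ‖site i j s j‖ ≤ ‖site i j s‖ := PiLp.norm_apply_le _ j
  simpa [site, hij.symm] using h1

lemma norm_site_le (i j : Fin d) {s : ℝ} (hs : |s| ≤ 1) : ‖site i j s‖ ≤ 2 := by
  refine (norm_add_le _ _).trans ?_
  simp only [PiLp.norm_single, Real.norm_eq_abs, abs_one]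
  linarith

lemma W2_le {i j : Fin d} (hij : i ≠ j) {h : ℝ} (h0 : 0 < h) (h1 : h ≤ 1 / 2) :
    W2 ((unif (cube d)).map (twoMap (site i j h) (1 - h)))
      ((unif (cube d)).map (twoMap (site i j (-h)) (1 - h))) ≤
      ENNReal.ofReal (4 * h ^ 3) ^ (1 / 2 : ℝ) := by
  have hT := measurable_twoMap (site i j h) (1 - h)
  have hS := measurable_twoMap (site i j (-h)) (1 - h)
  have hR : Measurable (refl1 i) := (refl1 i).continuous.measurable
  have hP : Measurable (fun x => (twoMap (site i j h) (1 - h) x,
      twoMap (site i j (-h)) (1 - h) (refl1 i x))) := hT.prodMk (hS.comp hR)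
  refine iInf₂_le_of_le ((unif (cube d)).map (fun x => (twoMap (site i j h) (1 - h) x,
      twoMap (site i j (-h)) (1 - h) (refl1 i x)))) ⟨?_, ?_⟩ ?_
  · rw [Measure.map_map measurable_fst hP]; rfl
  · rw [Measure.map_map measurable_snd hP]
    nth_rewrite 2 [← map_refl1 i]
    rw [Measure.map_map hS hR]; rfl
  · refine ENNReal.rpow_le_rpow ?_ (by norm_num)
    rw [lintegral_map (by fun_prop) hP]
    set B := box (d := d) (fun k => if k = j then 1 - 2 * h else -1) (fun _ => 1) with hB
    have hBsub : B ⊆ cube d := by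
      intro x hx k
      have := hx k
      simp only [mem_Icc] at this ⊢
      split_ifs at this <;> constructor <;> linarith [this.1, this.2]
    have hBvol : unif (cube d) B = ENNReal.ofReal h := by
      rw [hB, unif_cube_box _ _ hBsub, Finset.prod_eq_single j]
      · simp
      · intro k _ hk; simp [hk]
      · simp
    have hae : ∀ᵐ x ∂(unif (cube d)), x ∈ cube d :=
      Measure.ae_smul_measure (ae_restrict_mem (measurableSet_box _ _)) _
    calc _ ≤ ∫⁻ x, B.indicator (fun _ => ENNReal.ofReal (4 * h ^ 2)) x ∂(unif (cube d)) := by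
          refine lintegral_mono_ae ?_
          filter_upwards [hae] with x hx
          have e : ⟪refl1 i x, site i j (-h)⟫ = ⟪x, site i j h⟫ := by
            simp [inner_site, refl1_apply, hij.symm]
          simp only [twoMap, e]
          split_ifs with hc
          · have hxB : x ∈ B := by
              intro k
              have := hx k
              have h3 := hx i
              simp only [mem_Icc] at this h3 ⊢
              rw [inner_site] at hc
              split_ifs with hk
              · subst hk; constructor <;> nlinarith [this.1, this.2, h3.1, h3.2]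
              · exact this
            rw [indicator_of_mem hxB, enorm_sq_eq]
            refine ENNReal.ofReal_le_ofReal (le_of_eq ?_)
            have : site i j h - site i j (-h) = EuclideanSpace.single i (2 * h) := by
              ext k; simp only [site, PiLp.sub_apply, PiLp.add_apply, PiLp.single_apply]
              split_ifs <;> ring
            rw [this, PiLp.norm_single, Real.norm_eq_abs, sq_abs]; ring
          · simp
      _ = _ := by
          rw [lintegral_indicator_const (measurableSet_box _ _), hBvol,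
            ← ENNReal.ofReal_mul (by positivity)]
          congr 1; ring

lemma dist_ge {i j : Fin d} (hij : i ≠ j) {h : ℝ} (h0 : 0 < h) (h1 : h ≤ 1 / 2) :
    ENNReal.ofReal (h / 16) ≤ ∫⁻ x, ‖twoMap (site i j h) (1 - h) x -
      twoMap (site i j (-h)) (1 - h) x‖ₑ ^ 2 ∂(unif (cube d)) := by
  set B := box (d := d) (fun k => if k = j then 1 - 3 * h / 2 else if k = i then 1 / 2 else -1)
    (fun k => if k = j then 1 - h else 1) with hB
  have hBsub : B ⊆ cube d := by
    intro x hx k
    have := hx k
    simp only [mem_Icc] at this ⊢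
    split_ifs at this <;> constructor <;> linarith [this.1, this.2]
  have hBvol : unif (cube d) B = ENNReal.ofReal (h / 16) := by
    rw [hB, unif_cube_box _ _ hBsub, Finset.prod_eq_mul i j hij]
    · simp only [hij, if_true, if_false]
      rw [← ENNReal.ofReal_mul (by norm_num)]
      congr 1; ring
    · intro k _ hk; simp [hk.1, hk.2]
    · simp
    · simp
  rw [← hBvol, ← one_mul (unif (cube d) B), ← lintegral_indicator_const (measurableSet_box _ _)]
  refine lintegral_mono fun x => ?_
  by_cases hx : x ∈ B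
  · rw [indicator_of_mem hx]
    have h2 := hx i
    have h3 := hx j
    simp only [mem_Icc, hij, if_true, if_false] at h2 h3
    have c1 : 1 - h ≤ ⟪x, site i j h⟫ := by rw [inner_site]; nlinarith [h2.1, h3.1]
    have c2 : ¬ (1 - h ≤ ⟪x, site i j (-h)⟫) := by
      rw [inner_site]; push Not; nlinarith [h2.1, h3.2]
    simp only [twoMap, c1, c2, if_true, if_false, sub_zero, enorm_sq_eq]
    rw [← ENNReal.ofReal_one]
    exact ENNReal.ofReal_le_ofReal (one_le_pow₀ (one_le_norm_site hij h))
  · rw [indicator_of_notMem hx]; exact zero_le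

theorem le_third_of_admissible (hd : 2 ≤ d) {α : ℝ} (hα : Admissible d α) : α ≤ 1 / 3 := by
  by_contra hlt
  push Not at hlt
  obtain ⟨hα0, -, H⟩ := hα
  obtain ⟨C, hC⟩ := H (cube d) isCompact_cube convex_cube interior_cube
    (Metric.closedBall 0 2) (isCompact_closedBall _ _) ⟨0, by simp⟩
  set i : Fin d := ⟨0, by omega⟩
  set j : Fin d := ⟨1, by omega⟩
  have hij : i ≠ j := by simp [i, j]
  have hsupp : ∀ s c : ℝ, |s| ≤ 1 →
      ((unif (cube d)).map (twoMap (site i j s) c)) (Metric.closedBall 0 2)ᶜ = 0 := by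
    intro s c hs
    rw [Measure.map_apply (measurable_twoMap _ _) measurableSet_closedBall.compl]
    convert measure_empty (μ := unif (cube d))
    ext x
    simp only [mem_preimage, mem_compl_iff, mem_closedBall_zero_iff, mem_empty_iff_false,
      iff_false, not_not, twoMap]
    split_ifs
    · exact norm_site_le i j hs
    · simp
  have hne : ∀ s : ℝ, site i j s ≠ 0 := fun s hs => by
    have := one_le_norm_site hij s
    rw [hs, norm_zero] at this
    linarith
  have key : ∀ h : ℝ, 0 < h → h ≤ 1 / 2 →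
      (1 / 4 : ℝ) ≤ C * (4 : ℝ) ^ (α / 2) * h ^ ((3 * α - 1) / 2) := by
    intro h h0 h1
    have h2 := hC _ _ (Measure.isProbabilityMeasure_map (measurable_twoMap _ _).aemeasurable)
      (Measure.isProbabilityMeasure_map (measurable_twoMap _ _).aemeasurable)
      (hsupp h (1 - h) (by rw [abs_of_pos h0]; linarith))
      (hsupp (-h) (1 - h) (by rw [abs_neg, abs_of_pos h0]; linarith)) _ _
      (twoMap_optimal _ _ (hne _) _) (twoMap_optimal _ _ (hne _) _)
    have h3 : ENNReal.ofReal (h / 16) ^ (1 / 2 : ℝ) ≤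
        C * (ENNReal.ofReal (4 * h ^ 3) ^ (1 / 2 : ℝ)) ^ α :=
      calc _ ≤ _ := ENNReal.rpow_le_rpow (dist_ge hij h0 h1) (by norm_num)
        _ ≤ _ := h2
        _ ≤ _ := by gcongr; exact W2_le hij h0 h1
    rw [← ENNReal.rpow_mul, ENNReal.ofReal_rpow_of_nonneg (by positivity) (by norm_num),
      ENNReal.ofReal_rpow_of_nonneg (by positivity) (by positivity),
      ← ENNReal.ofReal_coe_nnreal, ← ENNReal.ofReal_mul (by positivity),
      ENNReal.ofReal_le_ofReal_iff (by positivity)] at h3
    have e1 : (h / 16) ^ (1 / 2 : ℝ) = (1 / 4) * h ^ (1 / 2 : ℝ) := by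
      rw [Real.div_rpow h0.le (by norm_num), show (16 : ℝ) = 4 ^ (2 : ℝ) by norm_num,
        ← Real.rpow_mul (by norm_num)]
      norm_num; ring
    have e2 : (4 * h ^ 3) ^ (1 / 2 * α) =
        (4 : ℝ) ^ (α / 2) * h ^ ((3 * α - 1) / 2) * h ^ (1 / 2 : ℝ) := by
      rw [Real.mul_rpow (by norm_num) (by positivity), ← Real.rpow_natCast,
        ← Real.rpow_mul h0.le, mul_assoc, ← Real.rpow_add h0]
      congr 2
      · ring
      · push_cast; ring
    rw [e1, e2, ← mul_assoc, ← mul_assoc] at h3
    exact le_of_mul_le_mul_right h3 (by positivity)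
  have hlim : Tendsto (fun h : ℝ => C * (4 : ℝ) ^ (α / 2) * h ^ ((3 * α - 1) / 2)) (𝓝[>] 0)
      (𝓝 (C * (4 : ℝ) ^ (α / 2) * 0 ^ ((3 * α - 1) / 2))) := by
    refine Tendsto.const_mul _ (Tendsto.mono_left ?_ nhdsWithin_le_nhds)
    exact (Real.continuousAt_rpow_const 0 _ (Or.inr (by linarith))).tendsto
  rw [Real.zero_rpow (by linarith), mul_zero] at hlim
  have h4 : ∀ᶠ h in 𝓝[>] (0 : ℝ), (1 / 4 : ℝ) ≤ C * (4 : ℝ) ^ (α / 2) * h ^ ((3 * α - 1) / 2) := by
    filter_upwards [Ioc_mem_nhdsGT (show (0 : ℝ) < 1 / 2 by norm_num)] with h hh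
    exact key h hh.1 hh.2
  have := ge_of_tendsto hlim h4
  linarith

end Vale.Agent.P074
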