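import Mathlib

open MeasureTheory Set Filter Topology
open scoped ENNReal NNReal

namespace Vale.Agent.P074

lemma mono_lt_of_hasDerivAt {F : ℝ → ℝ} (hF : Monotone F) {x c : ℝ} (h : HasDerivAt F c x)
    (hc : 0 < c) : (∀ z, x < z → F x < F z) ∧ (∀ z, z < x → F z < F x) := by
  have hne := h.eventually_ne (c := F x) hc.ne'
  constructor
  · intro z hz
    rcases (hF hz.le).lt_or_eq with h1 | h1
    · exact h1
    · exfalso
      have h2 : ∀ᶠ w in 𝓝[>] x, F w ≠ F x := hne.filter_mono (nhdsGT_le_nhdsNE x)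
      have h3 : ∀ᶠ w in 𝓝[>] x, w ∈ Ioo x z := Ioo_mem_nhdsGT hz
      obtain ⟨w, hw1, hw2⟩ := (h2.and h3).exists
      exact hw1 (le_antisymm (h1 ▸ hF hw2.2.le) (hF hw2.1.le))
  · intro z hz
    rcases (hF hz.le).lt_or_eq with h1 | h1
    · exact h1
    · exfalso
      have h2 : ∀ᶠ w in 𝓝[<] x, F w ≠ F x := hne.filter_mono (nhdsLT_le_nhdsNE x)
      have h3 : ∀ᶠ w in 𝓝[<] x, w ∈ Ioo z x := Ioo_mem_nhdsLT hz
      obtain ⟨w, hw1, hw2⟩ := (h2.and h3).exists
      exact hw1 (le_antisymm (hF hw2.2.le) (h1 ▸ hF hw2.1.le))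

/-- Quantile function of a density on the line, with its derivative. -/
lemma exists_quantile (f : ℝ → ℝ≥0∞) (hf : Measurable f) (h0 : ∫⁻ x, f x ≠ 0)
    (h1 : ∫⁻ x, f x ≠ ∞) :
    ∃ (U : Set ℝ) (t : ℝ → ℝ), MeasurableSet U ∧ U =ᵐ[volume] Icc (0 : ℝ) 1 ∧ StrictMonoOn t U ∧
      ∀ u ∈ U, f (t u) ≠ 0 ∧ f (t u) ≠ ∞ ∧
        HasDerivWithinAt t ((∫⁻ x, f x).toReal / (f (t u)).toReal) U u := by
  set m := ∫⁻ x, f x with hm
  have hmpos : 0 < m.toReal := ENNReal.toReal_pos h0 h1
  set φ : ℝ → ℝ≥0∞ := fun x => m⁻¹ * f x with hφ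
  have hφm : Measurable φ := hf.const_mul _
  set μ : Measure ℝ := volume.withDensity φ with hμ
  have hφint : ∫⁻ x, φ x = 1 := by
    rw [hφ, lintegral_const_mul _ hf, ← hm, ENNReal.inv_mul_cancel h0 h1]
  have : IsProbabilityMeasure μ := ⟨by
    rw [hμ, withDensity_apply _ MeasurableSet.univ, Measure.restrict_univ, hφint]⟩
  set F : ℝ → ℝ := fun x => ProbabilityTheory.cdf μ x with hFdef
  have hFmono : Monotone F := ProbabilityTheory.monotone_cdf μ
  have hae : ∀ᵐ x, HasDerivAt F (φ x).toReal x := by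
    have h2 := StieltjesFunction.ae_hasDerivAt (ProbabilityTheory.cdf μ)
    rw [ProbabilityTheory.measure_cdf] at h2
    have h3 : μ.rnDeriv volume =ᵐ[volume] φ := Measure.rnDeriv_withDensity _ hφm
    filter_upwards [h2, h3] with x hx hx'
    rw [← hx']; exact hx
  have hfin : ∀ᵐ x, f x < ∞ := ae_lt_top hf h1
  set X : Set ℝ := {x | DifferentiableAt ℝ F x} ∩ {x | deriv F x = (φ x).toReal} ∩
    {x | f x ≠ 0} ∩ {x | f x ≠ ∞} with hX
  have hXm : MeasurableSet X := by
    refine (((measurableSet_of_differentiableAt ℝ F).inter ?_).inter ?_).inter ?_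
    · exact measurableSet_eq_fun (measurable_deriv F) hφm.ennreal_toReal
    · exact (hf (measurableSet_singleton 0)).compl
    · exact (hf (measurableSet_singleton ∞)).compl
  have hφval : ∀ x, (φ x).toReal = (f x).toReal / m.toReal := by
    intro x
    simp only [hφ, ENNReal.toReal_mul, ENNReal.toReal_inv]
    ring
  have hXd : ∀ x ∈ X, HasDerivAt F (φ x).toReal x ∧ 0 < (φ x).toReal := by
    rintro x ⟨⟨⟨h2, h3⟩, h4⟩, h5⟩
    refine ⟨?_, ?_⟩
    · have h6 : deriv F x = (φ x).toReal := h3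
      rw [← h6]; exact h2.hasDerivAt
    · rw [hφval]; exact div_pos (ENNReal.toReal_pos h4 h5) hmpos
  have hinj : InjOn F X := by
    intro x hx z hz hxz
    rcases lt_trichotomy x z with h | h | h
    · exact absurd hxz ((mono_lt_of_hasDerivAt hFmono (hXd x hx).1 (hXd x hx).2).1 z h).ne
    · exact h
    · exact absurd hxz ((mono_lt_of_hasDerivAt hFmono (hXd x hx).1 (hXd x hx).2).2 z h).ne'
  have hUm : MeasurableSet (F '' X) :=
    hXm.image_of_continuousOn_injOn
      (fun x hx => (hXd x hx).1.continuousAt.continuousWithinAt) hinj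
  have hUvol : volume (F '' X) = 1 := by
    have h2 := lintegral_image_eq_lintegral_abs_deriv_mul hXm
      (fun x hx => (hXd x hx).1.hasDerivWithinAt) hinj (fun _ => 1)
    simp only [lintegral_const, MeasurableSet.univ, Measure.restrict_apply, univ_inter, one_mul,
      mul_one] at h2
    rw [h2, ← hφint, ← lintegral_indicator hXm]
    refine lintegral_congr_ae ?_
    filter_upwards [hae, hfin] with x hx hx'
    by_cases hxX : x ∈ X
    · rw [indicator_of_mem hxX, abs_of_nonneg ENNReal.toReal_nonneg, ENNReal.ofReal_toReal]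
      exact ENNReal.mul_ne_top (ENNReal.inv_ne_top.2 h0) hx'.ne
    · rw [indicator_of_notMem hxX]
      have : f x = 0 := by
        by_contra hne
        exact hxX ⟨⟨⟨hx.differentiableAt, hx.deriv⟩, hne⟩, hx'.ne⟩
      simp [hφ, this]
  set t : ℝ → ℝ := Function.invFunOn F X with ht
  have htX : ∀ u ∈ F '' X, t u ∈ X := fun u hu => Function.invFunOn_mem hu
  have hFt : ∀ u ∈ F '' X, F (t u) = u := fun u hu => Function.invFunOn_eq hu
  refine ⟨F '' X, t, hUm, ?_, ?_, ?_⟩
  · refine ae_eq_of_subset_of_measure_ge ?_ ?_ hUm.nullMeasurableSet (by simp)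
    · rintro _ ⟨x, -, rfl⟩
      exact ⟨ProbabilityTheory.cdf_nonneg μ x, ProbabilityTheory.cdf_le_one μ x⟩
    · simp [hUvol]
  · intro u hu v hv huv
    by_contra hle
    have := hFmono (not_lt.1 hle)
    rw [hFt u hu, hFt v hv] at this
    linarith
  · intro u hu
    have hx := htX u hu
    refine ⟨hx.1.2, hx.2, ?_⟩
    obtain ⟨hd, hpos⟩ := hXd _ hx
    have hlt := mono_lt_of_hasDerivAt hFmono hd hpos
    have htend : Tendsto t (𝓝[F '' X] u) (𝓝[univ] (t u)) := by
      rw [nhdsWithin_univ]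
      refine tendsto_order.2 ⟨fun a ha => ?_, fun a ha => ?_⟩
      · have h2 : F a < u := by simpa [hFt u hu] using hlt.2 a ha
        have h3 : ∀ᶠ v in 𝓝[F '' X] u, F a < v :=
          (lt_mem_nhds h2).filter_mono nhdsWithin_le_nhds
        filter_upwards [h3, self_mem_nhdsWithin] with v hv hvU
        by_contra hle
        have := hFmono (not_lt.1 hle)
        rw [hFt v hvU] at this
        linarith
      · have h2 : u < F a := by simpa [hFt u hu] using hlt.1 a ha
        have h3 : ∀ᶠ v in 𝓝[F '' X] u, v < F a :=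
          (gt_mem_nhds h2).filter_mono nhdsWithin_le_nhds
        filter_upwards [h3, self_mem_nhdsWithin] with v hv hvU
        by_contra hle
        have := hFmono (not_lt.1 hle)
        rw [hFt v hvU] at this
        linarith
    have h4 := ((hd.hasFDerivAt_equiv hpos.ne').hasFDerivWithinAt (s := univ)).of_local_left_inverse
      htend hu (by filter_upwards [self_mem_nhdsWithin] with v hv using hFt v hv)
    have h5 := h4.hasDerivWithinAt
    refine h5.congr_deriv ?_
    simp [hφval]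

/-- The four-function form of the weighted Prekopa-Leindler inequality. -/
def FourFn {E : Type*} [MeasurableSpace E] (μ : Measure E) (mid : E → E → E) : Prop :=
  ∀ f g A B J : E → ℝ≥0∞, Measurable f → Measurable g → Measurable A → Measurable B →
    Measurable J →
    (∀ x y, A x * g y ≤ (f x * g y) ^ (1 / 2 : ℝ) * J (mid x y) + f x * B y) →
    (∫⁻ x, A x ∂μ) * (∫⁻ x, g x ∂μ) ≤
      ((∫⁻ x, f x ∂μ) * (∫⁻ x, g x ∂μ)) ^ (1 / 2 : ℝ) * (∫⁻ x, J x ∂μ) +
        (∫⁻ x, f x ∂μ) * (∫⁻ x, B x ∂μ)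

lemma pointwise_aux {a b M N : ℝ} (ha : 0 < a) (hb : 0 < b) (hM : 0 < M) (hN : 0 < N)
    {A B J : ℝ≥0∞}
    (h : A * ENNReal.ofReal b ≤ (ENNReal.ofReal a * ENNReal.ofReal b) ^ (1 / 2 : ℝ) * J +
      ENNReal.ofReal a * B) :
    ENNReal.ofReal (|M / a|) * A * ENNReal.ofReal N ≤
      (ENNReal.ofReal M * ENNReal.ofReal N) ^ (1 / 2 : ℝ) *
        (ENNReal.ofReal (|(M / a + N / b) / 2|) * J) +
      ENNReal.ofReal M * (ENNReal.ofReal (|N / b|) * B) := by
  rw [abs_of_pos (by positivity), abs_of_pos (by positivity), abs_of_pos (by positivity)]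
  have e1 : ENNReal.ofReal (M / a) * A * ENNReal.ofReal N =
      ENNReal.ofReal (M * N / (a * b)) * (A * ENNReal.ofReal b) := by
    have : ENNReal.ofReal (M / a) * ENNReal.ofReal N =
        ENNReal.ofReal (M * N / (a * b)) * ENNReal.ofReal b := by
      rw [← ENNReal.ofReal_mul (by positivity), ← ENNReal.ofReal_mul (by positivity)]
      congr 1; field_simp
    calc _ = (ENNReal.ofReal (M / a) * ENNReal.ofReal N) * A := by ring
      _ = _ := by rw [this]; ring
  have e2 : ENNReal.ofReal M * (ENNReal.ofReal (N / b) * B) =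
      ENNReal.ofReal (M * N / (a * b)) * (ENNReal.ofReal a * B) := by
    have : ENNReal.ofReal M * ENNReal.ofReal (N / b) =
        ENNReal.ofReal (M * N / (a * b)) * ENNReal.ofReal a := by
      rw [← ENNReal.ofReal_mul (by positivity), ← ENNReal.ofReal_mul (by positivity)]
      congr 1; field_simp
    rw [← mul_assoc, this, mul_assoc]
  have e3 : ENNReal.ofReal (M * N / (a * b)) * (ENNReal.ofReal a * ENNReal.ofReal b) ^ (1 / 2 : ℝ) ≤
      (ENNReal.ofReal M * ENNReal.ofReal N) ^ (1 / 2 : ℝ) * ENNReal.ofReal ((M / a + N / b) / 2) := by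
    rw [← ENNReal.ofReal_mul ha.le, ← ENNReal.ofReal_mul hM.le,
      ENNReal.ofReal_rpow_of_nonneg (by positivity) (by norm_num),
      ENNReal.ofReal_rpow_of_nonneg (by positivity) (by norm_num),
      ← ENNReal.ofReal_mul (by positivity), ← ENNReal.ofReal_mul (by positivity)]
    refine ENNReal.ofReal_le_ofReal ?_
    rw [← Real.sqrt_eq_rpow, ← Real.sqrt_eq_rpow, Real.sqrt_mul ha.le, Real.sqrt_mul hM.le]
    obtain ⟨p, hp, rfl⟩ : ∃ p, 0 < p ∧ a = p ^ 2 := ⟨√a, by positivity, (Real.sq_sqrt ha.le).symm⟩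
    obtain ⟨q, hq, rfl⟩ : ∃ p, 0 < p ∧ b = p ^ 2 := ⟨√b, by positivity, (Real.sq_sqrt hb.le).symm⟩
    obtain ⟨r, hr, rfl⟩ : ∃ p, 0 < p ∧ M = p ^ 2 := ⟨√M, by positivity, (Real.sq_sqrt hM.le).symm⟩
    obtain ⟨s, hs, rfl⟩ : ∃ p, 0 < p ∧ N = p ^ 2 := ⟨√N, by positivity, (Real.sq_sqrt hN.le).symm⟩
    simp only [Real.sqrt_sq hp.le, Real.sqrt_sq hq.le, Real.sqrt_sq hr.le, Real.sqrt_sq hs.le]
    have : r * s * ((r ^ 2 / p ^ 2 + s ^ 2 / q ^ 2) / 2) - r ^ 2 * s ^ 2 / (p ^ 2 * q ^ 2) * (p * q)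
        = r * s * (r / p - s / q) ^ 2 / 2 := by
      field_simp; ring
    have h2 : 0 ≤ r * s * (r / p - s / q) ^ 2 / 2 := by positivity
    linarith
  rw [e1, e2]
  calc _ ≤ ENNReal.ofReal (M * N / (a * b)) *
        ((ENNReal.ofReal a * ENNReal.ofReal b) ^ (1 / 2 : ℝ) * J + ENNReal.ofReal a * B) := by
        gcongr
    _ = ENNReal.ofReal (M * N / (a * b)) * (ENNReal.ofReal a * ENNReal.ofReal b) ^ (1 / 2 : ℝ) * J +
        ENNReal.ofReal (M * N / (a * b)) * (ENNReal.ofReal a * B) := by ring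
    _ ≤ _ := by
        rw [← mul_assoc ((ENNReal.ofReal M * ENNReal.ofReal N) ^ (1 / 2 : ℝ))]
        gcongr

theorem fourFn_real : FourFn (volume : Measure ℝ) (fun x y => (x + y) / 2) := by
  intro f g A B J hf hg hA hB hJ h
  by_cases hg0 : ∫⁻ x, g x = 0
  · simp [hg0]
  by_cases hf0 : ∫⁻ x, f x = 0
  · have h2 : ∀ᵐ x, f x = 0 := (lintegral_eq_zero_iff hf).1 hf0
    have h3 : (∫⁻ x, A x) * (∫⁻ x, g x) = 0 := by
      rw [← lintegral_mul_const _ hA]
      refine lintegral_congr_ae (g := fun _ => 0) ?_ |>.trans lintegral_zero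
      filter_upwards [h2] with x hx
      rw [← lintegral_const_mul _ hg]
      refine lintegral_congr (g := fun _ => 0) (fun y => ?_) |>.trans lintegral_zero
      have := h x y
      simpa [hx] using this
    simp [h3]
  by_cases hJ0 : ∫⁻ x, J x = 0
  · have h2 : ∀ᵐ x, J x = 0 := (lintegral_eq_zero_iff hJ).1 hJ0
    rw [hJ0, mul_zero, zero_add, ← lintegral_mul_const _ hA, ← lintegral_mul_const _ hf]
    refine lintegral_mono fun x => ?_
    rw [← lintegral_const_mul _ hg, ← lintegral_const_mul _ hB]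
    refine lintegral_mono_ae ?_
    have hq : Measure.QuasiMeasurePreserving (fun y : ℝ => (x + y) / 2) volume volume := by
      have e : (fun y : ℝ => (x + y) / 2) = (fun y : ℝ => (1 / 2 : ℝ) • y) ∘ (fun y => x + y) := by
        ext y; simp; ring
      rw [e]
      refine Measure.QuasiMeasurePreserving.comp ?_ (measurePreserving_add_left volume x).quasiMeasurePreserving
      refine ⟨by fun_prop, ?_⟩
      rw [Measure.map_addHaar_smul volume (by norm_num)]
      exact Measure.smul_absolutelyContinuous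
    filter_upwards [hq.ae h2] with y hy
    have := h x y
    rwa [hy, mul_zero, zero_add] at this
  by_cases hinf : (∫⁻ x, f x) * (∫⁻ x, g x) = ∞
  · rw [hinf, ENNReal.top_rpow_of_pos (by norm_num), ENNReal.top_mul hJ0]
    simp
  have hf1 : ∫⁻ x, f x ≠ ∞ := fun h' => hinf (by rw [h', ENNReal.top_mul hg0])
  have hg1 : ∫⁻ x, g x ≠ ∞ := fun h' => hinf (by rw [h', ENNReal.mul_top hf0])
  obtain ⟨U, t, hU, hUae, ht, htd⟩ := exists_quantile f hf hf0 hf1
  obtain ⟨V, s, hV, hVae, hs, hsd⟩ := exists_quantile g hg hg0 hg1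
  set M := (∫⁻ x, f x).toReal with hM
  set N := (∫⁻ x, g x).toReal with hN
  have hMpos : 0 < M := ENNReal.toReal_pos hf0 hf1
  have hNpos : 0 < N := ENNReal.toReal_pos hg0 hg1
  have eM : ∫⁻ x, f x = ENNReal.ofReal M := (ENNReal.ofReal_toReal hf1).symm
  have eN : ∫⁻ x, g x = ENNReal.ofReal N := (ENNReal.ofReal_toReal hg1).symm
  set W := U ∩ V with hW
  have hWm : MeasurableSet W := hU.inter hV
  have hWvol : volume W = 1 := by
    have : W =ᵐ[volume] Icc (0 : ℝ) 1 := by
      have := hUae.inter hVae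
      simpa using this
    rw [measure_congr this]; simp
  have htW : StrictMonoOn t W := ht.mono inter_subset_left
  have hsW : StrictMonoOn s W := hs.mono inter_subset_right
  have htd' : ∀ u ∈ W, HasDerivWithinAt t (M / (f (t u)).toReal) W u :=
    fun u hu => (htd u hu.1).2.2.mono inter_subset_left
  have hsd' : ∀ u ∈ W, HasDerivWithinAt s (N / (g (s u)).toReal) W u :=
    fun u hu => (hsd u hu.2).2.2.mono inter_subset_right
  have hrd : ∀ u ∈ W, HasDerivWithinAt (fun u => (t u + s u) / 2)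
      ((M / (f (t u)).toReal + N / (g (s u)).toReal) / 2) W u :=
    fun u hu => ((htd' u hu).add (hsd' u hu)).div_const 2
  have hrW : StrictMonoOn (fun u => (t u + s u) / 2) W := by
    intro u hu v hv huv
    have := htW hu hv huv
    have := hsW hu hv huv
    simp only; linarith
  have cJ := lintegral_image_eq_lintegral_abs_deriv_mul hWm hrd hrW.injOn J
  have cB := lintegral_image_eq_lintegral_abs_deriv_mul hWm hsd' hsW.injOn B
  have cA := lintegral_image_eq_lintegral_abs_deriv_mul hWm htd' htW.injOn A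
  have cf := lintegral_image_eq_lintegral_abs_deriv_mul hWm htd' htW.injOn f
  have htWm : MeasurableSet (t '' W) :=
    hWm.image_of_continuousOn_injOn (fun u hu => (htd' u hu).continuousWithinAt) htW.injOn
  have cf' : ∫⁻ x in t '' W, f x = ∫⁻ x, f x := by
    rw [cf, eM]
    have : ∀ u ∈ W, ENNReal.ofReal (|M / (f (t u)).toReal|) * f (t u) = ENNReal.ofReal M := by
      intro u hu
      obtain ⟨h1, h2, -⟩ := htd u hu.1
      have hp : 0 < (f (t u)).toReal := ENNReal.toReal_pos h1 h2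
      rw [abs_of_pos (by positivity)]
      nth_rewrite 2 [← ENNReal.ofReal_toReal h2]
      rw [← ENNReal.ofReal_mul (by positivity)]
      congr 1; field_simp
    rw [setLIntegral_congr_fun hWm this]
    simp [hWvol]
  have hfc : ∫⁻ x in (t '' W)ᶜ, f x = 0 := by
    have := lintegral_add_compl (μ := volume) f htWm
    rw [cf'] at this
    nth_rewrite 2 [← add_zero (∫⁻ x, f x)] at this
    exact (ENNReal.add_right_inj hf1).1 this
  obtain ⟨y0, hy0⟩ : ∃ y, g y ≠ 0 := by
    by_contra hne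
    push Not at hne
    exact hg0 (by simp [hne])
  have hAc : ∫⁻ x in (t '' W)ᶜ, A x = 0 := by
    rw [lintegral_eq_zero_iff hA]
    have := (lintegral_eq_zero_iff hf).1 hfc
    filter_upwards [this] with x hx
    have h2 := h x y0
    simp only [Pi.zero_apply] at hx
    simpa [hx, hy0] using h2
  have eA : ∫⁻ x, A x = ∫⁻ u in W, ENNReal.ofReal (|M / (f (t u)).toReal|) * A (t u) := by
    rw [← cA, ← lintegral_add_compl (μ := volume) A htWm, hAc, add_zero]
  have hsm : AEMeasurable s (volume.restrict W) :=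
    aemeasurable_restrict_of_monotoneOn hWm hsW.monotoneOn
  have hBm : AEMeasurable (fun u => ENNReal.ofReal M *
      (ENNReal.ofReal (|N / (g (s u)).toReal|) * B (s u))) (volume.restrict W) := by
    have : Measurable (fun y => ENNReal.ofReal M *
      (ENNReal.ofReal (|N / (g y).toReal|) * B y)) := by fun_prop
    exact this.comp_aemeasurable hsm
  rw [eA, eM, eN, ← lintegral_mul_const' _ _ ENNReal.ofReal_ne_top]
  calc _ ≤ ∫⁻ u in W, ((ENNReal.ofReal M * ENNReal.ofReal N) ^ (1 / 2 : ℝ) *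
        (ENNReal.ofReal (|(M / (f (t u)).toReal + N / (g (s u)).toReal) / 2|) * J ((t u + s u) / 2)) +
        ENNReal.ofReal M * (ENNReal.ofReal (|N / (g (s u)).toReal|) * B (s u))) := by
        refine setLIntegral_mono' hWm fun u hu => ?_
        obtain ⟨h1, h2, -⟩ := htd u hu.1
        obtain ⟨h3, h4, -⟩ := hsd u hu.2
        refine pointwise_aux (ENNReal.toReal_pos h1 h2) (ENNReal.toReal_pos h3 h4) hMpos hNpos ?_
        rw [ENNReal.ofReal_toReal h2, ENNReal.ofReal_toReal h4]
        exact h _ _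
    _ = _ := lintegral_add_right' _ hBm
    _ ≤ _ := by
        rw [lintegral_const_mul' _ _ (ENNReal.rpow_ne_top_of_nonneg (by norm_num)
          (ENNReal.mul_ne_top ENNReal.ofReal_ne_top ENNReal.ofReal_ne_top)),
          lintegral_const_mul' _ _ ENNReal.ofReal_ne_top, ← cJ, ← cB]
        gcongr
        · exact Measure.restrict_le_self
        · exact Measure.restrict_le_self

end Vale.Agent.P074
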