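import Mathlib
import Vale.Agent.P074.PL1

open MeasureTheory Set Filter Topology
open scoped ENNReal NNReal

namespace Vale.Agent.P074

theorem FourFn.prod {E F : Type*} [MeasurableSpace E] [MeasurableSpace F] {μ : Measure E}
    {ν : Measure F} [SFinite μ] [SFinite ν] {m1 : E → E → E} {m2 : F → F → F}
    (h1 : FourFn μ m1) (h2 : FourFn ν m2) :
    FourFn (μ.prod ν) (fun p q => (m1 p.1 q.1, m2 p.2 q.2)) := by
  intro f g A B J hf hg hA hB hJ h
  rw [lintegral_prod _ hf.aemeasurable, lintegral_prod _ hg.aemeasurable,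
    lintegral_prod _ hA.aemeasurable, lintegral_prod _ hB.aemeasurable,
    lintegral_prod _ hJ.aemeasurable]
  refine h1 _ _ _ _ _ hf.lintegral_prod_right' hg.lintegral_prod_right' hA.lintegral_prod_right'
    hB.lintegral_prod_right' hJ.lintegral_prod_right' fun x y => ?_
  exact h2 (fun a => f (x, a)) (fun a => g (y, a)) (fun a => A (x, a)) (fun a => B (y, a))
    (fun a => J (m1 x y, a)) (by fun_prop) (by fun_prop) (by fun_prop) (by fun_prop) (by fun_prop)
    fun a b => h (x, a) (y, b)

theorem FourFn.transfer {E F : Type*} [MeasurableSpace E] [MeasurableSpace F] {μ : Measure E}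
    {ν : Measure F} {m1 : E → E → E} {m2 : F → F → F} (e : E → F)
    (he : MeasurePreserving e μ ν) (hm : ∀ x y, e (m1 x y) = m2 (e x) (e y))
    (h1 : FourFn μ m1) : FourFn ν m2 := by
  intro f g A B J hf hg hA hB hJ h
  rw [← he.lintegral_comp hf, ← he.lintegral_comp hg, ← he.lintegral_comp hA,
    ← he.lintegral_comp hB, ← he.lintegral_comp hJ]
  refine h1 (fun a => f (e a)) (fun a => g (e a)) (fun a => A (e a)) (fun a => B (e a))
    (fun a => J (e a)) (hf.comp he.measurable) (hg.comp he.measurable) (hA.comp he.measurable)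
    (hB.comp he.measurable) (hJ.comp he.measurable) fun x y => ?_
  rw [hm]; exact h _ _

theorem fourFn_pi (n : ℕ) :
    FourFn (volume : Measure (Fin n → ℝ)) (fun x y => (1 / 2 : ℝ) • (x + y)) := by
  induction n with
  | zero =>
    intro f g A B J hf hg hA hB hJ h
    have hu : (volume : Measure (Fin 0 → ℝ)) univ = 1 := by
      simp [volume_pi]
    simp only [lintegral_unique, hu, mul_one]
    generalize (@default (Fin 0 → ℝ) Unique.instInhabited) = z
    have := h z z
    have e : J ((fun x y => (1 / 2 : ℝ) • (x + y)) z z) = J z :=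
      congrArg J (Subsingleton.elim _ _)
    rw [e] at this
    exact this
  | succ n ih =>
    have h1 := fourFn_real.prod ih
    refine h1.transfer (MeasurableEquiv.piFinSuccAbove (fun _ : Fin (n + 1) => ℝ) 0).symm
      ((volume_preserving_piFinSuccAbove (fun _ : Fin (n + 1) => ℝ) 0).symm _) fun x y => ?_
    ext i
    refine Fin.cases ?_ (fun j => ?_) i
    · simp [MeasurableEquiv.piFinSuccAbove_symm_apply, Fin.insertNthEquiv]; ring
    · simp [MeasurableEquiv.piFinSuccAbove_symm_apply, Fin.insertNthEquiv]; ring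

theorem fourFn_euclid (d : ℕ) :
    FourFn (volume : Measure (EuclideanSpace ℝ (Fin d))) (fun x y => (1 / 2 : ℝ) • (x + y)) := by
  refine (fourFn_pi d).transfer (WithLp.toLp 2) (PiLp.volume_preserving_toLp (Fin d)) fun x y => ?_
  simp

/-- Four-function inequality on a set stable under the midpoint operation. -/
theorem FourFn.restrict {E : Type*} [MeasurableSpace E] {μ : Measure E} {m : E → E → E}
    (h1 : FourFn μ m) {K : Set E} (hK : MeasurableSet K) (hm : ∀ x ∈ K, ∀ y ∈ K, m x y ∈ K)
    (c : ℝ≥0∞)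
    (f g A B J : E → ℝ≥0∞) (hf : Measurable f) (hg : Measurable g) (hA : Measurable A)
    (hB : Measurable B) (hJ : Measurable J)
    (h : ∀ x ∈ K, ∀ y ∈ K, A x * g y ≤ (f x * g y) ^ (1 / 2 : ℝ) * J (m x y) + f x * B y) :
    (∫⁻ x, A x ∂(c • μ.restrict K)) * (∫⁻ x, g x ∂(c • μ.restrict K)) ≤
      ((∫⁻ x, f x ∂(c • μ.restrict K)) * (∫⁻ x, g x ∂(c • μ.restrict K))) ^ (1 / 2 : ℝ) *
        (∫⁻ x, J x ∂(c • μ.restrict K)) +
        (∫⁻ x, f x ∂(c • μ.restrict K)) * (∫⁻ x, B x ∂(c • μ.restrict K)) := by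
  have h2 := h1 (K.indicator f) (K.indicator g) (K.indicator A) (K.indicator B) (K.indicator J)
    (hf.indicator hK) (hg.indicator hK) (hA.indicator hK) (hB.indicator hK) (hJ.indicator hK)
    (fun x y => by
      by_cases hx : x ∈ K
      · by_cases hy : y ∈ K
        · simp only [indicator_of_mem hx, indicator_of_mem hy, indicator_of_mem (hm x hx y hy)]
          exact h x hx y hy
        · simp [indicator_of_notMem hy]
      · simp [indicator_of_notMem hx])
  simp only [lintegral_indicator hK] at h2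
  simp only [lintegral_smul_measure, smul_eq_mul]
  have e : ∀ a b : ℝ≥0∞, (c * a * (c * b)) ^ (1 / 2 : ℝ) = c * (a * b) ^ (1 / 2 : ℝ) := by
    intro a b
    have : c * a * (c * b) = c ^ (2 : ℝ) * (a * b) := by
      rw [ENNReal.rpow_two]; ring
    rw [this, ENNReal.mul_rpow_of_nonneg _ _ (by norm_num), ← ENNReal.rpow_mul]
    norm_num
  rw [e]
  calc _ = (c * c) * ((∫⁻ x in K, A x ∂μ) * ∫⁻ x in K, g x ∂μ) := by ring
    _ ≤ (c * c) * _ := mul_le_mul_right h2 _
    _ = _ := by ring

end Vale.Agent.P074
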