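import Mathlib
import Vale.Agent.P074.Defs
import Vale.Agent.P074.PLd

open MeasureTheory Set Filter Topology
open scoped ENNReal NNReal RealInnerProductSpace

namespace Vale.Agent.P074

variable {d : ℕ}

/-- The standing assumptions on the source: a probability measure carried by a compact convex
set inside a ball, satisfying the four-function inequality. -/
structure Good (ρ : Measure (EuclideanSpace ℝ (Fin d))) (K : Set (EuclideanSpace ℝ (Fin d)))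
    (R : ℝ) : Prop where
  prob : IsProbabilityMeasure ρ
  cpt : IsCompact K
  cvx : Convex ℝ K
  ae : ∀ᵐ x ∂ρ, x ∈ K
  Rpos : 0 < R
  bdd : ∀ x ∈ K, ‖x‖ ≤ R
  four : ∀ f g A B J : EuclideanSpace ℝ (Fin d) → ℝ≥0∞, Measurable f → Measurable g →
    Measurable A → Measurable B → Measurable J →
    (∀ x ∈ K, ∀ y ∈ K, A x * g y ≤ (f x * g y) ^ (1 / 2 : ℝ) * J ((1 / 2 : ℝ) • (x + y)) +
      f x * B y) →
    (∫⁻ x, A x ∂ρ) * (∫⁻ x, g x ∂ρ) ≤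
      ((∫⁻ x, f x ∂ρ) * (∫⁻ x, g x ∂ρ)) ^ (1 / 2 : ℝ) * (∫⁻ x, J x ∂ρ) +
        (∫⁻ x, f x ∂ρ) * (∫⁻ x, B x ∂ρ)

lemma mid_mem {K : Set (EuclideanSpace ℝ (Fin d))} (hK : Convex ℝ K)
    {x y : EuclideanSpace ℝ (Fin d)} (hx : x ∈ K) (hy : y ∈ K) : (1 / 2 : ℝ) • (x + y) ∈ K := by
  rw [smul_add]; exact hK hx hy (by norm_num) (by norm_num) (by norm_num)

lemma good_unif {K : Set (EuclideanSpace ℝ (Fin d))} (hK : IsCompact K) (hc : Convex ℝ K)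
    (hi : (interior K).Nonempty) {R : ℝ} (hR : 0 < R) (hb : ∀ x ∈ K, ‖x‖ ≤ R) :
    Good (unif K) K R where
  prob := ⟨by
    rw [unif, Measure.smul_apply, Measure.restrict_apply MeasurableSet.univ, univ_inter,
      smul_eq_mul, ENNReal.inv_mul_cancel (Measure.measure_pos_of_nonempty_interior _ hi).ne'
        hK.measure_lt_top.ne]⟩
  cpt := hK
  cvx := hc
  ae := Measure.ae_smul_measure (ae_restrict_mem hK.measurableSet) _
  Rpos := hR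
  bdd := hb
  four := fun f g A B J hf hg hA hB hJ h =>
    (fourFn_euclid d).restrict hK.measurableSet (fun _ hx _ hy => mid_mem hc hx hy) _
      f g A B J hf hg hA hB hJ h

variable {ρ : Measure (EuclideanSpace ℝ (Fin d))} {K : Set (EuclideanSpace ℝ (Fin d))} {R : ℝ}

lemma Good.restrict_eq (G : Good ρ K R) : ρ.restrict K = ρ :=
  Measure.restrict_eq_self_of_ae_mem G.ae

lemma Good.integrable (G : Good ρ K R) {h : EuclideanSpace ℝ (Fin d) → ℝ} (hh : Continuous h) :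
    Integrable h ρ := by
  have := G.prob
  rw [← G.restrict_eq]
  exact hh.continuousOn.integrableOn_compact G.cpt

lemma Good.four_real (G : Good ρ K R) {f g a b J : EuclideanSpace ℝ (Fin d) → ℝ}
    (hf : Continuous f) (hg : Continuous g) (ha : Continuous a) (hb : Continuous b)
    (hJ : Continuous J) (f0 : ∀ x, 0 ≤ f x) (g0 : ∀ x, 0 ≤ g x) (J0 : ∀ x ∈ K, 0 ≤ J x)
    (h : ∀ x ∈ K, ∀ y ∈ K, √(f x * g y) * (a x + b y) ≤ J ((1 / 2 : ℝ) • (x + y))) :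
    (∫ x, a x * f x ∂ρ) * (∫ x, g x ∂ρ) + (∫ x, f x ∂ρ) * (∫ x, b x * g x ∂ρ) ≤
      √((∫ x, f x ∂ρ) * (∫ x, g x ∂ρ)) * ∫ x, J x ∂ρ := by
  obtain ⟨c1, hc1⟩ := G.cpt.exists_bound_of_continuousOn ha.continuousOn
  obtain ⟨c2, hc2⟩ := G.cpt.exists_bound_of_continuousOn hb.continuousOn
  set c := max c1 c2 with hc
  have hA0 : ∀ x ∈ K, 0 ≤ (a x + c) * f x := fun x hx => by
    have := (abs_le.1 ((hc1 x hx).trans (le_max_left c1 c2))).1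
    exact mul_nonneg (by linarith) (f0 x)
  have hB0 : ∀ x ∈ K, 0 ≤ (c - b x) * g x := fun x hx => by
    have := (abs_le.1 ((hc2 x hx).trans (le_max_right c1 c2))).2
    exact mul_nonneg (by linarith) (g0 x)
  have key := G.four (fun x => ENNReal.ofReal (f x)) (fun x => ENNReal.ofReal (g x))
    (fun x => ENNReal.ofReal ((a x + c) * f x)) (fun x => ENNReal.ofReal ((c - b x) * g x))
    (fun x => ENNReal.ofReal (J x)) (by fun_prop) (by fun_prop) (by fun_prop) (by fun_prop)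
    (by fun_prop) (fun x hx y hy => by
      have hm := J0 _ (mid_mem G.cvx hx hy)
      have hfg := mul_nonneg (f0 x) (g0 y)
      rw [← ENNReal.ofReal_mul (hA0 x hx), ← ENNReal.ofReal_mul (f0 x),
        ← ENNReal.ofReal_mul (f0 x), ENNReal.ofReal_rpow_of_nonneg hfg (by norm_num),
        ← Real.sqrt_eq_rpow, ← ENNReal.ofReal_mul (Real.sqrt_nonneg _),
        ← ENNReal.ofReal_add (mul_nonneg (Real.sqrt_nonneg _) hm) (mul_nonneg (f0 x) (hB0 y hy))]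
      refine ENNReal.ofReal_le_ofReal ?_
      have h1 := mul_le_mul_of_nonneg_left (h x hx y hy) (Real.sqrt_nonneg (f x * g y))
      rw [← mul_assoc, Real.mul_self_sqrt hfg] at h1
      nlinarith)
  have conv : ∀ u : EuclideanSpace ℝ (Fin d) → ℝ, Continuous u → (∀ x ∈ K, 0 ≤ u x) →
      ∫⁻ x, ENNReal.ofReal (u x) ∂ρ = ENNReal.ofReal (∫ x, u x ∂ρ) ∧ 0 ≤ ∫ x, u x ∂ρ := by
    intro u hu h0
    have h1 : 0 ≤ᵐ[ρ] u := by filter_upwards [G.ae] with x hx using h0 x hx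
    exact ⟨(ofReal_integral_eq_lintegral_ofReal (G.integrable hu) h1).symm, integral_nonneg_of_ae h1⟩
  obtain ⟨e1, p1⟩ := conv f hf (fun x _ => f0 x)
  obtain ⟨e2, p2⟩ := conv g hg (fun x _ => g0 x)
  obtain ⟨e3, p3⟩ := conv (fun x => (a x + c) * f x) (by fun_prop) hA0
  obtain ⟨e4, p4⟩ := conv (fun x => (c - b x) * g x) (by fun_prop) hB0
  obtain ⟨e5, p5⟩ := conv J hJ J0
  rw [e1, e2, e3, e4, e5, ← ENNReal.ofReal_mul p3, ← ENNReal.ofReal_mul p1, ← ENNReal.ofReal_mul p1,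
    ENNReal.ofReal_rpow_of_nonneg (mul_nonneg p1 p2) (by norm_num), ← Real.sqrt_eq_rpow,
    ← ENNReal.ofReal_mul (Real.sqrt_nonneg _),
    ← ENNReal.ofReal_add (mul_nonneg (Real.sqrt_nonneg _) p5) (mul_nonneg p1 p4),
    ENNReal.ofReal_le_ofReal_iff (add_nonneg (mul_nonneg (Real.sqrt_nonneg _) p5)
      (mul_nonneg p1 p4))] at key
  have i1 : ∫ x, (a x + c) * f x ∂ρ = ∫ x, a x * f x ∂ρ + c * ∫ x, f x ∂ρ := by
    rw [← integral_const_mul, ← integral_add (G.integrable (by fun_prop))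
      (G.integrable (by fun_prop))]
    congr 1; ext x; ring
  have i2 : ∫ x, (c - b x) * g x ∂ρ = c * ∫ x, g x ∂ρ - ∫ x, b x * g x ∂ρ := by
    rw [← integral_const_mul, ← integral_sub (G.integrable (by fun_prop))
      (G.integrable (by fun_prop))]
    congr 1; ext x; ring
  rw [i1, i2] at key
  nlinarith

lemma scalar_aux {s t R D τ wx wy a b : ℝ} (hs : 0 < s) (hst : s ≤ t) (hR : 0 ≤ R)
    (hwy : wy ≤ R ^ 2) (hw : |wx - wy| ≤ 2 * R * D) (ha : |a| ≤ R * τ) (hb : |b| ≤ R * τ)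
    (hab : |a - b| ≤ τ * D) :
    s ^ 2 * (wx / 2 - a) + t ^ 2 * (wy / 2 + b) - s * t * ((wx + wy) / 2 + D ^ 2 / 4) ≤
      3 * R ^ 2 * (s - t) ^ 2 + 2 * (s ^ 2 + t ^ 2) * τ ^ 2 := by
  have ht : 0 < t := by linarith
  obtain ⟨e, he, rfl⟩ : ∃ e, 0 ≤ e ∧ t = s + e := ⟨t - s, by linarith, by ring⟩
  have h1 : e * s * (wy - wx) / 2 ≤ e * s * (R * D) := by
    have := (abs_le.1 hw).1
    have h2 : 0 ≤ e * s := by positivity
    nlinarith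
  have h2 : e ^ 2 * wy / 2 ≤ e ^ 2 * R ^ 2 / 2 := by
    have : 0 ≤ e ^ 2 := by positivity
    nlinarith
  have h3 : s * (s + e) * (b - a) ≤ s * (s + e) * (τ * D) := by
    have := (abs_le.1 hab).1
    have h2 : 0 ≤ s * (s + e) := by positivity
    nlinarith
  have h4 : e * (s * a + (s + e) * b) ≤ e * ((s + (s + e)) * (R * τ)) := by
    have := (abs_le.1 ha).2
    have := (abs_le.1 hb).2
    refine mul_le_mul_of_nonneg_left ?_ he
    nlinarith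
  have h5 : e * s * (R * D) ≤ 2 * e ^ 2 * R ^ 2 + s * (s + e) * D ^ 2 / 8 := by
    have : 0 ≤ s * e * D ^ 2 := by positivity
    nlinarith [sq_nonneg (4 * e * R - s * D)]
  have h6 : s * (s + e) * (τ * D) ≤ s * (s + e) * (2 * τ ^ 2 + D ^ 2 / 8) := by
    refine mul_le_mul_of_nonneg_left ?_ (by positivity)
    nlinarith [sq_nonneg (4 * τ - D)]
  have h7 : e * ((s + (s + e)) * (R * τ)) ≤ e ^ 2 * R ^ 2 / 2 + (s + (s + e)) ^ 2 * τ ^ 2 / 2 := by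
    nlinarith [sq_nonneg (e * R - (s + (s + e)) * τ)]
  have h8 : 0 ≤ e ^ 2 * τ ^ 2 := by positivity
  nlinarith

lemma scalar_aux' {s t R D τ wx wy a b : ℝ} (hs : 0 < s) (ht : 0 < t) (hR : 0 ≤ R)
    (hwx : wx ≤ R ^ 2) (hwy : wy ≤ R ^ 2) (hw : |wx - wy| ≤ 2 * R * D) (ha : |a| ≤ R * τ)
    (hb : |b| ≤ R * τ) (hab : |a - b| ≤ τ * D) :
    s ^ 2 * (wx / 2 - a) + t ^ 2 * (wy / 2 + b) - s * t * ((wx + wy) / 2 + D ^ 2 / 4) ≤
      3 * R ^ 2 * (s - t) ^ 2 + 2 * (s ^ 2 + t ^ 2) * τ ^ 2 := by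
  rcases le_total s t with h | h
  · exact scalar_aux hs h hR hwy hw ha hb hab
  · have := scalar_aux (s := t) (t := s) (wx := wy) (wy := wx) (a := -b) (b := -a) (D := D)
      (τ := τ) ht h hR hwx (by rwa [abs_sub_comm]) (by rwa [abs_neg]) (by rwa [abs_neg])
      (by rwa [show -b - -a = a - b by ring])
    nlinarith

/-- The weighted barycenter inequality. -/
lemma Good.key (G : Good ρ K R) {f g h : EuclideanSpace ℝ (Fin d) → ℝ}
    (hf : Continuous f) (hg : Continuous g) (hh : Continuous h)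
    (f0 : ∀ x, 0 ≤ f x) (g0 : ∀ x, 0 ≤ g x)
    (hm : 0 < ∫ x, f x ∂ρ) (hm' : 0 < ∫ x, g x ∂ρ)
    (H : ∀ x y, √(f x * g y) ≤ h ((1 / 2 : ℝ) • (x + y))) (θ : EuclideanSpace ℝ (Fin d)) :
    (∫ x, (R ^ 2 - ‖x‖ ^ 2) * f x ∂ρ) / 2 + (∫ x, (R ^ 2 - ‖x‖ ^ 2) * g x ∂ρ) / 2 +
      ((∫ x, ⟪x, θ⟫ * g x ∂ρ) - ∫ x, ⟪x, θ⟫ * f x ∂ρ) ≤
      (∫ x, (R ^ 2 - ‖x‖ ^ 2) * h x ∂ρ) +
      (3 * R ^ 2 * (√(∫ x, f x ∂ρ) - √(∫ x, g x ∂ρ)) ^ 2 +
        2 * ((∫ x, f x ∂ρ) + ∫ x, g x ∂ρ) * ‖θ‖ ^ 2) := by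
  obtain ⟨s, hs, es⟩ : ∃ s, 0 < s ∧ ∫ x, f x ∂ρ = s ^ 2 :=
    ⟨√_, Real.sqrt_pos.2 hm, (Real.sq_sqrt hm.le).symm⟩
  obtain ⟨t, ht, et⟩ : ∃ s, 0 < s ∧ ∫ x, g x ∂ρ = s ^ 2 :=
    ⟨√_, Real.sqrt_pos.2 hm', (Real.sq_sqrt hm'.le).symm⟩
  set β := 3 * R ^ 2 * (s - t) ^ 2 + 2 * (s ^ 2 + t ^ 2) * ‖θ‖ ^ 2 with hβ
  have hw0 : ∀ x ∈ K, 0 ≤ R ^ 2 - ‖x‖ ^ 2 := fun x hx => by
    have := G.bdd x hx
    nlinarith [norm_nonneg x]
  have h0 : ∀ x, 0 ≤ h x := fun x => by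
    have := H x x
    rw [show (1 / 2 : ℝ) • (x + x) = x by module] at this
    exact (Real.sqrt_nonneg _).trans this
  have key := G.four_real (f := f) (g := g)
    (a := fun x => (s / t) * ((R ^ 2 - ‖x‖ ^ 2) / 2 - ⟪x, θ⟫) - β / (s * t))
    (b := fun x => (t / s) * ((R ^ 2 - ‖x‖ ^ 2) / 2 + ⟪x, θ⟫))
    (J := fun x => (R ^ 2 - ‖x‖ ^ 2) * h x) hf hg (by fun_prop) (by fun_prop) (by fun_prop)
    f0 g0 (fun x hx => mul_nonneg (hw0 x hx) (h0 x)) (fun x hx y hy => by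
      have hmid := hw0 _ (mid_mem G.cvx hx hy)
      have hx' := G.bdd x hx
      have hy' := G.bdd y hy
      have e1 : ‖(1 / 2 : ℝ) • (x + y)‖ ^ 2 = (‖x‖ ^ 2 + ‖y‖ ^ 2) / 2 - ‖x - y‖ ^ 2 / 4 := by
        rw [norm_smul, mul_pow, norm_add_sq_real, norm_sub_sq_real]
        norm_num; ring
      have h1 := scalar_aux' (D := ‖x - y‖) (τ := ‖θ‖) (wx := R ^ 2 - ‖x‖ ^ 2)
        (wy := R ^ 2 - ‖y‖ ^ 2) (a := ⟪x, θ⟫) (b := ⟪y, θ⟫) hs ht G.Rpos.le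
        (by nlinarith [norm_nonneg x]) (by nlinarith [norm_nonneg y])
        (by
          have h2 := abs_le.1 (abs_norm_sub_norm_le x y)
          have h3 := norm_nonneg x
          have h4 := norm_nonneg y
          have h5 := norm_nonneg (x - y)
          rw [abs_le]; constructor <;> nlinarith [h2.1, h2.2])
        ((abs_real_inner_le_norm _ _).trans (by gcongr))
        ((abs_real_inner_le_norm _ _).trans (by gcongr))
        (by rw [← inner_sub_left, mul_comm]; exact abs_real_inner_le_norm _ _)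
      have h2 : (s / t) * ((R ^ 2 - ‖x‖ ^ 2) / 2 - ⟪x, θ⟫) - β / (s * t) +
          (t / s) * ((R ^ 2 - ‖y‖ ^ 2) / 2 + ⟪y, θ⟫) ≤ R ^ 2 - ‖(1 / 2 : ℝ) • (x + y)‖ ^ 2 := by
        rw [e1]
        have e2 : (s / t) * ((R ^ 2 - ‖x‖ ^ 2) / 2 - ⟪x, θ⟫) - β / (s * t) +
          (t / s) * ((R ^ 2 - ‖y‖ ^ 2) / 2 + ⟪y, θ⟫) =
          (s ^ 2 * ((R ^ 2 - ‖x‖ ^ 2) / 2 - ⟪x, θ⟫) + t ^ 2 * ((R ^ 2 - ‖y‖ ^ 2) / 2 + ⟪y, θ⟫)
            - β) / (s * t) := by field_simp; ring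
        rw [e2, div_le_iff₀ (by positivity)]
        nlinarith
      calc _ ≤ √(f x * g y) * (R ^ 2 - ‖(1 / 2 : ℝ) • (x + y)‖ ^ 2) := by gcongr
        _ ≤ h ((1 / 2 : ℝ) • (x + y)) * (R ^ 2 - ‖(1 / 2 : ℝ) • (x + y)‖ ^ 2) := by
          gcongr; exact H x y
        _ = _ := mul_comm _ _)
  have i1 : ∫ x, ((s / t) * ((R ^ 2 - ‖x‖ ^ 2) / 2 - ⟪x, θ⟫) - β / (s * t)) * f x ∂ρ =
      (s / t) * ((∫ x, (R ^ 2 - ‖x‖ ^ 2) * f x ∂ρ) / 2 - ∫ x, ⟪x, θ⟫ * f x ∂ρ) -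
        β / (s * t) * s ^ 2 := by
    rw [← es, ← integral_const_mul, ← integral_div, ← integral_sub (G.integrable (by fun_prop))
      (G.integrable (by fun_prop)), ← integral_const_mul,
      ← integral_sub (G.integrable (by fun_prop)) (G.integrable (by fun_prop))]
    congr 1; ext x; ring
  have i2 : ∫ x, ((t / s) * ((R ^ 2 - ‖x‖ ^ 2) / 2 + ⟪x, θ⟫)) * g x ∂ρ =
      (t / s) * ((∫ x, (R ^ 2 - ‖x‖ ^ 2) * g x ∂ρ) / 2 + ∫ x, ⟪x, θ⟫ * g x ∂ρ) := by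
    rw [← integral_div, ← integral_add (G.integrable (by fun_prop))
      (G.integrable (by fun_prop)), ← integral_const_mul]
    congr 1; ext x; ring
  rw [i1, i2, es, et, ← mul_pow, Real.sqrt_sq (by positivity)] at key
  rw [es, et, Real.sqrt_sq hs.le, Real.sqrt_sq ht.le, ← hβ]
  set A1 := ∫ x, (R ^ 2 - ‖x‖ ^ 2) * f x ∂ρ
  set A2 := ∫ x, (R ^ 2 - ‖x‖ ^ 2) * g x ∂ρ
  set A3 := ∫ x, (R ^ 2 - ‖x‖ ^ 2) * h x ∂ρ
  set B1 := ∫ x, ⟪x, θ⟫ * f x ∂ρ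
  set B2 := ∫ x, ⟪x, θ⟫ * g x ∂ρ
  have e3 : (s / t * (A1 / 2 - B1) - β / (s * t) * s ^ 2) * t ^ 2 + s ^ 2 * (t / s * (A2 / 2 + B2))
      = (s * t) * (A1 / 2 + A2 / 2 + (B2 - B1) - β) := by field_simp; ring
  rw [e3] at key
  have := le_of_mul_le_mul_left key (by positivity)
  linarith

end Vale.Agent.P074
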