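import Mathlib
import Vale.Agent.P074.Defs

open MeasureTheory Set Filter Topology
open scoped ENNReal NNReal RealInnerProductSpace

namespace Vale.Agent.P074

variable {d : ℕ}

lemma second_diff_integral {φ : EuclideanSpace ℝ (Fin d) → ℝ} (hφ : Continuous φ) {L : ℝ}
    (hL : 0 ≤ L) (lip : ∀ x x', φ x' - φ x ≤ L * ‖x' - x‖)
    (cvx : ∀ x v, 2 * φ x ≤ φ (x + v) + φ (x - v))
    {K : Set (EuclideanSpace ℝ (Fin d))} (hK : IsCompact K) {R : ℝ} (hb : ∀ x ∈ K, ‖x‖ ≤ R)
    (v : EuclideanSpace ℝ (Fin d)) (hv : ‖v‖ ≤ 1) :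
    ∫ x in K, (φ (x + v) - 2 * φ x + φ (x - v)) ≤
      L * ‖v‖ ^ 2 * volume.real (Metric.closedBall (0 : EuclideanSpace ℝ (Fin d)) (R + 2)) := by
  set χ : EuclideanSpace ℝ (Fin d) → ℝ := fun x => max 0 (R + 1 - ‖x‖) with hχ
  have hχc : Continuous χ := by fun_prop
  have hχ0 : ∀ x, R + 1 ≤ ‖x‖ → χ x = 0 := fun x hx => max_eq_left (by linarith)
  have hsupp : HasCompactSupport χ := by
    refine HasCompactSupport.intro (isCompact_closedBall 0 (R + 1)) fun x hx => hχ0 x ?_
    rw [mem_closedBall_zero_iff] at hx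
    exact (not_le.1 hx).le
  have hsupp' : HasCompactSupport (fun x => χ (x + v)) := by
    refine HasCompactSupport.intro (isCompact_closedBall 0 (R + 2)) fun x hx => hχ0 _ ?_
    rw [mem_closedBall_zero_iff] at hx
    have := norm_sub_le (x + v) v
    rw [add_sub_cancel_right] at this
    linarith [not_le.1 hx]
  set δ : EuclideanSpace ℝ (Fin d) → ℝ := fun x => φ (x + v) - φ x with hδ
  have hδc : Continuous δ := by fun_prop
  have hδb : ∀ x, |δ x| ≤ L * ‖v‖ := by
    intro x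
    have h1 := lip x (x + v)
    have h2 := lip (x + v) x
    rw [add_sub_cancel_left] at h1
    rw [sub_add_cancel_left, norm_neg] at h2
    rw [abs_le]; constructor <;> simp only [hδ] <;> linarith
  have i1 : Integrable (fun x => δ x * χ x) :=
    (hδc.mul hχc).integrable_of_hasCompactSupport hsupp.mul_left
  have i2 : Integrable (fun x => δ (x - v) * χ x) :=
    Continuous.integrable_of_hasCompactSupport (by fun_prop) hsupp.mul_left
  have i3 : Integrable (fun x => δ x * χ (x + v)) :=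
    Continuous.integrable_of_hasCompactSupport (by fun_prop) hsupp'.mul_left
  have sd : ∀ x, φ (x + v) - 2 * φ x + φ (x - v) = δ x - δ (x - v) := by
    intro x; simp only [hδ, sub_add_cancel]; ring
  have sd0 : ∀ x, 0 ≤ δ x - δ (x - v) := fun x => by rw [← sd]; linarith [cvx x v]
  have s1 : ∫ x in K, (φ (x + v) - 2 * φ x + φ (x - v)) ≤ ∫ x, (δ x * χ x - δ (x - v) * χ x) := by
    rw [← integral_indicator hK.measurableSet]
    refine integral_mono ?_ (i1.sub i2) fun x => ?_
    · rw [integrable_indicator_iff hK.measurableSet]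
      exact ContinuousOn.integrableOn_compact hK (Continuous.continuousOn (by fun_prop))
    · by_cases hx : x ∈ K
      · rw [indicator_of_mem hx, sd]
        have h1 : 1 ≤ χ x := le_max_of_le_right (by linarith [hb x hx])
        have := sd0 x
        simp only; nlinarith
      · rw [indicator_of_notMem hx]
        have h1 : 0 ≤ χ x := le_max_left _ _
        have := mul_nonneg (sd0 x) h1
        simp only; linarith
  have s2 : ∫ x, δ (x - v) * χ x = ∫ x, δ x * χ (x + v) := by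
    rw [← integral_add_right_eq_self (fun x => δ (x - v) * χ x) v]
    simp only [add_sub_cancel_right]
  rw [integral_sub i1 i2, s2, ← integral_sub i1 i3] at s1
  refine s1.trans ?_
  have hBm : MeasurableSet (Metric.closedBall (0 : EuclideanSpace ℝ (Fin d)) (R + 2)) :=
    measurableSet_closedBall
  rw [mul_comm, ← smul_eq_mul, ← setIntegral_const, ← integral_indicator hBm]
  refine integral_mono (i1.sub i3) ?_ fun x => ?_
  · rw [integrable_indicator_iff hBm]
    exact integrableOn_const (isCompact_closedBall _ _).measure_lt_top.ne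
  · by_cases hx : x ∈ Metric.closedBall (0 : EuclideanSpace ℝ (Fin d)) (R + 2)
    · rw [indicator_of_mem hx]
      have h1 : |χ x - χ (x + v)| ≤ ‖v‖ := by
        refine (abs_max_sub_max_le_max _ _ _ _).trans (max_le (by simp) ?_)
        have := abs_norm_sub_norm_le (x + v) x
        rw [add_sub_cancel_left] at this
        rwa [show R + 1 - ‖x‖ - (R + 1 - ‖x + v‖) = ‖x + v‖ - ‖x‖ by ring]
      calc δ x * χ x - δ x * χ (x + v) = δ x * (χ x - χ (x + v)) := by ring
        _ ≤ |δ x| * |χ x - χ (x + v)| := by rw [← abs_mul]; exact le_abs_self _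
        _ ≤ (L * ‖v‖) * ‖v‖ := by gcongr; exact hδb x
        _ = _ := by ring
    · rw [indicator_of_notMem hx]
      rw [mem_closedBall_zero_iff] at hx
      have h2 := norm_sub_le (x + v) v
      rw [add_sub_cancel_right] at h2
      simp only
      rw [hχ0 x (by linarith [not_le.1 hx]), hχ0 (x + v) (by linarith [not_le.1 hx])]
      simp

lemma second_diff_unif {φ : EuclideanSpace ℝ (Fin d) → ℝ} (hφ : Continuous φ) {L : ℝ}
    (hL : 0 ≤ L) (lip : ∀ x x', φ x' - φ x ≤ L * ‖x' - x‖)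
    (cvx : ∀ x v, 2 * φ x ≤ φ (x + v) + φ (x - v))
    {K : Set (EuclideanSpace ℝ (Fin d))} (hK : IsCompact K) {R : ℝ} (hb : ∀ x ∈ K, ‖x‖ ≤ R)
    (v : EuclideanSpace ℝ (Fin d)) (hv : ‖v‖ ≤ 1) :
    ∫ x, (φ (x + v) - 2 * φ x + φ (x - v)) ∂(unif K) ≤ L * ‖v‖ ^ 2 * ((volume K)⁻¹.toReal *
      volume.real (Metric.closedBall (0 : EuclideanSpace ℝ (Fin d)) (R + 2))) := by
  rw [unif, integral_smul_measure, smul_eq_mul, mul_left_comm]
  exact mul_le_mul_of_nonneg_left (second_diff_integral hφ hL lip cvx hK hb v hv)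
    ENNReal.toReal_nonneg

/-- The vector of forward difference quotients. -/
noncomputable def fwd (φ : EuclideanSpace ℝ (Fin d) → ℝ) (η : ℝ) (x : EuclideanSpace ℝ (Fin d)) :
    EuclideanSpace ℝ (Fin d) :=
  WithLp.toLp 2 fun k => (φ (x + EuclideanSpace.single k η) - φ x) / η

lemma continuous_fwd {φ : EuclideanSpace ℝ (Fin d) → ℝ} (hφ : Continuous φ) (η : ℝ) :
    Continuous (fwd φ η) := by
  unfold fwd; fun_prop

lemma sq_le_three {a α β γ L : ℝ} (ha0 : 0 ≤ a) (ha : a ≤ 2 * L) (h : a ≤ α + β + γ) (hα : 0 ≤ α)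
    (hβ : 0 ≤ β) (hγ0 : 0 ≤ γ) (hγ : γ ≤ 2 * L) :
    a ^ 2 ≤ 6 * L * α + 3 * β ^ 2 + 6 * L * γ := by
  rcases le_total α (2 * L) with h1 | h1
  · have : a ^ 2 ≤ (α + β + γ) ^ 2 := by gcongr
    nlinarith [sq_nonneg (α - β), sq_nonneg (α - γ), sq_nonneg (β - γ)]
  · nlinarith [sq_nonneg β]

lemma approx_subgrad {φ : EuclideanSpace ℝ (Fin d) → ℝ} {L : ℝ}
    (lip : ∀ x x', φ x' - φ x ≤ L * ‖x' - x‖)
    (cvx : ∀ x v, 2 * φ x ≤ φ (x + v) + φ (x - v)) {η : ℝ} (hη : 0 < η)
    (q : EuclideanSpace ℝ (Fin d)) (hq : ‖q‖ ≤ L) (a : ℝ) (hqa : ∀ x', ⟪x', q⟫ - a ≤ φ x')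
    (x : EuclideanSpace ℝ (Fin d)) {e1 e2 : ℝ} (h1 : 0 ≤ e1) (h2 : 0 ≤ e2)
    (he : φ x - ⟪x, q⟫ + a ≤ e1 + e2) :
    ‖q - fwd φ η x‖ ^ 2 ≤ d * (6 * L * (e1 / η) + 3 * (e2 / η) ^ 2) +
      6 * L * ∑ k, (φ (x + EuclideanSpace.single k η) - 2 * φ x +
        φ (x - EuclideanSpace.single k η)) / η := by
  rw [EuclideanSpace.real_norm_sq_eq, Finset.mul_sum]
  have e : (d : ℝ) * (6 * L * (e1 / η) + 3 * (e2 / η) ^ 2) =
      ∑ _k : Fin d, (6 * L * (e1 / η) + 3 * (e2 / η) ^ 2) := by simp; ring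
  rw [e, ← Finset.sum_add_distrib]
  refine Finset.sum_le_sum fun k _ => ?_
  set v : EuclideanSpace ℝ (Fin d) := EuclideanSpace.single k η with hv
  have hvn : ‖v‖ = η := by rw [hv, PiLp.norm_single, Real.norm_eq_abs, abs_of_pos hη]
  have hvq : ⟪v, q⟫ = η * q k := by simp [hv, EuclideanSpace.inner_single_left]
  have a1 := hqa (x + v)
  have a2 := hqa (x - v)
  rw [inner_add_left, hvq] at a1
  rw [inner_sub_left, hvq] at a2
  have b1 := lip x (x + v)
  have b2 := lip (x + v) x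
  have b3 := lip x (x - v)
  rw [add_sub_cancel_left, hvn] at b1
  rw [sub_add_cancel_left, norm_neg, hvn] at b2
  rw [sub_sub_cancel_left, norm_neg, hvn] at b3
  have c1 := cvx x v
  have hqk : |q k| ≤ L := (PiLp.norm_apply_le q k).trans hq
  have e2' : (q - fwd φ η x) k = q k - (φ (x + v) - φ x) / η := by simp [fwd, hv]
  rw [e2', ← sq_abs]
  have d1 : |(φ (x + v) - φ x) / η| ≤ L := by
    rw [abs_le, le_div_iff₀ hη, div_le_iff₀ hη]; constructor <;> linarith
  refine sq_le_three (abs_nonneg _) ((abs_sub _ _).trans (by linarith)) ?_ (by positivity)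
    (by positivity) (div_nonneg (by linarith) hη.le) (by rw [div_le_iff₀ hη]; linarith)
  rw [← add_div, ← add_div, show q k - (φ (x + v) - φ x) / η = (η * q k - (φ (x + v) - φ x)) / η by
    field_simp, abs_div, abs_of_pos hη]
  refine div_le_div_of_nonneg_right ?_ hη.le
  rw [abs_le]; constructor <;> linarith

end Vale.Agent.P074
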