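import Mathlib

open MeasureTheory Set Filter Topology ProbabilityTheory
open scoped ENNReal NNReal RealInnerProductSpace

namespace Vale.Agent.P074

lemma continuous_cdf (μ : Measure ℝ) [IsProbabilityMeasure μ] (h : ∀ a, μ {a} = 0) :
    Continuous (cdf μ) := by
  rw [continuous_iff_continuousAt]
  intro a
  rw [(monotone_cdf μ).continuousAt_iff_leftLim_eq_rightLim, StieltjesFunction.rightLim_eq]
  have h1 := (cdf μ).measure_singleton a
  rw [measure_cdf, h a, eq_comm, ENNReal.ofReal_eq_zero] at h1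
  exact le_antisymm ((monotone_cdf μ).leftLim_le le_rfl) (by linarith)

lemma measure_cdf_le (μ : Measure ℝ) [IsProbabilityMeasure μ] (h : ∀ a, μ {a} = 0) {u : ℝ}
    (h0 : 0 ≤ u) (h1 : u ≤ 1) : μ {x | cdf μ x ≤ u} = ENNReal.ofReal u := by
  rcases h1.eq_or_lt with h1 | h1
  · subst h1
    have : {x | cdf μ x ≤ 1} = univ := eq_univ_of_forall fun x => cdf_le_one μ x
    rw [this]; simp
  have hc := continuous_cdf μ h
  rcases ({x | cdf μ x ≤ u} : Set ℝ).eq_empty_or_nonempty with hS | hS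
  · have h2 : u ≤ 0 := by
      refine ge_of_tendsto' (tendsto_cdf_atBot μ) fun x => ?_
      by_contra hlt
      have : x ∈ ({x | cdf μ x ≤ u} : Set ℝ) := (not_le.1 hlt).le
      rw [hS] at this
      exact this
    rw [hS, le_antisymm h2 h0]; simp
  · have hb : BddAbove {x | cdf μ x ≤ u} := by
      obtain ⟨b, hb⟩ := ((tendsto_cdf_atTop μ).eventually (lt_mem_nhds h1)).exists_forall_of_atTop
      exact ⟨b, fun x hx => by
        by_contra hlt
        exact absurd (hb x (not_le.1 hlt).le) (not_lt.2 hx)⟩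
    have hcl : IsClosed {x | cdf μ x ≤ u} := isClosed_le hc continuous_const
    set z := sSup {x | cdf μ x ≤ u} with hz
    have hz1 : cdf μ z ≤ u := hcl.csSup_mem hS hb
    have hz2 : u ≤ cdf μ z := by
      have ht : Tendsto (cdf μ) (𝓝[>] z) (𝓝 (cdf μ z)) :=
        hc.continuousAt.tendsto.mono_left nhdsWithin_le_nhds
      refine ge_of_tendsto ht ?_
      filter_upwards [self_mem_nhdsWithin] with x hx
      by_contra hlt
      exact absurd (le_csSup hb (not_le.1 hlt).le) (not_le.2 hx)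
    have e : {x | cdf μ x ≤ u} = Iic z := by
      ext x
      exact ⟨fun hx => le_csSup hb hx, fun hx => (monotone_cdf μ hx).trans hz1⟩
    rw [e, ← ofReal_cdf, le_antisymm hz1 hz2]

lemma exists_map_eq_volume (μ : Measure ℝ) [IsProbabilityMeasure μ] (h : ∀ a, μ {a} = 0) :
    ∃ F : ℝ → unitInterval, Measurable F ∧ μ.map F = volume := by
  have hm : Measurable (fun x => (⟨cdf μ x, cdf_nonneg μ x, cdf_le_one μ x⟩ : unitInterval)) :=
    (monotone_cdf μ).measurable.subtype_mk
  refine ⟨_, hm, ?_⟩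
  refine Measure.ext_of_Iic _ _ fun u => ?_
  rw [Measure.map_apply hm measurableSet_Iic, unitInterval.volume_Iic,
    ← measure_cdf_le μ h u.2.1 u.2.2]
  rfl

variable {d : ℕ}

lemma volume_hyperplane (i : Fin d) (a : ℝ) :
    volume {x : EuclideanSpace ℝ (Fin d) | x i = a} = 0 := by
  have h := (PiLp.volume_preserving_ofLp (Fin d)).measure_preimage
    (s := {f : Fin d → ℝ | f i = a})
    (measurableSet_eq_fun (measurable_pi_apply i) measurable_const).nullMeasurableSet
  rw [volume_pi, Measure.pi_hyperplane] at h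
  exact h

lemma exists_push (i : Fin d) (lam κ : Measure (EuclideanSpace ℝ (Fin d))) [IsFiniteMeasure lam]
    (hac : lam ≪ volume) (hm : κ univ = lam univ) :
    ∃ σ : EuclideanSpace ℝ (Fin d) → EuclideanSpace ℝ (Fin d), Measurable σ ∧ lam.map σ = κ := by
  by_cases h0 : lam univ = 0
  · refine ⟨id, measurable_id, ?_⟩
    rw [Measure.measure_univ_eq_zero.1 h0, Measure.measure_univ_eq_zero.1 (hm.trans h0)]
    simp
  have h1 : lam univ ≠ ∞ := measure_ne_top _ _
  have p1 : IsProbabilityMeasure ((lam univ)⁻¹ • lam) :=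
    ⟨by rw [Measure.smul_apply, smul_eq_mul, ENNReal.inv_mul_cancel h0 h1]⟩
  have p2 : IsProbabilityMeasure ((lam univ)⁻¹ • κ) :=
    ⟨by rw [Measure.smul_apply, smul_eq_mul, hm, ENNReal.inv_mul_cancel h0 h1]⟩
  have hp : Measurable (fun x : EuclideanSpace ℝ (Fin d) => x i) := by fun_prop
  have p3 : IsProbabilityMeasure (((lam univ)⁻¹ • lam).map fun x => x i) :=
    Measure.isProbabilityMeasure_map hp.aemeasurable
  obtain ⟨F, hF, hFm⟩ := exists_map_eq_volume (((lam univ)⁻¹ • lam).map fun x => x i) (fun a => by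
    rw [Measure.map_apply hp (measurableSet_singleton a), Measure.smul_apply]
    have : lam ((fun x : EuclideanSpace ℝ (Fin d) => x i) ⁻¹' {a}) = 0 :=
      hac (volume_hyperplane i a)
    rw [this]; simp)
  obtain ⟨f, hf, hfm⟩ := Measure.exists_measurable_map_eq ((lam univ)⁻¹ • κ)
  refine ⟨f ∘ F ∘ fun x => x i, hf.comp (hF.comp hp), ?_⟩
  have e : ((lam univ)⁻¹ • lam).map (f ∘ F ∘ fun x => x i) = (lam univ)⁻¹ • κ := by
    rw [← Measure.map_map hf (hF.comp hp), ← Measure.map_map hF hp, hFm, hfm]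
  rw [Measure.map_smul] at e
  have e2 := congrArg (fun ν => (lam univ) • ν) e
  simpa only [smul_smul, ENNReal.mul_inv_cancel h0 h1, one_smul] using e2

lemma exists_quantizer {Y : Set (EuclideanSpace ℝ (Fin d))} (hY : IsCompact Y) (hne : Y.Nonempty)
    {δ : ℝ} (hδ : 0 < δ) :
    ∃ (n : ℕ) (c : Fin n → EuclideanSpace ℝ (Fin d)) (ι : EuclideanSpace ℝ (Fin d) → Fin n),
      Measurable ι ∧ (∀ a, c a ∈ Y) ∧ ∀ y ∈ Y, ‖y - c (ι y)‖ ≤ δ := by
  have : Nonempty Y := hne.to_subtype
  set e : ℕ → EuclideanSpace ℝ (Fin d) := fun k => (TopologicalSpace.denseSeq Y k : Y) with he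
  obtain ⟨t, ht⟩ := hY.elim_finite_subcover (fun k => Metric.ball (e k) δ)
    (fun _ => Metric.isOpen_ball) (fun y hy => by
      obtain ⟨k, hk⟩ := Metric.denseRange_iff.1 (TopologicalSpace.denseRange_denseSeq Y) ⟨y, hy⟩ δ hδ
      exact mem_iUnion.2 ⟨k, hk⟩)
  set N := t.sup id with hN
  refine ⟨N + 1, fun a => e a, fun y => Fin.ofNat (N + 1) (SimpleFunc.nearestPtInd e N y),
    (measurable_of_countable (Fin.ofNat (N + 1))).comp (SimpleFunc.nearestPtInd e N).measurable,
    fun a => (TopologicalSpace.denseSeq Y a).2, fun y hy => ?_⟩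
  obtain ⟨k, hk, hyk⟩ := mem_iUnion₂.1 (ht hy)
  have h1 := SimpleFunc.edist_nearestPt_le e y (Finset.le_sup (f := id) hk : k ≤ N)
  have h2 : ((Fin.ofNat (N + 1) (SimpleFunc.nearestPtInd e N y) : Fin (N + 1)) : ℕ) =
      SimpleFunc.nearestPtInd e N y :=
    Nat.mod_eq_of_lt (Nat.lt_succ_of_le (SimpleFunc.nearestPtInd_le e N y))
  simp only [h2]
  have h3 : dist (SimpleFunc.nearestPt e N y) y ≤ dist (e k) y := by
    rwa [edist_dist, edist_dist, ENNReal.ofReal_le_ofReal_iff dist_nonneg] at h1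
  rw [← dist_eq_norm, dist_comm]
  exact h3.trans (Metric.mem_ball'.1 hyk).le

lemma measure_eq_sum_fiber {X A : Type*} [MeasurableSpace X] [Fintype A] [MeasurableSpace A]
    [MeasurableSingletonClass A] (μ : Measure X) {j : X → A} (hj : Measurable j) (s : Set X) :
    μ s = ∑ a, μ.restrict s (j ⁻¹' {a}) := by
  rw [sum_measure_preimage_singleton _ fun a _ => hj (measurableSet_singleton a)]
  simp

/-- Any coupling is approximated in correlation by a map. -/
lemma monge_approx (i : Fin d) {ρ ν : Measure (EuclideanSpace ℝ (Fin d))} [IsProbabilityMeasure ρ]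
    (hac : ρ ≪ volume) {K : Set (EuclideanSpace ℝ (Fin d))} (hK : IsCompact K)
    (hae : ∀ᵐ x ∂ρ, x ∈ K) {L : ℝ} (hL : ∀ᵐ y ∂ν, ‖y‖ ≤ L)
    (Γ : Measure (EuclideanSpace ℝ (Fin d) × EuclideanSpace ℝ (Fin d)))
    (h1 : Γ.map Prod.fst = ρ) (h2 : Γ.map Prod.snd = ν) {δ : ℝ} (hδ : 0 < δ) :
    ∃ σ : EuclideanSpace ℝ (Fin d) → EuclideanSpace ℝ (Fin d), Measurable σ ∧ ρ.map σ = ν ∧
      ∫ p, ⟪p.1, p.2⟫ ∂Γ ≤ ∫ x, ⟪x, σ x⟫ ∂ρ + 2 * L * δ := by
  have hΓ : IsProbabilityMeasure Γ := ⟨by
    have := congrArg (fun μ : Measure _ => μ univ) h1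
    simpa [Measure.map_apply measurable_fst] using this⟩
  have hne : K.Nonempty := by
    obtain ⟨x, hx⟩ := hae.exists
    exact ⟨x, hx⟩
  obtain ⟨n, c, j, hj, hc, hjc⟩ := exists_quantizer hK hne hδ
  have hP : ∀ a, MeasurableSet (j ⁻¹' {a}) := fun a => hj (measurableSet_singleton a)
  choose σ hσ hσm using fun a : Fin n => exists_push i (ρ.restrict (j ⁻¹' {a}))
    ((Γ.restrict (Prod.fst ⁻¹' (j ⁻¹' {a}))).map Prod.snd)
    (Measure.absolutelyContinuous_restrict.trans hac) (by
      rw [Measure.map_apply measurable_snd MeasurableSet.univ, ← h1]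
      simp [Measure.map_apply measurable_fst (hP a)])
  have hs : Measurable (fun x => σ (j x) x) :=
    (measurable_from_prod_countable_right (f := fun p : Fin n × _ => σ p.1 p.2) hσ).comp
      (hj.prodMk measurable_id)
  have hJ1 : Measurable (fun x => (j x, σ (j x) x)) := hj.prodMk hs
  have hJ2 : Measurable (fun p : EuclideanSpace ℝ (Fin d) × EuclideanSpace ℝ (Fin d) =>
      (j p.1, p.2)) := (hj.comp measurable_fst).prodMk measurable_snd
  have joint : ρ.map (fun x => (j x, σ (j x) x)) = Γ.map (fun p => (j p.1, p.2)) := by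
    ext s hs'
    rw [Measure.map_apply hJ1 hs', Measure.map_apply hJ2 hs', measure_eq_sum_fiber ρ hj,
      measure_eq_sum_fiber Γ (hj.comp measurable_fst)]
    refine Finset.sum_congr rfl fun a _ => ?_
    have h3 := congrArg (fun μ : Measure _ => μ (Prod.mk a ⁻¹' s)) (hσm a)
    simp only [Measure.map_apply (hσ a) (measurable_prodMk_left hs'),
      Measure.map_apply measurable_snd (measurable_prodMk_left hs')] at h3
    rw [Measure.restrict_apply' (hP a), Measure.restrict_apply' (measurable_fst (hP a))] at h3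
    rw [Measure.restrict_apply (hP a), Measure.restrict_apply ((hj.comp measurable_fst)
      (measurableSet_singleton a))]
    convert h3 using 2
    · ext x
      simp only [mem_inter_iff, mem_preimage, mem_singleton_iff]
      constructor
      · rintro ⟨rfl, h⟩; exact ⟨h, rfl⟩
      · rintro ⟨h, rfl⟩; exact ⟨rfl, h⟩
    · ext x
      simp only [mem_inter_iff, mem_preimage, mem_singleton_iff, Function.comp]
      constructor
      · rintro ⟨rfl, h⟩; exact ⟨h, rfl⟩
      · rintro ⟨h, rfl⟩; exact ⟨rfl, h⟩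
  have hmap : ρ.map (fun x => σ (j x) x) = ν := by
    have := congrArg (Measure.map Prod.snd) joint
    rw [Measure.map_map measurable_snd hJ1, Measure.map_map measurable_snd hJ2] at this
    exact this.trans h2
  refine ⟨_, hs, hmap, ?_⟩
  have hcm : Measurable c := measurable_of_countable c
  have hg : Measurable (fun q : Fin n × EuclideanSpace ℝ (Fin d) => ⟪c q.1, q.2⟫) := by fun_prop
  have e : ∫ x, ⟪c (j x), σ (j x) x⟫ ∂ρ = ∫ p, ⟪c (j p.1), p.2⟫ ∂Γ := by
    rw [← integral_map hJ1.aemeasurable hg.aestronglyMeasurable, joint,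
      integral_map hJ2.aemeasurable hg.aestronglyMeasurable]
  obtain ⟨R, hR⟩ := hK.isBounded.exists_norm_le
  have a1 : ∀ᵐ x ∂ρ, ‖σ (j x) x‖ ≤ L := by
    rw [← hmap] at hL
    exact ae_of_ae_map hs.aemeasurable hL
  have a2 : ∀ᵐ p ∂Γ, p.1 ∈ K := by
    rw [← h1] at hae
    exact ae_of_ae_map measurable_fst.aemeasurable hae
  have a3 : ∀ᵐ p ∂Γ, ‖p.2‖ ≤ L := by
    rw [← h2] at hL
    exact ae_of_ae_map measurable_snd.aemeasurable hL
  have bd : ∀ {u v : EuclideanSpace ℝ (Fin d)}, u ∈ K → ‖v‖ ≤ L → ‖⟪u, v⟫‖ ≤ R * L :=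
    fun {u v} hu hv => (norm_inner_le_norm u v).trans
      (mul_le_mul (hR u hu) hv (norm_nonneg _) ((norm_nonneg _).trans (hR u hu)))
  have bd2 : ∀ {u v : EuclideanSpace ℝ (Fin d)}, u ∈ K → ‖v‖ ≤ L →
      |⟪u, v⟫ - ⟪c (j u), v⟫| ≤ L * δ := fun {u v} hu hv => by
    rw [← inner_sub_left, mul_comm]
    exact (abs_real_inner_le_norm _ _).trans (mul_le_mul (hjc u hu) hv (norm_nonneg _) hδ.le)
  have i1 : Integrable (fun p => ⟪p.1, p.2⟫) Γ :=
    Integrable.of_bound (C := R * L) (by fun_prop)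
      (by filter_upwards [a2, a3] with p h h' using bd h h')
  have i2 : Integrable (fun p => ⟪c (j p.1), p.2⟫) Γ :=
    Integrable.of_bound (C := R * L) (hg.comp hJ2).aestronglyMeasurable
      (by filter_upwards [a3] with p h' using bd (hc _) h')
  have i3 : Integrable (fun x => ⟪x, σ (j x) x⟫) ρ :=
    Integrable.of_bound (C := R * L) (measurable_id.inner hs).aestronglyMeasurable
      (by filter_upwards [hae, a1] with p h h' using bd h h')
  have i4 : Integrable (fun x => ⟪c (j x), σ (j x) x⟫) ρ :=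
    Integrable.of_bound (C := R * L) (hg.comp hJ1).aestronglyMeasurable
      (by filter_upwards [a1] with p h' using bd (hc _) h')
  have s1 : ∫ p, ⟪p.1, p.2⟫ ∂Γ ≤ ∫ p, (⟪c (j p.1), p.2⟫ + L * δ) ∂Γ := by
    refine integral_mono_ae i1 (i2.add (integrable_const _)) ?_
    filter_upwards [a2, a3] with p h h'
    linarith [(abs_le.1 (bd2 h h')).2]
  have s2 : ∫ x, ⟪c (j x), σ (j x) x⟫ ∂ρ ≤ ∫ x, (⟪x, σ (j x) x⟫ + L * δ) ∂ρ := by
    refine integral_mono_ae i4 (i3.add (integrable_const _)) ?_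
    filter_upwards [hae, a1] with p h h'
    linarith [(abs_le.1 (bd2 h h')).1]
  rw [integral_add i2 (integrable_const _), ← e] at s1
  rw [integral_add i3 (integrable_const _)] at s2
  simp only [integral_const, probReal_univ, smul_eq_mul, one_mul] at s1 s2
  linarith

end Vale.Agent.P074
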