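import Mathlib
import Vale.Agent.P074.Key
import Vale.Agent.P074.Push

open MeasureTheory Set Filter Topology ProbabilityTheory
open scoped ENNReal NNReal RealInnerProductSpace

namespace Vale.Agent.P074

variable {d : ℕ} {I : Type} [Fintype I]
variable {ρ : Measure (EuclideanSpace ℝ (Fin d))} {K : Set (EuclideanSpace ℝ (Fin d))} {R : ℝ}

lemma le_fiber {n : ℕ} {m : I → ℝ} (hm : ∀ i, 0 < m i) (γ : I → Fin n) (i : I) :
    m i ≤ ∑ j, if γ j = γ i then m j else 0 := by
  have := Finset.single_le_sum (f := fun j => if γ j = γ i then m j else 0)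
    (fun j _ => by split_ifs; exacts [(hm j).le, le_rfl]) (Finset.mem_univ i)
  simpa using this

lemma Good.exists_plan (G : Good ρ K R) {ν : Measure (EuclideanSpace ℝ (Fin d))}
    [IsProbabilityMeasure ν] {n : ℕ} (c : Fin n → EuclideanSpace ℝ (Fin d))
    {ι : EuclideanSpace ℝ (Fin d) → Fin n} (hι : Measurable ι) {δ L : ℝ}
    (hδ : ∀ᵐ y ∂ν, ‖y - c (ι y)‖ ≤ δ) (hL : ∀ᵐ y ∂ν, ‖y‖ ≤ L)
    {m : I → ℝ} (hm : ∀ i, 0 < m i) (γ : I → Fin n)
    (hγ : ∀ a, (∑ i, if γ i = a then m i else 0) = ν.real (ι ⁻¹' {a}))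
    (p : I → EuclideanSpace ℝ (Fin d) → ℝ) (hp : ∀ i, Continuous (p i)) (p0 : ∀ i x, 0 ≤ p i x)
    (p1 : ∀ x, ∑ i, p i x = 1) (pm : ∀ i, ∫ x, p i x ∂ρ = m i) :
    ∃ Γ : Measure (EuclideanSpace ℝ (Fin d) × EuclideanSpace ℝ (Fin d)),
      Γ.map Prod.fst = ρ ∧ Γ.map Prod.snd = ν ∧
      ∑ i, ∫ x, ⟪x, c (γ i)⟫ * p i x ∂ρ ≤ ∫ q, ⟪q.1, q.2⟫ ∂Γ + R * δ := by
  have := G.prob
  have hQ : ∀ a, MeasurableSet (ι ⁻¹' {a}) := fun a => hι (measurableSet_singleton a)
  have hQ0 : ∀ i, ν (ι ⁻¹' {γ i}) ≠ 0 := by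
    intro i h
    have h1 := le_fiber hm γ i
    rw [hγ, measureReal_def, h] at h1
    exact absurd h1 (by simpa using hm i)
  have hprob : ∀ i, IsProbabilityMeasure (cond ν (ι ⁻¹' {γ i})) :=
    fun i => cond_isProbabilityMeasure (hQ0 i)
  set lam : I → Measure (EuclideanSpace ℝ (Fin d)) :=
    fun i => ρ.withDensity (fun x => ENNReal.ofReal (p i x)) with hlam
  have hpm : ∀ i, Measurable (fun x => ENNReal.ofReal (p i x)) :=
    fun i => (hp i).measurable.ennreal_ofReal
  have hlu : ∀ i, lam i univ = ENNReal.ofReal (m i) := by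
    intro i
    rw [hlam, withDensity_apply _ MeasurableSet.univ, Measure.restrict_univ, ← pm,
      ofReal_integral_eq_lintegral_ofReal (G.integrable (hp i)) (Eventually.of_forall (p0 i))]
  have hfin : ∀ i, IsFiniteMeasure (lam i) := fun i => ⟨by rw [hlu]; exact ENNReal.ofReal_lt_top⟩
  have hms : ∑ i, m i = 1 := by
    simp only [← pm]
    rw [← integral_finsetSum _ fun i _ => G.integrable (hp i)]
    simp [p1]
  refine ⟨∑ i, (lam i).prod (cond ν (ι ⁻¹' {γ i})), ?_, ?_, ?_⟩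
  · rw [Measure.map_finset_sum' measurable_fst.aemeasurable]
    simp only [Measure.map_fst_prod, measure_univ, one_smul]
    ext s hs
    rw [Measure.finsetSum_apply]
    simp only [hlam, withDensity_apply _ hs]
    rw [← lintegral_finsetSum _ fun i _ => hpm i]
    simp only [← ENNReal.ofReal_sum_of_nonneg fun i _ => p0 i _, p1]
    simp
  · rw [Measure.map_finset_sum' measurable_snd.aemeasurable]
    simp only [Measure.map_snd_prod, hlu]
    ext s hs
    rw [Measure.finsetSum_apply, measure_eq_sum_fiber ν hι s]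
    simp only [Measure.smul_apply, smul_eq_mul, cond_apply (hQ _)]
    have e : ∀ i, ENNReal.ofReal (m i) * ((ν (ι ⁻¹' {γ i}))⁻¹ * ν (ι ⁻¹' {γ i} ∩ s)) =
        ∑ a, ENNReal.ofReal (if γ i = a then m i else 0) *
          ((ν (ι ⁻¹' {a}))⁻¹ * ν (ι ⁻¹' {a} ∩ s)) := by
      intro i
      rw [Finset.sum_eq_single (γ i)]
      · simp
      · intro a _ ha; simp [ha.symm]
      · simp
    simp only [e]
    rw [Finset.sum_comm]
    refine Finset.sum_congr rfl fun a _ => ?_
    rw [← Finset.sum_mul, ← ENNReal.ofReal_sum_of_nonneg (fun i _ => by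
      split_ifs; exacts [(hm i).le, le_rfl]), hγ, Measure.restrict_apply (hQ a), measureReal_def,
      ENNReal.ofReal_toReal (measure_ne_top _ _)]
    by_cases h0 : ν (ι ⁻¹' {a}) = 0
    · rw [h0, zero_mul, measure_mono_null inter_subset_left h0]
    · rw [← mul_assoc, ENNReal.mul_inv_cancel h0 (measure_ne_top _ _), one_mul]
  · have a1 : ∀ i, ∀ᵐ q ∂(lam i).prod (cond ν (ι ⁻¹' {γ i})), q.1 ∈ K := fun i =>
      Measure.quasiMeasurePreserving_fst.ae ((withDensity_absolutelyContinuous _ _).ae_le G.ae)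
    have a2 : ∀ i, ∀ᵐ q ∂(lam i).prod (cond ν (ι ⁻¹' {γ i})),
        ‖q.2‖ ≤ L ∧ ‖q.2 - c (γ i)‖ ≤ δ := fun i => by
      refine Measure.quasiMeasurePreserving_snd.ae
        (p := fun y => ‖y‖ ≤ L ∧ ‖y - c (γ i)‖ ≤ δ) ?_
      filter_upwards [cond_absolutelyContinuous.ae_le hL, cond_absolutelyContinuous.ae_le hδ,
        ae_cond_mem (hQ (γ i))] with y h1 h2 h3
      rw [← mem_singleton_iff.1 h3]
      exact ⟨h1, h2⟩
    have i1 : ∀ i, Integrable (fun q => ⟪q.1, q.2⟫) ((lam i).prod (cond ν (ι ⁻¹' {γ i}))) :=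
      fun i => Integrable.of_bound (C := R * L) (by fun_prop) (by
        filter_upwards [a1 i, a2 i] with q h h'
        exact (norm_inner_le_norm _ _).trans
          (mul_le_mul (G.bdd _ h) h'.1 (norm_nonneg _) G.Rpos.le))
    rw [integral_finsetSum_measure fun i _ => i1 i, ← one_mul (R * δ), ← hms, Finset.sum_mul,
      ← Finset.sum_add_distrib]
    refine Finset.sum_le_sum fun i _ => ?_
    have e1 : ∫ x, ⟪x, c (γ i)⟫ * p i x ∂ρ =
        ∫ q, ⟪q.1, c (γ i)⟫ ∂(lam i).prod (cond ν (ι ⁻¹' {γ i})) := by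
      rw [integral_fun_fst (fun x => ⟪x, c (γ i)⟫), probReal_univ, one_smul, hlam,
        integral_withDensity_eq_integral_toReal_smul (hpm i)
          (Eventually.of_forall fun _ => ENNReal.ofReal_lt_top)]
      congr 1; ext x
      rw [ENNReal.toReal_ofReal (p0 i x), smul_eq_mul, mul_comm]
    have e2 : m i * (R * δ) = ∫ _, R * δ ∂(lam i).prod (cond ν (ι ⁻¹' {γ i})) := by
      rw [integral_const, smul_eq_mul, measureReal_def, ← univ_prod_univ, Measure.prod_prod, hlu,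
        measure_univ, mul_one, ENNReal.toReal_ofReal (hm i).le]
    rw [e1, e2, ← integral_add (i1 i) (integrable_const _)]
    refine integral_mono_ae (Integrable.of_bound (C := R * ‖c (γ i)‖) (by fun_prop) ?_)
      ((i1 i).add (integrable_const _)) ?_
    · filter_upwards [a1 i] with q h
      exact (norm_inner_le_norm _ _).trans (by gcongr; exact G.bdd _ h)
    · filter_upwards [a1 i, a2 i] with q h h'
      have h1 : |⟪q.1, q.2 - c (γ i)⟫| ≤ R * δ := (abs_real_inner_le_norm _ _).trans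
        (mul_le_mul (G.bdd _ h) h'.2 (norm_nonneg _) G.Rpos.le)
      rw [inner_sub_right] at h1
      linarith [(abs_le.1 h1).1]

lemma exists_weights [IsProbabilityMeasure ρ] {ν : Measure (EuclideanSpace ℝ (Fin d))}
    {n : ℕ} {ι : EuclideanSpace ℝ (Fin d) → Fin n} (hι : Measurable ι)
    {m : I → ℝ} (hm : ∀ i, 0 < m i) (γ : I → Fin n)
    (hγ : ∀ a, (∑ i, if γ i = a then m i else 0) = ν.real (ι ⁻¹' {a}))
    {S : EuclideanSpace ℝ (Fin d) → EuclideanSpace ℝ (Fin d)} (hS : Measurable S)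
    (hmap : ρ.map S = ν) :
    ∃ r : I → EuclideanSpace ℝ (Fin d) → ℝ, (∀ i, Measurable (r i)) ∧
      (∀ i x, 0 ≤ r i x) ∧ (∀ i x, r i x ≤ 1) ∧ (∀ i, ∫ x, r i x ∂ρ = m i) ∧
      (∀ᵐ x ∂ρ, ∑ i, r i x = 1) ∧ ∀ i x, r i x ≠ 0 → γ i = ι (S x) := by
  have hQ : ∀ a, MeasurableSet (ι ⁻¹' {a}) := fun a => hι (measurableSet_singleton a)
  have hpos : ∀ i, 0 < ν.real (ι ⁻¹' {γ i}) := fun i =>
    (hm i).trans_le ((le_fiber hm γ i).trans_eq (hγ _))
  refine ⟨fun i => (S ⁻¹' (ι ⁻¹' {γ i})).indicator fun _ => m i / ν.real (ι ⁻¹' {γ i}),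
    fun i => measurable_const.indicator (hS (hQ _)), fun i x => ?_, fun i x => ?_, fun i => ?_,
    ?_, fun i x h => ?_⟩
  · exact indicator_nonneg (fun _ _ => div_nonneg (hm i).le (hpos i).le) x
  · refine indicator_apply_le' (fun _ => ?_) (fun _ => zero_le_one)
    rw [div_le_one (hpos i)]
    exact (le_fiber hm γ i).trans_eq (hγ _)
  · rw [integral_indicator_const _ (hS (hQ _)), ← map_measureReal_apply hS (hQ _), hmap,
      smul_eq_mul, mul_div_cancel₀ _ (hpos i).ne']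
  · have h1 : ∀ᵐ x ∂ρ, ∀ a, ν.real (ι ⁻¹' {a}) = 0 → ι (S x) ≠ a := by
      rw [ae_all_iff]
      intro a
      by_cases h : ν.real (ι ⁻¹' {a}) = 0
      · rw [← hmap, map_measureReal_apply hS (hQ _), measureReal_eq_zero_iff] at h
        filter_upwards [measure_eq_zero_iff_ae_notMem.1 h] with x hx _
        exact hx
      · exact Eventually.of_forall fun x h' => absurd h' h
    filter_upwards [h1] with x hx
    have h2 : ν.real (ι ⁻¹' {ι (S x)}) ≠ 0 := fun h => hx _ h rfl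
    have e : ∀ i, (S ⁻¹' (ι ⁻¹' {γ i})).indicator (fun _ => m i / ν.real (ι ⁻¹' {γ i})) x =
        (if γ i = ι (S x) then m i else 0) / ν.real (ι ⁻¹' {ι (S x)}) := by
      intro i
      split_ifs with h
      · rw [indicator_of_mem (by simp [h]), h]
      · rw [indicator_of_notMem (by simpa using fun h' => h h'.symm), zero_div]
    simp only [e]
    rw [← Finset.sum_div, hγ, div_self h2]
  · have := mem_of_indicator_ne_zero h
    exact (mem_singleton_iff.1 this).symm

lemma exists_discrete {μ ν : Measure (EuclideanSpace ℝ (Fin d))} [IsProbabilityMeasure μ]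
    (π : Measure (EuclideanSpace ℝ (Fin d) × EuclideanSpace ℝ (Fin d)))
    (h1 : π.map Prod.fst = μ) (h2 : π.map Prod.snd = ν) {n : ℕ}
    (c : Fin n → EuclideanSpace ℝ (Fin d)) {ι : EuclideanSpace ℝ (Fin d) → Fin n}
    (hι : Measurable ι) {δ : ℝ} (hμ : ∀ᵐ y ∂μ, ‖y - c (ι y)‖ ≤ δ)
    (hν : ∀ᵐ y ∂ν, ‖y - c (ι y)‖ ≤ δ) (hint : Integrable (fun q => ‖q.1 - q.2‖ ^ 2) π) :
    ∃ (I : Type) (_ : Fintype I) (_ : Nonempty I) (m : I → ℝ) (α β : I → Fin n),
      (∀ i, 0 < m i) ∧ ∑ i, m i = 1 ∧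
      (∀ a, (∑ i, if α i = a then m i else 0) = μ.real (ι ⁻¹' {a})) ∧
      (∀ a, (∑ i, if β i = a then m i else 0) = ν.real (ι ⁻¹' {a})) ∧
      ∑ i, m i * ‖c (β i) - c (α i)‖ ^ 2 ≤ 3 * ∫ q, ‖q.1 - q.2‖ ^ 2 ∂π + 6 * δ ^ 2 := by
  have hπ : IsProbabilityMeasure π := ⟨by
    have := congrArg (fun μ : Measure _ => μ univ) h1
    simpa [Measure.map_apply measurable_fst] using this⟩
  have hQ : ∀ a, MeasurableSet (ι ⁻¹' {a}) := fun a => hι (measurableSet_singleton a)
  have hj : Measurable (fun q : EuclideanSpace ℝ (Fin d) × EuclideanSpace ℝ (Fin d) =>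
      (ι q.1, ι q.2)) := (hι.comp measurable_fst).prodMk (hι.comp measurable_snd)
  set M : Fin n × Fin n → ℝ := fun ab => (π.map fun q => (ι q.1, ι q.2)).real {ab} with hM
  have key : ∀ g : Fin n × Fin n → ℝ,
      ∑ i : {ab // 0 < M ab}, M i * g i = ∫ q, g (ι q.1, ι q.2) ∂π := by
    intro g
    rw [← integral_map hj.aemeasurable (measurable_of_countable g).aestronglyMeasurable,
      integral_fintype Integrable.of_finite,
      ← Finset.sum_subtype (Finset.univ.filter fun ab => 0 < M ab) (by simp)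
        (fun ab => M ab * g ab), Finset.sum_filter]
    refine Finset.sum_congr rfl fun ab _ => ?_
    split_ifs with h
    · rfl
    · have : M ab = 0 := le_antisymm (not_lt.1 h) measureReal_nonneg
      change 0 = M ab * g ab
      rw [this, zero_mul]
  have hsum : ∑ i : {ab // 0 < M ab}, M i = 1 := by simpa using key fun _ => 1
  have hne : Nonempty {ab // 0 < M ab} := by
    by_contra h
    rw [not_nonempty_iff] at h
    simp at hsum
  refine ⟨{ab // 0 < M ab}, inferInstance, hne, fun i => M i, fun i => i.1.1, fun i => i.1.2,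
    fun i => i.2, hsum, fun a => ?_, fun a => ?_, ?_⟩
  · have := key fun ab => if ab.1 = a then 1 else 0
    simp only [mul_ite, mul_one, mul_zero] at this
    rw [this, ← h1, map_measureReal_apply measurable_fst (hQ a),
      ← integral_indicator_one (measurable_fst (hQ a))]
    congr 1; ext q; simp [indicator]
  · have := key fun ab => if ab.2 = a then 1 else 0
    simp only [mul_ite, mul_one, mul_zero] at this
    rw [this, ← h2, map_measureReal_apply measurable_snd (hQ a),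
      ← integral_indicator_one (measurable_snd (hQ a))]
    congr 1; ext q; simp [indicator]
  · rw [key fun ab => ‖c ab.2 - c ab.1‖ ^ 2]
    have a1 : ∀ᵐ q ∂π, ‖q.1 - c (ι q.1)‖ ≤ δ := by
      rw [← h1] at hμ; exact ae_of_ae_map measurable_fst.aemeasurable hμ
    have a2 : ∀ᵐ q ∂π, ‖q.2 - c (ι q.2)‖ ≤ δ := by
      rw [← h2] at hν; exact ae_of_ae_map measurable_snd.aemeasurable hν
    have e : 3 * ∫ q, ‖q.1 - q.2‖ ^ 2 ∂π + 6 * δ ^ 2 = ∫ q, (3 * ‖q.1 - q.2‖ ^ 2 + 6 * δ ^ 2) ∂π := by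
      rw [integral_add (hint.const_mul 3) (integrable_const _), integral_const_mul]
      simp
    rw [e]
    refine integral_mono_of_nonneg (Eventually.of_forall fun q => sq_nonneg _)
      ((hint.const_mul 3).add (integrable_const _)) ?_
    filter_upwards [a1, a2] with q b1 b2
    have h3 : ‖c (ι q.2) - c (ι q.1)‖ ≤ δ + ‖q.1 - q.2‖ + δ := by
      have e2 : c (ι q.2) - c (ι q.1) = (q.1 - c (ι q.1)) - (q.1 - q.2) - (q.2 - c (ι q.2)) := by
        abel
      rw [e2]
      exact (norm_sub_le _ _).trans (add_le_add ((norm_sub_le _ _).trans (by linarith)) b2)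
    have h4 : ‖c (ι q.2) - c (ι q.1)‖ ^ 2 ≤ (δ + ‖q.1 - q.2‖ + δ) ^ 2 := by gcongr
    nlinarith [sq_nonneg (δ - ‖q.1 - q.2‖)]

end Vale.Agent.P074
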