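import Mathlib
import Vale.Agent.P074.Key

open MeasureTheory Set Filter Topology
open scoped ENNReal NNReal RealInnerProductSpace

namespace Vale.Agent.P074

section lse
variable {I : Type} [Fintype I] [Nonempty I]

/-- log-sum-exp -/
noncomputable def lse (u : I → ℝ) : ℝ := Real.log (∑ i, Real.exp (u i))

/-- softmax weights -/
noncomputable def sm (u : I → ℝ) (i : I) : ℝ := Real.exp (u i) / ∑ j, Real.exp (u j)

lemma Z_pos (u : I → ℝ) : 0 < ∑ i, Real.exp (u i) :=
  Finset.sum_pos (fun _ _ => Real.exp_pos _) Finset.univ_nonempty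

lemma sm_pos (u : I → ℝ) (i : I) : 0 < sm u i := div_pos (Real.exp_pos _) (Z_pos u)

lemma sum_sm (u : I → ℝ) : ∑ i, sm u i = 1 := by
  simp only [sm]; rw [← Finset.sum_div, div_self (Z_pos u).ne']

lemma continuous_lse : Continuous (lse : (I → ℝ) → ℝ) :=
  Continuous.log (by fun_prop) fun u => (Z_pos u).ne'

lemma continuous_sm (i : I) : Continuous (fun u : I → ℝ => sm u i) :=
  Continuous.div (by fun_prop) (by fun_prop) fun u => (Z_pos u).ne'

lemma gibbs (u u' : I → ℝ) : lse u + ∑ i, sm u i * (u' i - u i) ≤ lse u' := by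
  have h1 := convexOn_exp.map_sum_le (t := Finset.univ) (w := sm u) (p := fun i => u' i - u i)
    (fun i _ => (sm_pos u i).le) (sum_sm u) (fun _ _ => mem_univ _)
  simp only [smul_eq_mul] at h1
  have h2 : ∑ i, sm u i * Real.exp (u' i - u i) = (∑ i, Real.exp (u' i)) / ∑ j, Real.exp (u j) := by
    rw [Finset.sum_div]
    refine Finset.sum_congr rfl fun i _ => ?_
    rw [sm, Real.exp_sub]; field_simp
  rw [h2, ← Real.le_log_iff_exp_le (div_pos (Z_pos _) (Z_pos _)),
    Real.log_div (Z_pos _).ne' (Z_pos _).ne'] at h1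
  unfold lse; linarith

lemma le_lse (u : I → ℝ) (i : I) : u i ≤ lse u := by
  rw [lse, Real.le_log_iff_exp_le (Z_pos u)]
  exact Finset.single_le_sum (f := fun i => Real.exp (u i)) (fun _ _ => (Real.exp_pos _).le)
    (Finset.mem_univ i)

lemma lse_le_entropy (u : I → ℝ) : lse u ≤ ∑ i, sm u i * u i + Real.log (Fintype.card I) := by
  have h := gibbs u 0
  have e : lse (0 : I → ℝ) = Real.log (Fintype.card I) := by simp [lse]
  rw [e] at h
  simp only [Pi.zero_apply, zero_sub, mul_neg, Finset.sum_neg_distrib] at h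
  linarith

lemma sm_mid (u u' w : I → ℝ) (hw : ∀ i, w i = (u i + u' i) / 2) (i : I) :
    √(sm u i * sm u' i) ≤ sm w i := by
  have e : ∀ j, Real.exp (w j) = √(Real.exp (u j)) * √(Real.exp (u' j)) := by
    intro j
    rw [← Real.sqrt_mul (Real.exp_pos _).le, ← Real.exp_add, hw, ← Real.exp_half]
  have h1 : ∑ j, Real.exp (w j) ≤ √(∑ j, Real.exp (u j)) * √(∑ j, Real.exp (u' j)) := by
    simp only [e]
    exact Real.sum_sqrt_mul_sqrt_le _ (fun _ => (Real.exp_pos _).le) (fun _ => (Real.exp_pos _).le)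
  have h2 : √(sm u i * sm u' i) =
      Real.exp (w i) / (√(∑ j, Real.exp (u j)) * √(∑ j, Real.exp (u' j))) := by
    rw [Real.sqrt_mul (sm_pos u i).le, sm, sm, Real.sqrt_div (Real.exp_pos _).le,
      Real.sqrt_div (Real.exp_pos _).le, e]
    ring
  rw [h2, sm]
  exact div_le_div_of_nonneg_left (Real.exp_pos _).le (Z_pos w) h1

lemma lse_update_le [DecidableEq I] (u : I → ℝ) (i : I) (s : ℝ) :
    lse (fun j => u j + if j = i then s else 0) ≤ lse u + sm u i * (Real.exp s - 1) := by
  have e : ∑ j, Real.exp (u j + if j = i then s else 0) =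
      (∑ j, Real.exp (u j)) * (1 + sm u i * (Real.exp s - 1)) := by
    have e1 : ∀ j, Real.exp (u j + if j = i then s else 0) =
        Real.exp (u j) + if j = i then Real.exp (u i) * (Real.exp s - 1) else 0 := by
      intro j
      split_ifs with h
      · subst h; rw [Real.exp_add]; ring
      · simp
    simp only [e1, Finset.sum_add_distrib, Finset.sum_ite_eq', Finset.mem_univ, if_true, sm]
    have := (Z_pos u).ne'
    field_simp
  have hpos : 0 < 1 + sm u i * (Real.exp s - 1) := by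
    have := Z_pos (fun j => u j + if j = i then s else 0)
    rw [e] at this
    exact (mul_pos_iff_of_pos_left (Z_pos u)).1 this
  rw [lse, e, Real.log_mul (Z_pos u).ne' hpos.ne']
  have := Real.log_le_sub_one_of_pos hpos
  unfold lse; linarith

end lse

variable {d : ℕ} {I : Type} [Fintype I] [Nonempty I]

/-- scores -/
noncomputable def sc (y : I → EuclideanSpace ℝ (Fin d)) (ψ : I → ℝ) (x : EuclideanSpace ℝ (Fin d))
    (i : I) : ℝ := ⟪x, y i⟫ - ψ i

/-- regularized potential -/
noncomputable def Phi (y : I → EuclideanSpace ℝ (Fin d)) (ψ : I → ℝ)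
    (x : EuclideanSpace ℝ (Fin d)) : ℝ := lse (sc y ψ x)

/-- soft assignment -/
noncomputable def pw (y : I → EuclideanSpace ℝ (Fin d)) (ψ : I → ℝ) (i : I)
    (x : EuclideanSpace ℝ (Fin d)) : ℝ := sm (sc y ψ x) i

omit [Nonempty I] [Fintype I] in
lemma continuous_sc (y : I → EuclideanSpace ℝ (Fin d)) :
    Continuous (fun q : (I → ℝ) × EuclideanSpace ℝ (Fin d) => sc y q.1 q.2) := by
  refine continuous_pi fun i => ?_
  unfold sc; fun_prop

lemma continuous_Phi' (y : I → EuclideanSpace ℝ (Fin d)) :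
    Continuous (fun q : (I → ℝ) × EuclideanSpace ℝ (Fin d) => Phi y q.1 q.2) :=
  continuous_lse.comp (continuous_sc y)

lemma continuous_pw' (y : I → EuclideanSpace ℝ (Fin d)) (i : I) :
    Continuous (fun q : (I → ℝ) × EuclideanSpace ℝ (Fin d) => pw y q.1 i q.2) :=
  (continuous_sm i).comp (continuous_sc y)

@[fun_prop]
lemma continuous_Phi (y : I → EuclideanSpace ℝ (Fin d)) (ψ : I → ℝ) : Continuous (Phi y ψ) := by
  refine continuous_lse.comp (continuous_pi fun i => ?_)
  unfold sc; fun_prop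

@[fun_prop]
lemma continuous_pw (y : I → EuclideanSpace ℝ (Fin d)) (ψ : I → ℝ) (i : I) :
    Continuous (pw y ψ i) := by
  refine (continuous_sm i).comp (continuous_pi fun i => ?_)
  unfold sc; fun_prop

lemma pw_pos (y : I → EuclideanSpace ℝ (Fin d)) (ψ : I → ℝ) (i : I)
    (x : EuclideanSpace ℝ (Fin d)) : 0 < pw y ψ i x := sm_pos _ _

lemma sum_pw (y : I → EuclideanSpace ℝ (Fin d)) (ψ : I → ℝ)
    (x : EuclideanSpace ℝ (Fin d)) : ∑ i, pw y ψ i x = 1 := sum_sm _

/-- integrated potential -/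
noncomputable def FF (ρ : Measure (EuclideanSpace ℝ (Fin d))) (y : I → EuclideanSpace ℝ (Fin d))
    (ψ : I → ℝ) : ℝ := ∫ x, Phi y ψ x ∂ρ

/-- masses -/
noncomputable def MM (ρ : Measure (EuclideanSpace ℝ (Fin d))) (y : I → EuclideanSpace ℝ (Fin d))
    (ψ : I → ℝ) (i : I) : ℝ := ∫ x, pw y ψ i x ∂ρ

/-- first moments paired with a vector field -/
noncomputable def BB (ρ : Measure (EuclideanSpace ℝ (Fin d))) (y : I → EuclideanSpace ℝ (Fin d))
    (ψ : I → ℝ) (v : I → EuclideanSpace ℝ (Fin d)) : ℝ := ∑ i, ∫ x, ⟪x, v i⟫ * pw y ψ i x ∂ρ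

variable {ρ : Measure (EuclideanSpace ℝ (Fin d))} {K : Set (EuclideanSpace ℝ (Fin d))} {R : ℝ}

lemma Good.continuous_FF (G : Good ρ K R) (y : I → EuclideanSpace ℝ (Fin d)) :
    Continuous (FF ρ y) := by
  have := G.prob
  have h := continuous_parametric_integral_of_continuous (μ := ρ)
    (f := fun ψ x => Phi y ψ x) (continuous_Phi' y) G.cpt
  rw [G.restrict_eq] at h
  exact h

lemma Good.continuous_MM (G : Good ρ K R) (y : I → EuclideanSpace ℝ (Fin d)) (i : I) :
    Continuous (fun ψ => MM ρ y ψ i) := by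
  have := G.prob
  have h := continuous_parametric_integral_of_continuous (μ := ρ)
    (f := fun ψ x => pw y ψ i x) (continuous_pw' y i) G.cpt
  rw [G.restrict_eq] at h
  exact h

lemma Good.MM_pos (G : Good ρ K R) (y : I → EuclideanSpace ℝ (Fin d)) (ψ : I → ℝ) (i : I) :
    0 < MM ρ y ψ i := by
  have := G.prob
  rw [MM, integral_pos_iff_support_of_nonneg (fun x => (pw_pos y ψ i x).le)
    (G.integrable (continuous_pw y ψ i))]
  have : Function.support (pw y ψ i) = univ :=
    eq_univ_of_forall fun x => (pw_pos y ψ i x).ne'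
  rw [this]; simp

lemma Good.sum_weighted (G : Good ρ K R) (y : I → EuclideanSpace ℝ (Fin d)) (ψ : I → ℝ)
    {w : EuclideanSpace ℝ (Fin d) → ℝ} (hw : Continuous w) :
    ∑ i, ∫ x, w x * pw y ψ i x ∂ρ = ∫ x, w x ∂ρ := by
  rw [← integral_finsetSum _ fun i _ => G.integrable (by fun_prop)]
  congr 1; ext x
  rw [← Finset.mul_sum, sum_pw, mul_one]

lemma Good.sum_MM (G : Good ρ K R) (y : I → EuclideanSpace ℝ (Fin d)) (ψ : I → ℝ) :
    ∑ i, MM ρ y ψ i = 1 := by
  have := G.prob
  have h := G.sum_weighted y ψ (w := fun _ => 1) continuous_const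
  simpa [MM] using h

lemma Good.sub (G : Good ρ K R) (y y' : I → EuclideanSpace ℝ (Fin d)) (ψ ψ' : I → ℝ) :
    FF ρ y ψ + BB ρ y ψ (y' - y) - ∑ i, MM ρ y ψ i * (ψ' i - ψ i) ≤ FF ρ y' ψ' := by
  have e : FF ρ y ψ + BB ρ y ψ (y' - y) - ∑ i, MM ρ y ψ i * (ψ' i - ψ i) =
      ∫ x, (Phi y ψ x + ∑ i, pw y ψ i x * (sc y' ψ' x i - sc y ψ x i)) ∂ρ := by
    have hc : ∀ i, Continuous fun x => pw y ψ i x * (sc y' ψ' x i - sc y ψ x i) := by
      intro i; unfold sc; fun_prop
    rw [integral_add (G.integrable (by fun_prop))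
      (G.integrable (continuous_finsetSum _ fun i _ => hc i)),
      integral_finsetSum _ fun i _ => G.integrable (hc i), FF, BB, add_sub_assoc,
      ← Finset.sum_sub_distrib]
    congr 1
    refine Finset.sum_congr rfl fun i _ => ?_
    rw [MM, ← integral_mul_const, ← integral_sub (G.integrable (by fun_prop))
      (G.integrable (by fun_prop))]
    congr 1; ext x
    simp only [sc, Pi.sub_apply, inner_sub_right]; ring
  rw [e]
  refine integral_mono (G.integrable ?_) (G.integrable (by fun_prop)) fun x => gibbs _ _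
  refine (continuous_Phi y ψ).add (continuous_finsetSum _ fun i _ => ?_)
  unfold sc; fun_prop

omit [Nonempty I] in
lemma BB_smul (y : I → EuclideanSpace ℝ (Fin d)) (ψ : I → ℝ) (v : I → EuclideanSpace ℝ (Fin d))
    (c : ℝ) : BB ρ y ψ (c • v) = c * BB ρ y ψ v := by
  simp only [BB, Finset.mul_sum, ← integral_const_mul, Pi.smul_apply, inner_smul_right, mul_assoc]

omit [Nonempty I] in
lemma BB_zero (y : I → EuclideanSpace ℝ (Fin d)) (ψ : I → ℝ) : BB ρ y ψ 0 = 0 := by
  simp [BB]

lemma Good.sub' (G : Good ρ K R) (y : I → EuclideanSpace ℝ (Fin d)) (ψ ψ' : I → ℝ) :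
    FF ρ y ψ + ∑ i, MM ρ y ψ i * ψ i ≤ FF ρ y ψ' + ∑ i, MM ρ y ψ i * ψ' i := by
  have := G.sub y y ψ ψ'
  rw [sub_self, BB_zero] at this
  simp only [mul_sub, Finset.sum_sub_distrib] at this
  linarith

lemma Good.key_sum (G : Good ρ K R) (y : I → EuclideanSpace ℝ (Fin d)) (ψ ψ' : I → ℝ)
    (θ : I → EuclideanSpace ℝ (Fin d)) :
    BB ρ y ψ' θ - BB ρ y ψ θ ≤ 3 * R ^ 2 * ∑ i, (√(MM ρ y ψ i) - √(MM ρ y ψ' i)) ^ 2 +
      2 * ∑ i, (MM ρ y ψ i + MM ρ y ψ' i) * ‖θ i‖ ^ 2 := by
  have h := fun i => G.key (f := pw y ψ i) (g := pw y ψ' i)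
    (h := pw y (fun j => (ψ j + ψ' j) / 2) i) (by fun_prop) (by fun_prop) (by fun_prop)
    (fun x => (pw_pos _ _ _ _).le) (fun x => (pw_pos _ _ _ _).le) (G.MM_pos y ψ i)
    (G.MM_pos y ψ' i) (fun x x' => sm_mid _ _ _ (fun j => by
      simp only [sc, inner_smul_left, inner_add_left, RCLike.conj_to_real]; ring) i) (θ i)
  have h2 := Finset.sum_le_sum (s := Finset.univ) fun i _ => h i
  have hw : Continuous fun x : EuclideanSpace ℝ (Fin d) => R ^ 2 - ‖x‖ ^ 2 := by fun_prop
  simp only [Finset.sum_add_distrib, Finset.sum_sub_distrib, ← Finset.sum_div,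
    G.sum_weighted y _ hw] at h2
  simp only [BB, MM, Finset.mul_sum]
  simp only [mul_assoc] at h2 ⊢
  linarith

lemma Good.foc (G : Good ρ K R) [DecidableEq I] (y : I → EuclideanSpace ℝ (Fin d)) (χ : I → ℝ)
    (Q : (I → ℝ) → ℝ) (hmin : ∀ χ', FF ρ y χ + Q χ ≤ FF ρ y χ' + Q χ') (i : I) (q : ℝ)
    (hQ : HasDerivAt (fun s => Q (fun j => χ j - if j = i then s else 0)) (-q) 0) :
    MM ρ y χ i = q := by
  have h1 : ∀ s, FF ρ y (fun j => χ j - if j = i then s else 0) ≤
      FF ρ y χ + MM ρ y χ i * (Real.exp s - 1) := by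
    intro s
    rw [FF, FF, MM, ← integral_mul_const, ← integral_add (G.integrable (by fun_prop))
      (G.integrable (by fun_prop))]
    refine integral_mono (G.integrable (by fun_prop)) (G.integrable (by fun_prop)) fun x => ?_
    have := lse_update_le (sc y χ x) i s
    have e : sc y (fun j => χ j - if j = i then s else 0) x =
        fun j => sc y χ x j + if j = i then s else 0 := by
      ext j; simp only [sc]; ring
    simp only [Phi, pw]
    rw [e]; exact this
  have h2 : IsLocalMin (fun s => MM ρ y χ i * (Real.exp s - 1) +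
      Q (fun j => χ j - if j = i then s else 0)) 0 := by
    refine Eventually.of_forall fun s => ?_
    have := hmin (fun j => χ j - if j = i then s else 0)
    have := h1 s
    simp only [Real.exp_zero, sub_self, mul_zero, ite_self, sub_zero, zero_add]
    linarith
  have h3 := h2.hasDerivAt_eq_zero
    ((((Real.hasDerivAt_exp 0).sub_const 1).const_mul (MM ρ y χ i)).add hQ)
  simp only [Real.exp_zero, mul_one] at h3
  linarith

omit [Nonempty I] in
lemma hasDerivAt_lin [DecidableEq I] (m χ : I → ℝ) (i : I) :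
    HasDerivAt (fun s : ℝ => ∑ j, m j * (χ j - if j = i then s else 0)) (-m i) 0 := by
  have e : (fun s : ℝ => ∑ j, m j * (χ j - if j = i then s else 0)) =
      fun s => ∑ j, m j * χ j - m i * s := by
    ext s
    simp [mul_sub, Finset.sum_sub_distrib]
  rw [e]
  simpa using ((hasDerivAt_id (0 : ℝ)).const_mul (m i)).const_sub (∑ j, m j * χ j)

lemma Good.FF_lower (G : Good ρ K R) (y : I → EuclideanSpace ℝ (Fin d)) (ψ : I → ℝ) (i : I) :
    -ψ i - R * ‖y i‖ ≤ FF ρ y ψ := by
  have := G.prob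
  have h : ∫ _, (-ψ i - R * ‖y i‖) ∂ρ ≤ FF ρ y ψ := by
    refine integral_mono_ae (integrable_const _) (G.integrable (by fun_prop)) ?_
    filter_upwards [G.ae] with x hx
    refine le_trans ?_ (le_lse _ i)
    have h1 := (abs_le.1 (abs_real_inner_le_norm x (y i))).1
    have h2 := mul_le_mul_of_nonneg_right (G.bdd x hx) (norm_nonneg (y i))
    simp only [sc]; linarith
  simpa using h

lemma Good.exists_exact (G : Good ρ K R) (y : I → EuclideanSpace ℝ (Fin d)) (m : I → ℝ)
    (hm : ∀ i, 0 < m i) (hs : ∑ i, m i = 1) : ∃ ψ, ∀ i, MM ρ y ψ i = m i := by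
  classical
  set Q : (I → ℝ) → ℝ := fun χ => ∑ j, m j * χ j + (∑ j, m j * χ j) ^ 2 / 2 with hQ
  have hc : Continuous fun χ => FF ρ y χ + Q χ := (G.continuous_FF y).add (by fun_prop)
  obtain ⟨i0, -, hi0⟩ := Finset.exists_min_image Finset.univ m Finset.univ_nonempty
  set C0 := |FF ρ y 0| + ∑ i, R * ‖y i‖ with hC0
  have hR := G.Rpos
  have hC : ∀ i, FF ρ y 0 + R * ‖y i‖ ≤ C0 := fun i =>
    add_le_add (le_abs_self _) (Finset.single_le_sum (f := fun i => R * ‖y i‖)
      (fun _ _ => by positivity) (Finset.mem_univ i))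
  have hC0' : 0 ≤ C0 := by positivity
  obtain ⟨χ, hχ⟩ := hc.exists_forall_le_of_isBounded 0 (by
    refine (Metric.isBounded_closedBall (x := (0 : I → ℝ))
      (r := (2 * C0 + 1) + C0 / m i0)).subset fun χ hχ => ?_
    simp only [mem_ofPred_eq, hQ, Pi.zero_apply, mul_zero, Finset.sum_const_zero] at hχ
    obtain ⟨k, -, hk⟩ := Finset.exists_min_image Finset.univ χ Finset.univ_nonempty
    set S := ∑ j, m j * χ j with hS
    have h1 := G.FF_lower y χ k
    have h2 := hC k
    have h3 : S - χ k = ∑ j, m j * (χ j - χ k) := by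
      simp only [mul_sub, Finset.sum_sub_distrib, ← Finset.sum_mul, hs, one_mul, hS]
    have h4 : ∀ j, m j * (χ j - χ k) ≤ S - χ k := fun j => by
      rw [h3]
      exact Finset.single_le_sum (f := fun j => m j * (χ j - χ k))
        (fun j _ => mul_nonneg (hm j).le (sub_nonneg.2 (hk j (Finset.mem_univ _))))
        (Finset.mem_univ j)
    have h5 : 0 ≤ S - χ k := by simpa using h4 k
    have h6 : S - χ k + S ^ 2 / 2 ≤ C0 := by linarith
    have h7 : |S| ≤ C0 + 1 := by
      rw [abs_le]; constructor <;> nlinarith [sq_nonneg (S - 1), sq_nonneg (S + 1)]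
    have h8 : S - χ k ≤ C0 := by nlinarith [sq_nonneg S]
    rw [mem_closedBall_zero_iff, pi_norm_le_iff_of_nonneg (by have := hm i0; positivity)]
    intro j
    have h9 : χ j - χ k ≤ C0 / m i0 := by
      rw [le_div_iff₀ (hm i0)]
      have := mul_le_mul_of_nonneg_right (hi0 j (Finset.mem_univ _))
        (sub_nonneg.2 (hk j (Finset.mem_univ _)))
      have := h4 j
      linarith
    have h10 := hk j (Finset.mem_univ _)
    have h11 : 0 ≤ C0 / m i0 := div_nonneg hC0' (hm i0).le
    rw [Real.norm_eq_abs, abs_le]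
    have := abs_le.1 h7
    constructor <;> linarith [this.1, this.2])
  have h1 : ∀ i, MM ρ y χ i = m i + m i * ∑ j, m j * χ j := by
    intro i
    refine G.foc y χ Q hχ i _ ?_
    have h2 := hasDerivAt_lin m χ i
    have h3 := h2.add ((h2.pow 2).div_const 2)
    refine h3.congr_deriv ?_
    simp; ring
  have h2 : ∑ j, m j * χ j = 0 := by
    have := G.sum_MM y χ
    simp only [h1, Finset.sum_add_distrib, ← Finset.sum_mul, hs] at this
    linarith
  exact ⟨χ, fun i => by rw [h1, h2]; ring⟩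

lemma Good.exists_prox (G : Good ρ K R) (y : I → EuclideanSpace ℝ (Fin d)) (m ψ : I → ℝ)
    (hm : ∀ i, 0 < m i) (hs : ∑ i, m i = 1) {κ : ℝ} (hκ : 0 < κ) :
    ∃ χ, ∀ i, MM ρ y χ i = m i + κ * m i * (χ i - ψ i) := by
  classical
  set Q : (I → ℝ) → ℝ := fun χ => ∑ j, m j * χ j + κ / 2 * ∑ j, m j * (χ j - ψ j) ^ 2 with hQ
  have hc : Continuous fun χ => FF ρ y χ + Q χ := (G.continuous_FF y).add (by fun_prop)
  obtain ⟨i0, -, hi0⟩ := Finset.exists_min_image Finset.univ m Finset.univ_nonempty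
  obtain ⟨χ, hχ⟩ := hc.exists_forall_le_of_isBounded ψ (by
    refine (Metric.isBounded_closedBall (x := ψ) (r := 4 / (κ * m i0))).subset fun χ hχ => ?_
    simp only [mem_ofPred_eq, hQ, sub_self] at hχ
    obtain ⟨k, -, hk⟩ := Finset.exists_max_image Finset.univ (fun j => |χ j - ψ j|)
      Finset.univ_nonempty
    set r := |χ k - ψ k| with hr
    have hr0 : 0 ≤ r := abs_nonneg _
    have h1 := G.sub' y ψ χ
    have h2 : ∀ w : I → ℝ, (∀ i, 0 ≤ w i) → ∑ i, w i = 1 →
        |∑ i, w i * χ i - ∑ i, w i * ψ i| ≤ r := by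
      intro w hw hw1
      rw [← Finset.sum_sub_distrib]
      refine (Finset.abs_sum_le_sum_abs _ _).trans ?_
      calc _ ≤ ∑ i, w i * r := Finset.sum_le_sum fun i _ => by
            rw [← mul_sub, abs_mul, abs_of_nonneg (hw i)]
            exact mul_le_mul_of_nonneg_left (hk i (Finset.mem_univ _)) (hw i)
        _ = r := by rw [← Finset.sum_mul, hw1, one_mul]
    have h3 := abs_le.1 (h2 m (fun i => (hm i).le) hs)
    have h4 := abs_le.1 (h2 _ (fun i => (G.MM_pos y ψ i).le) (G.sum_MM y ψ))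
    have h5 : m i0 * r ^ 2 ≤ ∑ j, m j * (χ j - ψ j) ^ 2 := by
      refine le_trans ?_ (Finset.single_le_sum (f := fun j => m j * (χ j - ψ j) ^ 2)
        (fun j _ => mul_nonneg (hm j).le (sq_nonneg _)) (Finset.mem_univ k))
      rw [hr, sq_abs]
      exact mul_le_mul_of_nonneg_right (hi0 k (Finset.mem_univ _)) (sq_nonneg _)
    have h6 : κ / 2 * (m i0 * r ^ 2) ≤ 2 * r := by
      have := mul_le_mul_of_nonneg_left h5 (by positivity : 0 ≤ κ / 2)
      simp only [ne_eq, OfNat.ofNat_ne_zero, not_false_eq_true, zero_pow, mul_zero,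
        Finset.sum_const_zero, add_zero] at hχ
      linarith [h3.1, h4.2]
    have hpos : 0 < κ * m i0 := mul_pos hκ (hm i0)
    have h7 : r ≤ 4 / (κ * m i0) := by
      rw [le_div_iff₀ hpos]
      rcases hr0.eq_or_lt with h | h
      · rw [← h]; norm_num
      · have : r * (r * (κ * m i0)) ≤ r * 4 := by nlinarith
        exact le_of_mul_le_mul_left this h
    rw [Metric.mem_closedBall, dist_pi_le_iff (by positivity)]
    intro j
    rw [Real.dist_eq]
    exact (hk j (Finset.mem_univ _)).trans h7)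
  refine ⟨χ, fun i => G.foc y χ Q hχ i _ ?_⟩
  have h2 := hasDerivAt_lin m χ i
  have h3 : HasDerivAt (fun s : ℝ => ∑ j, m j * ((χ j - if j = i then s else 0) - ψ j) ^ 2)
      (-(2 * m i * (χ i - ψ i))) 0 := by
    have e : (fun s : ℝ => ∑ j, m j * ((χ j - if j = i then s else 0) - ψ j) ^ 2) =
        fun s => ∑ j, m j * (χ j - ψ j) ^ 2 + m i * (s ^ 2 - 2 * s * (χ i - ψ i)) := by
      ext s
      have : ∀ j, m j * ((χ j - if j = i then s else 0) - ψ j) ^ 2 =
          m j * (χ j - ψ j) ^ 2 + if j = i then m i * (s ^ 2 - 2 * s * (χ i - ψ i)) else 0 := by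
        intro j
        split_ifs with h
        · subst h; ring
        · simp
      simp [this, Finset.sum_add_distrib]
    rw [e]
    have h4 := ((((hasDerivAt_id (0 : ℝ)).pow 2).sub (((hasDerivAt_id (0 : ℝ)).const_mul 2).mul_const
      (χ i - ψ i))).const_mul (m i)).const_add (∑ j, m j * (χ j - ψ j) ^ 2)
    refine h4.congr_deriv ?_
    simp; ring
  refine (h2.add (h3.const_mul (κ / 2))).congr_deriv ?_
  ring

end Vale.Agent.P074
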