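import Mathlib
import Vale.Agent.P074.Softmax

open MeasureTheory Set Filter Topology
open scoped ENNReal NNReal RealInnerProductSpace

namespace Vale.Agent.P074

lemma rect {τ τ' β β' : ℝ → ℝ} {Γ : ℝ} (h1 : ∀ t s, τ t + (s - t) * β t ≤ τ s)
    (h2 : ∀ t s, τ' t + (s - t) * β' t ≤ τ' s) (h3 : ∀ t, β' t - β t ≤ Γ) :
    τ' 1 - τ' 0 - (τ 1 - τ 0) ≤ Γ := by
  have key : ∀ (h : ℝ), 0 ≤ h → ∀ k : ℕ,
      τ' (k * h) - τ' 0 - (τ (k * h) - τ 0) ≤ k * h * Γ + h * (β (k * h) - β 0) := by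
    intro h hh k
    induction k with
    | zero => simp
    | succ k ih =>
      push_cast
      have a1 := h1 (k * h) ((k + 1) * h)
      have a2 := h2 ((k + 1) * h) (k * h)
      have a3 := mul_le_mul_of_nonneg_left (h3 ((k + 1) * h)) hh
      nlinarith
  have h4 : ∀ n : ℕ, τ' 1 - τ' 0 - (τ 1 - τ 0) ≤ Γ + (1 / ((n : ℝ) + 1)) * (β 1 - β 0) := by
    intro n
    have := key (1 / ((n : ℝ) + 1)) (by positivity) (n + 1)
    have e : ((n + 1 : ℕ) : ℝ) * (1 / ((n : ℝ) + 1)) = 1 := by push_cast; field_simp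
    rw [e] at this
    linarith
  have h5 : Tendsto (fun n : ℕ => Γ + (1 / ((n : ℝ) + 1)) * (β 1 - β 0)) atTop
      (𝓝 (Γ + 0 * (β 1 - β 0))) :=
    (tendsto_one_div_add_atTop_nhds_zero_nat.mul_const _).const_add _
  have := ge_of_tendsto' h5 h4
  simpa using this

variable {d : ℕ} {I : Type} [Fintype I] [Nonempty I]
variable {ρ : Measure (EuclideanSpace ℝ (Fin d))} {K : Set (EuclideanSpace ℝ (Fin d))} {R : ℝ}

lemma Good.rectangle (G : Good ρ K R) (y z : I → EuclideanSpace ℝ (Fin d)) (ψ χ : I → ℝ)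
    {c : ℝ} (hc : 0 < c) :
    ∑ i, (MM ρ z χ i - MM ρ y ψ i) * (χ i - ψ i) ≤
      3 * R ^ 2 * (∑ i, (√(MM ρ y ψ i) - √(MM ρ z χ i)) ^ 2) / c +
      2 * c * ∑ i, (MM ρ y ψ i + MM ρ z χ i) * ‖z i - y i‖ ^ 2 := by
  set m := MM ρ y ψ with hm
  set m' := MM ρ z χ with hm'
  choose ψs hψs using fun t : ℝ => G.exists_exact (y + t • (z - y)) m (G.MM_pos y ψ) (G.sum_MM y ψ)
  choose χs hχs using fun t : ℝ => G.exists_exact (y + t • (z - y)) m' (G.MM_pos z χ) (G.sum_MM z χ)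
  have gen : ∀ (n : I → ℝ) (φs : ℝ → I → ℝ), (∀ t i, MM ρ (y + t • (z - y)) (φs t) i = n i) →
      ∀ t s, (FF ρ (y + t • (z - y)) (φs t) + ∑ i, n i * φs t i) +
        (s - t) * BB ρ (y + t • (z - y)) (φs t) (z - y) ≤
        FF ρ (y + s • (z - y)) (φs s) + ∑ i, n i * φs s i := by
    intro n φs hφs t s
    have := G.sub (y + t • (z - y)) (y + s • (z - y)) (φs t) (φs s)
    rw [show y + s • (z - y) - (y + t • (z - y)) = (s - t) • (z - y) by module, BB_smul] at this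
    simp only [hφs, mul_sub, Finset.sum_sub_distrib] at this
    linarith
  have h := rect (gen m ψs hψs) (gen m' χs hχs)
    (Γ := 3 * R ^ 2 * (∑ i, (√(m i) - √(m' i)) ^ 2) / c +
      2 * c * ∑ i, (m i + m' i) * ‖z i - y i‖ ^ 2) (fun t => by
      have h1 := G.key_sum (y + t • (z - y)) (ψs t) (χs t) (c • (z - y))
      simp only [BB_smul, hψs, hχs, Pi.smul_apply, Pi.sub_apply, norm_smul, mul_pow,
        Real.norm_eq_abs, sq_abs] at h1
      have e : ∑ i, (m i + m' i) * (c ^ 2 * ‖z i - y i‖ ^ 2) =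
          c ^ 2 * ∑ i, (m i + m' i) * ‖z i - y i‖ ^ 2 := by
        rw [Finset.mul_sum]; exact Finset.sum_congr rfl fun i _ => by ring
      rw [e] at h1
      refine le_of_mul_le_mul_left ?_ hc
      have e2 : ∀ a b : ℝ, c * (a / c + 2 * c * b) = a + 2 * (c ^ 2 * b) := by
        intro a b; field_simp
      rw [e2]; linarith)
  simp only [one_smul, zero_smul, add_zero, add_sub_cancel] at h
  have a1 := G.sub' z χ (χs 1)
  have a2 := G.sub' (y + (1 : ℝ) • (z - y)) (ψs 1) χ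
  have a3 := G.sub' y ψ (ψs 0)
  have a4 := G.sub' (y + (0 : ℝ) • (z - y)) (χs 0) ψ
  simp only [hψs, hχs] at a2 a4
  simp only [one_smul, zero_smul, add_zero, add_sub_cancel] at a2 a4
  rw [← hm'] at a1
  rw [← hm] at a3
  simp only [mul_sub, sub_mul, Finset.sum_sub_distrib]
  linarith

lemma Good.prox_bound (G : Good ρ K R) (y z : I → EuclideanSpace ℝ (Fin d)) (ψ χ : I → ℝ)
    {κ : ℝ} (hκ : 0 < κ)
    (h : ∀ i, MM ρ z χ i = MM ρ y ψ i + κ * MM ρ y ψ i * (χ i - ψ i)) :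
    ∑ i, MM ρ y ψ i * (χ i - ψ i) ^ 2 ≤
      24 * R ^ 2 * ∑ i, (MM ρ y ψ i + MM ρ z χ i) * ‖z i - y i‖ ^ 2 := by
  have hR := G.Rpos
  have h1 := G.rectangle y z ψ χ (c := 6 * R ^ 2 * κ) (by positivity)
  set U := ∑ i, MM ρ y ψ i * (χ i - ψ i) ^ 2 with hU
  set V := ∑ i, (MM ρ y ψ i + MM ρ z χ i) * ‖z i - y i‖ ^ 2 with hV
  have e1 : ∑ i, (MM ρ z χ i - MM ρ y ψ i) * (χ i - ψ i) = κ * U := by
    rw [hU, Finset.mul_sum]
    exact Finset.sum_congr rfl fun i _ => by rw [h i]; ring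
  have e2 : ∑ i, (√(MM ρ y ψ i) - √(MM ρ z χ i)) ^ 2 ≤ κ ^ 2 * U := by
    rw [hU, Finset.mul_sum]
    refine Finset.sum_le_sum fun i _ => ?_
    have ha := G.MM_pos y ψ i
    have hb := G.MM_pos z χ i
    have hi := h i
    set a := MM ρ y ψ i
    set b := MM ρ z χ i
    obtain ⟨s, hs, es⟩ : ∃ s, 0 < s ∧ a = s ^ 2 :=
      ⟨√_, Real.sqrt_pos.2 ha, (Real.sq_sqrt ha.le).symm⟩
    obtain ⟨t, ht, et⟩ : ∃ s, 0 < s ∧ b = s ^ 2 :=
      ⟨√_, Real.sqrt_pos.2 hb, (Real.sq_sqrt hb.le).symm⟩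
    rw [es, et] at hi
    rw [es, et, Real.sqrt_sq hs.le, Real.sqrt_sq ht.le]
    refine le_of_mul_le_mul_left ?_ (pow_pos hs 2)
    have e3 : s ^ 2 * (κ ^ 2 * (s ^ 2 * (χ i - ψ i) ^ 2)) = (t ^ 2 - s ^ 2) ^ 2 := by
      rw [hi]; ring
    rw [e3, show (t ^ 2 - s ^ 2) ^ 2 = (s + t) ^ 2 * (s - t) ^ 2 by ring]
    gcongr
    linarith
  have h2 : 3 * R ^ 2 * (∑ i, (√(MM ρ y ψ i) - √(MM ρ z χ i)) ^ 2) / (6 * R ^ 2 * κ) ≤
      κ * U / 2 := by
    rw [div_le_iff₀ (by positivity)]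
    have := mul_le_mul_of_nonneg_left e2 (by positivity : 0 ≤ 3 * R ^ 2)
    nlinarith
  rw [e1] at h1
  refine le_of_mul_le_mul_left ?_ hκ
  nlinarith

/-- Lipschitz stability of the dual potentials with respect to the sites. -/
theorem Good.pot_stab (G : Good ρ K R) (y z : I → EuclideanSpace ℝ (Fin d)) (ψ : I → ℝ) :
    ∃ χ : I → ℝ, (∀ i, MM ρ z χ i = MM ρ y ψ i) ∧
      ∑ i, MM ρ y ψ i * (χ i - ψ i) ^ 2 ≤ 48 * R ^ 2 * ∑ i, MM ρ y ψ i * ‖z i - y i‖ ^ 2 := by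
  set m := MM ρ y ψ with hm
  have hmpos : ∀ i, 0 < m i := G.MM_pos y ψ
  choose χs hχs using fun n : ℕ => G.exists_prox z m ψ hmpos (G.sum_MM y ψ)
    (κ := 1 / ((n : ℝ) + 1)) (by positivity)
  have hb := fun n => G.prox_bound y z ψ (χs n) (by positivity) (hχs n)
  rw [← hm] at hb
  set B := 24 * R ^ 2 * ∑ i, 2 * ‖z i - y i‖ ^ 2 with hB
  have hle1 : ∀ (y : I → EuclideanSpace ℝ (Fin d)) (ψ : I → ℝ) i, MM ρ y ψ i ≤ 1 := by
    intro y ψ i
    rw [← G.sum_MM y ψ]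
    exact Finset.single_le_sum (fun j _ => (G.MM_pos y ψ j).le) (Finset.mem_univ i)
  have hb2 : ∀ n i, χs n i ∈ Icc (ψ i - (1 + B / m i)) (ψ i + (1 + B / m i)) := by
    intro n i
    have h1 : m i * (χs n i - ψ i) ^ 2 ≤ B := by
      refine le_trans (Finset.single_le_sum (f := fun j => m j * (χs n j - ψ j) ^ 2)
        (fun j _ => mul_nonneg (hmpos j).le (sq_nonneg _)) (Finset.mem_univ i)) ((hb n).trans ?_)
      refine mul_le_mul_of_nonneg_left (Finset.sum_le_sum fun j _ => ?_) (by positivity)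
      have := hle1 y ψ j
      have := hle1 z (χs n) j
      refine mul_le_mul_of_nonneg_right ?_ (sq_nonneg _)
      rw [hm]; linarith
    have h2 : (χs n i - ψ i) ^ 2 ≤ B / m i := by
      rw [le_div_iff₀ (hmpos i)]; linarith
    constructor <;> nlinarith [sq_nonneg (χs n i - ψ i - 1), sq_nonneg (χs n i - ψ i + 1),
      sq_nonneg (χs n i - ψ i)]
  have hcpt : IsCompact (Set.pi univ fun i => Icc (ψ i - (1 + B / m i)) (ψ i + (1 + B / m i))) :=
    isCompact_univ_pi fun _ => isCompact_Icc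
  obtain ⟨χ, -, φ, hφ, hlim⟩ := hcpt.tendsto_subseq (x := χs) (fun n i _ => hb2 n i)
  have hM : ∀ i, Tendsto (fun n => MM ρ z (χs (φ n)) i) atTop (𝓝 (MM ρ z χ i)) := fun i =>
    ((G.continuous_MM z i).tendsto χ).comp hlim
  have hc : ∀ i, Tendsto (fun n => χs (φ n) i) atTop (𝓝 (χ i)) := fun i =>
    ((continuous_apply i).tendsto χ).comp hlim
  have hκ : Tendsto (fun n => 1 / ((φ n : ℝ) + 1)) atTop (𝓝 0) :=
    tendsto_one_div_add_atTop_nhds_zero_nat.comp hφ.tendsto_atTop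
  have heq : ∀ i, MM ρ z χ i = m i := by
    intro i
    have h1 : Tendsto (fun n => m i + 1 / ((φ n : ℝ) + 1) * m i * (χs (φ n) i - ψ i)) atTop
        (𝓝 (m i + 0 * m i * (χ i - ψ i))) :=
      ((hκ.mul_const _).mul ((hc i).sub_const _)).const_add _
    have h2 := hM i
    simp only [hχs] at h2
    have := tendsto_nhds_unique h2 h1
    simpa using this
  refine ⟨χ, heq, ?_⟩
  have t1 : Tendsto (fun n => ∑ i, m i * (χs (φ n) i - ψ i) ^ 2) atTop
      (𝓝 (∑ i, m i * (χ i - ψ i) ^ 2)) :=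
    tendsto_finsetSum _ fun i _ => (((hc i).sub_const _).pow 2).const_mul _
  have t2 : Tendsto (fun n => 24 * R ^ 2 * ∑ i, (m i + MM ρ z (χs (φ n)) i) * ‖z i - y i‖ ^ 2) atTop
      (𝓝 (24 * R ^ 2 * ∑ i, (m i + MM ρ z χ i) * ‖z i - y i‖ ^ 2)) :=
    (tendsto_finsetSum _ fun i _ => ((hM i).const_add _).mul_const _).const_mul _
  have := le_of_tendsto_of_tendsto' t1 t2 fun n => hb (φ n)
  simp only [heq] at this
  have e : ∑ i, (m i + m i) * ‖z i - y i‖ ^ 2 = 2 * ∑ i, m i * ‖z i - y i‖ ^ 2 := by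
    rw [Finset.mul_sum]; exact Finset.sum_congr rfl fun i _ => by ring
  rw [e] at this
  linarith

end Vale.Agent.P074
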