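import Mathlib
import Vale.Agent.P074.Stab
import Vale.Agent.P074.Osc
import Vale.Agent.P074.Plan

open MeasureTheory Set Filter Topology ProbabilityTheory
open scoped ENNReal NNReal RealInnerProductSpace

namespace Vale.Agent.P074

variable {d : ℕ} {I : Type} [Fintype I] [Nonempty I]
variable {ρ : Measure (EuclideanSpace ℝ (Fin d))} {K : Set (EuclideanSpace ℝ (Fin d))} {R : ℝ}

/-- potential at temperature `ε` -/
noncomputable def pot (ε : ℝ) (y : I → EuclideanSpace ℝ (Fin d)) (ψ : I → ℝ)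
    (x : EuclideanSpace ℝ (Fin d)) : ℝ := ε * Phi (ε⁻¹ • y) ψ x

@[fun_prop]
lemma continuous_pot (ε : ℝ) (y : I → EuclideanSpace ℝ (Fin d)) (ψ : I → ℝ) :
    Continuous (pot ε y ψ) := by
  unfold pot; fun_prop

omit [Fintype I] [Nonempty I] in
lemma eps_sc {ε : ℝ} (hε : 0 < ε) (y : I → EuclideanSpace ℝ (Fin d)) (ψ : I → ℝ)
    (x : EuclideanSpace ℝ (Fin d)) (i : I) : ε * sc (ε⁻¹ • y) ψ x i = ⟪x, y i⟫ - ε * ψ i := by
  simp only [sc, Pi.smul_apply, inner_smul_right]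
  field_simp

lemma pot_ge {ε : ℝ} (hε : 0 < ε) (y : I → EuclideanSpace ℝ (Fin d)) (ψ : I → ℝ)
    (x : EuclideanSpace ℝ (Fin d)) (i : I) : ⟪x, y i⟫ - ε * ψ i ≤ pot ε y ψ x := by
  rw [← eps_sc hε]
  exact mul_le_mul_of_nonneg_left (le_lse _ i) hε.le

lemma pot_gibbs {ε : ℝ} (hε : 0 < ε) (y y' : I → EuclideanSpace ℝ (Fin d)) (ψ ψ' : I → ℝ)
    (x x' : EuclideanSpace ℝ (Fin d)) :
    pot ε y ψ x + ∑ i, pw (ε⁻¹ • y) ψ i x * ((⟪x', y' i⟫ - ε * ψ' i) - (⟪x, y i⟫ - ε * ψ i)) ≤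
      pot ε y' ψ' x' := by
  have h := mul_le_mul_of_nonneg_left (gibbs (sc (ε⁻¹ • y) ψ x) (sc (ε⁻¹ • y') ψ' x')) hε.le
  rw [mul_add, Finset.mul_sum] at h
  refine le_trans (le_of_eq ?_) h
  congr 1
  refine Finset.sum_congr rfl fun i _ => ?_
  rw [← eps_sc hε, ← eps_sc hε, pw]; ring

lemma pot_entropy {ε : ℝ} (hε : 0 < ε) (y : I → EuclideanSpace ℝ (Fin d)) (ψ : I → ℝ)
    (x : EuclideanSpace ℝ (Fin d)) :
    pot ε y ψ x ≤ ∑ i, pw (ε⁻¹ • y) ψ i x * (⟪x, y i⟫ - ε * ψ i) +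
      ε * Real.log (Fintype.card I) := by
  have h := mul_le_mul_of_nonneg_left (lse_le_entropy (sc (ε⁻¹ • y) ψ x)) hε.le
  rw [mul_add, Finset.mul_sum] at h
  refine le_trans h (le_of_eq ?_)
  congr 1
  refine Finset.sum_congr rfl fun i _ => ?_
  rw [← eps_sc hε, pw]; ring

lemma pot_lip {ε : ℝ} (hε : 0 < ε) (y : I → EuclideanSpace ℝ (Fin d)) (ψ : I → ℝ) {L : ℝ}
    (hy : ∀ i, ‖y i‖ ≤ L) (x x' : EuclideanSpace ℝ (Fin d)) :
    pot ε y ψ x' - pot ε y ψ x ≤ L * ‖x' - x‖ := by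
  have h := pot_gibbs hε y y ψ ψ x' x
  have h2 : ∑ i, pw (ε⁻¹ • y) ψ i x' * (-(L * ‖x' - x‖)) ≤
      ∑ i, pw (ε⁻¹ • y) ψ i x' * ((⟪x, y i⟫ - ε * ψ i) - (⟪x', y i⟫ - ε * ψ i)) := by
    refine Finset.sum_le_sum fun i _ => mul_le_mul_of_nonneg_left ?_ (pw_pos _ _ _ _).le
    have h3 := real_inner_le_norm (x' - x) (y i)
    have h4 := mul_le_mul_of_nonneg_left (hy i) (norm_nonneg (x' - x))
    rw [inner_sub_left] at h3
    linarith
  rw [← Finset.sum_mul, sum_pw] at h2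
  linarith

lemma pot_cvx {ε : ℝ} (hε : 0 < ε) (y : I → EuclideanSpace ℝ (Fin d)) (ψ : I → ℝ)
    (x v : EuclideanSpace ℝ (Fin d)) :
    2 * pot ε y ψ x ≤ pot ε y ψ (x + v) + pot ε y ψ (x - v) := by
  have h1 := pot_gibbs hε y y ψ ψ x (x + v)
  have h2 := pot_gibbs hε y y ψ ψ x (x - v)
  have e : ∑ i, pw (ε⁻¹ • y) ψ i x * ((⟪x + v, y i⟫ - ε * ψ i) - (⟪x, y i⟫ - ε * ψ i)) +
      ∑ i, pw (ε⁻¹ • y) ψ i x * ((⟪x - v, y i⟫ - ε * ψ i) - (⟪x, y i⟫ - ε * ψ i)) = 0 := by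
    rw [← Finset.sum_add_distrib]
    refine Finset.sum_eq_zero fun i _ => ?_
    rw [inner_add_left, inner_sub_left]; ring
  linarith

lemma Good.integrable_mul (G : Good ρ K R) {r h : EuclideanSpace ℝ (Fin d) → ℝ}
    (hr : Measurable r) (r0 : ∀ x, 0 ≤ r x) (r1 : ∀ x, r x ≤ 1) (hh : Continuous h) :
    Integrable (fun x => r x * h x) ρ :=
  (G.integrable hh).bdd_mul (c := 1) hr.aestronglyMeasurable
    (Eventually.of_forall fun x => by rw [Real.norm_eq_abs, abs_of_nonneg (r0 x)]; exact r1 x)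

lemma Good.gap (G : Good ρ K R) (hac : ρ ≪ volume) (i0 : Fin d)
    {ν : Measure (EuclideanSpace ℝ (Fin d))}
    [IsProbabilityMeasure ν] {n : ℕ} (c : Fin n → EuclideanSpace ℝ (Fin d))
    {ι : EuclideanSpace ℝ (Fin d) → Fin n} (hι : Measurable ι) {δ L : ℝ} (hδ0 : 0 < δ)
    (hδ : ∀ᵐ y ∂ν, ‖y - c (ι y)‖ ≤ δ) (hL : ∀ᵐ y ∂ν, ‖y‖ ≤ L)
    {m : I → ℝ} (hm : ∀ i, 0 < m i) (γ : I → Fin n)
    (hγ : ∀ a, (∑ i, if γ i = a then m i else 0) = ν.real (ι ⁻¹' {a}))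
    {S : EuclideanSpace ℝ (Fin d) → EuclideanSpace ℝ (Fin d)} (hS : Measurable S)
    (hmap : ρ.map S = ν) {θ : ℝ}
    (hopt : ∀ σ : EuclideanSpace ℝ (Fin d) → EuclideanSpace ℝ (Fin d), Measurable σ →
      ρ.map σ = ν → ∫ x, ⟪x, σ x⟫ ∂ρ ≤ ∫ x, ⟪x, S x⟫ ∂ρ + θ)
    {ε : ℝ} (hε : 0 < ε) {χ : I → ℝ} (hχ : ∀ i, MM ρ (ε⁻¹ • fun i => c (γ i)) χ i = m i)
    {r : I → EuclideanSpace ℝ (Fin d) → ℝ} (rm : ∀ i, Measurable (r i))
    (r0 : ∀ i x, 0 ≤ r i x) (r1 : ∀ i x, r i x ≤ 1) (ri : ∀ i, ∫ x, r i x ∂ρ = m i)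
    (rs : ∀ᵐ x ∂ρ, ∑ i, r i x = 1) (rγ : ∀ i x, r i x ≠ 0 → γ i = ι (S x)) :
    ∑ i, ∫ x, r i x * (pot ε (fun i => c (γ i)) χ x - ⟪x, c (γ i)⟫ + ε * χ i) ∂ρ ≤
      θ + ε * Real.log (Fintype.card I) + (2 * R + 2 * L) * δ := by
  have := G.prob
  set z : I → EuclideanSpace ℝ (Fin d) := fun i => c (γ i) with hz
  obtain ⟨Γ, g1, g2, g3⟩ := G.exists_plan c hι hδ hL hm γ hγ (pw (ε⁻¹ • z) χ)
    (continuous_pw _ _) (fun i x => (pw_pos _ _ _ _).le) (sum_pw _ _) hχ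
  obtain ⟨σ, s1, s2, s3⟩ := monge_approx i0 hac G.cpt G.ae hL Γ g1 g2 hδ0
  have s4 := hopt σ s1 s2
  have a1 : ∀ᵐ x ∂ρ, ‖S x‖ ≤ L := by
    rw [← hmap] at hL; exact ae_of_ae_map hS.aemeasurable hL
  have a2 : ∀ᵐ x ∂ρ, ‖S x - c (ι (S x))‖ ≤ δ := by
    rw [← hmap] at hδ; exact ae_of_ae_map hS.aemeasurable hδ
  have iS : Integrable (fun x => ⟪x, S x⟫) ρ :=
    Integrable.of_bound (C := R * L) (measurable_id.inner hS).aestronglyMeasurable (by
      filter_upwards [G.ae, a1] with x h h'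
      exact (norm_inner_le_norm _ _).trans
        (mul_le_mul (G.bdd _ h) h' (norm_nonneg _) G.Rpos.le))
  have ir : ∀ i, Integrable (r i) ρ := fun i => by
    simpa using G.integrable_mul (rm i) (r0 i) (r1 i) (h := fun _ => 1) continuous_const
  -- upper bound for the left side
  have t1 : ∑ i, ∫ x, r i x * (pot ε z χ x - ⟪x, c (γ i)⟫ + ε * χ i) ∂ρ ≤
      ∫ x, (pot ε z χ x - ⟪x, S x⟫ + R * δ + ∑ i, r i x * (ε * χ i)) ∂ρ := by
    rw [← integral_finsetSum _ fun i _ => G.integrable_mul (rm i) (r0 i) (r1 i) (by fun_prop)]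
    refine integral_mono_ae
      (integrable_finsetSum _ fun i _ => G.integrable_mul (rm i) (r0 i) (r1 i) (by fun_prop))
      ((((G.integrable (by fun_prop)).sub iS).add (integrable_const _)).add
        (integrable_finsetSum _ fun i _ => (ir i).mul_const _)) ?_
    filter_upwards [G.ae, a2, rs] with x hx h2 hs
    have e : pot ε z χ x - ⟪x, S x⟫ + R * δ + ∑ i, r i x * (ε * χ i) =
        ∑ i, r i x * (pot ε z χ x - ⟪x, S x⟫ + R * δ + ε * χ i) := by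
      simp only [mul_add (r _ x), Finset.sum_add_distrib, ← Finset.sum_mul, hs, one_mul]
    rw [e]
    refine Finset.sum_le_sum fun i _ => ?_
    by_cases h0 : r i x = 0
    · simp [h0]
    · refine mul_le_mul_of_nonneg_left ?_ (r0 i x)
      rw [rγ i x h0]
      have h1 : |⟪x, S x - c (ι (S x))⟫| ≤ R * δ := (abs_real_inner_le_norm _ _).trans
        (mul_le_mul (G.bdd _ hx) h2 (norm_nonneg _) G.Rpos.le)
      rw [inner_sub_right] at h1
      linarith [(abs_le.1 h1).2]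
  have k1 : Integrable (fun x => pot ε z χ x - ⟪x, S x⟫) ρ := (G.integrable (by fun_prop)).sub iS
  have k2 : Integrable (fun x => pot ε z χ x - ⟪x, S x⟫ + R * δ) ρ := k1.add (integrable_const _)
  rw [integral_add k2
    (integrable_finsetSum _ fun i _ => (ir i).mul_const _),
    integral_add k1 (integrable_const _),
    integral_sub (G.integrable (by fun_prop)) iS,
    integral_finsetSum _ fun i _ => (ir i).mul_const _] at t1
  simp only [integral_mul_const, ri, integral_const, probReal_univ, smul_eq_mul, one_mul] at t1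
  have t2 : ∫ x, pot ε z χ x ∂ρ ≤ ∫ x, (∑ i, pw (ε⁻¹ • z) χ i x * (⟪x, z i⟫ - ε * χ i) +
      ε * Real.log (Fintype.card I)) ∂ρ :=
    integral_mono (G.integrable (by fun_prop)) (G.integrable (by fun_prop))
      fun x => pot_entropy hε z χ x
  rw [integral_add (G.integrable (by fun_prop)) (integrable_const _),
    integral_finsetSum _ fun i _ => G.integrable (by fun_prop)] at t2
  have e2 : ∀ i, ∫ x, pw (ε⁻¹ • z) χ i x * (⟪x, z i⟫ - ε * χ i) ∂ρ =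
      ∫ x, ⟪x, c (γ i)⟫ * pw (ε⁻¹ • z) χ i x ∂ρ - m i * (ε * χ i) := by
    intro i
    rw [← hχ i, MM, ← integral_mul_const, ← integral_sub (G.integrable (by fun_prop))
      (G.integrable (by fun_prop))]
    congr 1; ext x; simp only [hz]; ring
  simp only [e2, Finset.sum_sub_distrib, integral_const, probReal_univ, smul_eq_mul, one_mul] at t2
  linarith

lemma Good.side (G : Good ρ K R) (hac : ρ ≪ volume) (i0 : Fin d)
    {ν : Measure (EuclideanSpace ℝ (Fin d))}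
    [IsProbabilityMeasure ν] {n : ℕ} (c : Fin n → EuclideanSpace ℝ (Fin d))
    {ι : EuclideanSpace ℝ (Fin d) → Fin n} (hι : Measurable ι) {δ L : ℝ} (hδ0 : 0 < δ)
    (hδ : ∀ᵐ y ∂ν, ‖y - c (ι y)‖ ≤ δ) (hL : ∀ᵐ y ∂ν, ‖y‖ ≤ L)
    {m : I → ℝ} (hm : ∀ i, 0 < m i) (γ : I → Fin n)
    (hγ : ∀ a, (∑ i, if γ i = a then m i else 0) = ν.real (ι ⁻¹' {a}))
    {S : EuclideanSpace ℝ (Fin d) → EuclideanSpace ℝ (Fin d)} (hS : Measurable S)
    (hmap : ρ.map S = ν) {θ : ℝ}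
    (hopt : ∀ σ : EuclideanSpace ℝ (Fin d) → EuclideanSpace ℝ (Fin d), Measurable σ →
      ρ.map σ = ν → ∫ x, ⟪x, σ x⟫ ∂ρ ≤ ∫ x, ⟪x, S x⟫ ∂ρ + θ)
    {ε : ℝ} (hε : 0 < ε) {χ : I → ℝ} (hχ : ∀ i, MM ρ (ε⁻¹ • fun i => c (γ i)) χ i = m i)
    (y : I → EuclideanSpace ℝ (Fin d)) (hy : ∀ i, ‖y i‖ ≤ L) {ψ : I → ℝ}
    (hψ : ∀ i, MM ρ (ε⁻¹ • y) ψ i = m i) {V : ℝ}
    (hV : ∑ i, m i * ‖c (γ i) - y i‖ ^ 2 ≤ V)
    (hV' : ∑ i, m i * (ε * (χ i - ψ i)) ^ 2 ≤ 48 * R ^ 2 * V)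
    {η : ℝ} (hη : 0 < η) {C : ℝ}
    (hC : ∀ k, ∫ x, (pot ε y ψ (x + EuclideanSpace.single k η) - 2 * pot ε y ψ x +
      pot ε y ψ (x - EuclideanSpace.single k η)) ∂ρ ≤ L * η ^ 2 * C) :
    ∃ H : EuclideanSpace ℝ (Fin d) → ℝ, Integrable H ρ ∧
      (∀ᵐ x ∂ρ, ‖S x - fwd (pot ε y ψ) η x‖ ^ 2 ≤ H x) ∧
      ∫ x, H x ∂ρ ≤ 3 * δ ^ 2 + 3 * V + 3528 * d * R ^ 2 * V / η ^ 2 + 18 * d * L ^ 2 * C * η +
        18 * d * L / η * (θ + ε * Real.log (Fintype.card I) + (2 * R + 2 * L) * δ) := by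
  have := G.prob
  have hL0 : 0 ≤ L := (norm_nonneg _).trans (hy (Classical.arbitrary I))
  have hR := G.Rpos
  obtain ⟨r, rm, r0, r1, ri, rs, rγ⟩ := exists_weights hι hm γ hγ hS hmap
  have gap := G.gap hac i0 c hι hδ0 hδ hL hm γ hγ hS hmap hopt hε hχ rm r0 r1 ri rs rγ
  set z : I → EuclideanSpace ℝ (Fin d) := fun i => c (γ i) with hz
  set κ : I → ℝ := fun i => R * ‖c (γ i) - y i‖ + |ε * (χ i - ψ i)| with hκ
  have hκ0 : ∀ i, 0 ≤ κ i := fun i => by positivity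
  have hκs : ∑ i, m i * κ i ^ 2 ≤ 98 * R ^ 2 * V := by
    have h1 : ∑ i, m i * κ i ^ 2 ≤ ∑ i, (2 * R ^ 2 * (m i * ‖c (γ i) - y i‖ ^ 2) +
        2 * (m i * (ε * (χ i - ψ i)) ^ 2)) := by
      refine Finset.sum_le_sum fun i _ => ?_
      have h2 : κ i ^ 2 ≤ 2 * R ^ 2 * ‖c (γ i) - y i‖ ^ 2 + 2 * (ε * (χ i - ψ i)) ^ 2 := by
        rw [← sq_abs (ε * (χ i - ψ i))]
        simp only [hκ]
        nlinarith [sq_nonneg (R * ‖c (γ i) - y i‖ - |ε * (χ i - ψ i)|)]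
      have := mul_le_mul_of_nonneg_left h2 (hm i).le
      linarith
    rw [Finset.sum_add_distrib, ← Finset.mul_sum, ← Finset.mul_sum] at h1
    have := mul_le_mul_of_nonneg_left hV (by positivity : 0 ≤ 2 * R ^ 2)
    linarith
  set P : EuclideanSpace ℝ (Fin d) → ℝ := fun x => ∑ j, pw (ε⁻¹ • y) ψ j x * κ j ^ 2 with hP
  set Ω : EuclideanSpace ℝ (Fin d) → ℝ := fun x => ∑ k, (pot ε y ψ (x + EuclideanSpace.single k η)
    - 2 * pot ε y ψ x + pot ε y ψ (x - EuclideanSpace.single k η)) / η with hΩ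
  set e1 : I → EuclideanSpace ℝ (Fin d) → ℝ :=
    fun i x => pot ε z χ x - ⟪x, c (γ i)⟫ + ε * χ i with he1
  set w : I → ℝ := fun i => 3 * ‖c (γ i) - y i‖ ^ 2 + 18 * d / η ^ 2 * κ i ^ 2 with hw
  have hPc : Continuous P := by fun_prop
  have hΩc : Continuous Ω := by fun_prop
  have ir : ∀ i, Integrable (r i) ρ := fun i => by
    simpa using G.integrable_mul (rm i) (r0 i) (r1 i) (h := fun _ => 1) continuous_const
  have ie : ∀ i, Integrable (fun x => r i x * e1 i x) ρ :=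
    fun i => G.integrable_mul (rm i) (r0 i) (r1 i) (by fun_prop)
  have j1 : Integrable (fun x => 3 * δ ^ 2 + 18 * d / η ^ 2 * P x + 18 * L * Ω x) ρ :=
    G.integrable (by fun_prop)
  have j2 : Integrable (fun x => ∑ i, r i x * w i) ρ :=
    integrable_finsetSum _ fun i _ => (ir i).mul_const _
  have j3 : Integrable (fun x => 18 * d * L / η * ∑ i, r i x * e1 i x) ρ :=
    (integrable_finsetSum _ fun i _ => ie i).const_mul _
  refine ⟨fun x => (3 * δ ^ 2 + 18 * d / η ^ 2 * P x + 18 * L * Ω x) + ∑ i, r i x * w i +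
    18 * d * L / η * ∑ i, r i x * e1 i x, (j1.add j2).add j3, ?_, ?_⟩
  · have a2 : ∀ᵐ x ∂ρ, ‖S x - c (ι (S x))‖ ≤ δ := by
      rw [← hmap] at hδ; exact ae_of_ae_map hS.aemeasurable hδ
    filter_upwards [G.ae, a2, rs] with x hx h2 hs
    have e : (3 * δ ^ 2 + 18 * d / η ^ 2 * P x + 18 * L * Ω x) + ∑ i, r i x * w i +
        18 * d * L / η * ∑ i, r i x * e1 i x =
        ∑ i, r i x * ((3 * δ ^ 2 + 18 * d / η ^ 2 * P x + 18 * L * Ω x) + w i +
          18 * d * L / η * e1 i x) := by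
      simp only [mul_add (r _ x), Finset.sum_add_distrib, ← Finset.sum_mul, hs, one_mul,
        Finset.mul_sum, mul_left_comm (r _ x) (18 * d * L / η)]
    rw [e, ← one_mul (‖S x - fwd (pot ε y ψ) η x‖ ^ 2), ← hs, Finset.sum_mul]
    refine Finset.sum_le_sum fun i _ => ?_
    by_cases h0 : r i x = 0
    · simp [h0]
    refine mul_le_mul_of_nonneg_left ?_ (r0 i x)
    rw [← rγ i x h0] at h2
    set u : ℝ := ∑ j, pw (ε⁻¹ • y) ψ j x * κ j with hu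
    have hu0 : 0 ≤ u := Finset.sum_nonneg fun j _ => mul_nonneg (pw_pos _ _ _ _).le (hκ0 j)
    have hk : ∀ j, |(⟪x, z j⟫ - ε * χ j) - (⟪x, y j⟫ - ε * ψ j)| ≤ κ j := by
      intro j
      have h1 : |⟪x, c (γ j) - y j⟫| ≤ R * ‖c (γ j) - y j‖ := (abs_real_inner_le_norm _ _).trans
        (mul_le_mul_of_nonneg_right (G.bdd _ hx) (norm_nonneg _))
      rw [show (⟪x, z j⟫ - ε * χ j) - (⟪x, y j⟫ - ε * ψ j) =
        ⟪x, c (γ j) - y j⟫ - ε * (χ j - ψ j) by rw [inner_sub_right]; simp only [hz]; ring]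
      exact (abs_sub _ _).trans (add_le_add h1 le_rfl)
    have hu1 : pot ε y ψ x ≤ pot ε z χ x + u := by
      have h1 := pot_gibbs hε y z ψ χ x x
      have h3 : ∑ j, pw (ε⁻¹ • y) ψ j x * (-κ j) ≤
          ∑ j, pw (ε⁻¹ • y) ψ j x * ((⟪x, z j⟫ - ε * χ j) - (⟪x, y j⟫ - ε * ψ j)) :=
        Finset.sum_le_sum fun j _ =>
          mul_le_mul_of_nonneg_left (abs_le.1 (hk j)).1 (pw_pos _ _ _ _).le
      simp only [mul_neg, Finset.sum_neg_distrib] at h3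
      linarith
    have hu2 : u ^ 2 ≤ P x := by
      have h1 := (convexOn_pow 2).map_sum_le (t := Finset.univ) (w := fun j => pw (ε⁻¹ • y) ψ j x)
        (p := κ) (fun j _ => (pw_pos _ _ _ _).le) (sum_pw _ _ _) (fun j _ => hκ0 j)
      simpa using h1
    have he0 : 0 ≤ e1 i x := by
      have := pot_ge hε z χ x i
      simp only [he1, hz] at this ⊢; linarith
    have h4 := approx_subgrad (pot_lip hε y ψ hy) (pot_cvx hε y ψ) hη (y i) (hy i) (ε * ψ i)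
      (fun x' => pot_ge hε y ψ x' i) x he0 (add_nonneg hu0 (hκ0 i)) (by
        have := (abs_le.1 (hk i)).2
        simp only [he1, hz] at this ⊢; linarith)
    have h5 : ((u + κ i) / η) ^ 2 ≤ (2 * P x + 2 * κ i ^ 2) / η ^ 2 := by
      rw [div_pow]
      refine div_le_div_of_nonneg_right ?_ (by positivity)
      nlinarith [sq_nonneg (u - κ i)]
    have h6 : ‖S x - fwd (pot ε y ψ) η x‖ ≤ δ + ‖c (γ i) - y i‖ + ‖y i - fwd (pot ε y ψ) η x‖ := by
      have e2 : S x - fwd (pot ε y ψ) η x =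
          (S x - c (γ i)) + (c (γ i) - y i) + (y i - fwd (pot ε y ψ) η x) := by abel
      rw [e2]
      exact norm_add₃_le.trans (by linarith)
    have h7 : ‖S x - fwd (pot ε y ψ) η x‖ ^ 2 ≤
        3 * δ ^ 2 + 3 * ‖c (γ i) - y i‖ ^ 2 + 3 * ‖y i - fwd (pot ε y ψ) η x‖ ^ 2 := by
      have : ‖S x - fwd (pot ε y ψ) η x‖ ^ 2 ≤
        (δ + ‖c (γ i) - y i‖ + ‖y i - fwd (pot ε y ψ) η x‖) ^ 2 := by gcongr
      nlinarith [sq_nonneg (δ - ‖c (γ i) - y i‖), sq_nonneg (δ - ‖y i - fwd (pot ε y ψ) η x‖),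
        sq_nonneg (‖c (γ i) - y i‖ - ‖y i - fwd (pot ε y ψ) η x‖)]
    have h8 := mul_le_mul_of_nonneg_left h5 (by positivity : (0 : ℝ) ≤ 9 * d)
    have e3 : (3 * δ ^ 2 + 18 * d / η ^ 2 * P x + 18 * L * Ω x) + w i + 18 * d * L / η * e1 i x =
        3 * δ ^ 2 + 3 * ‖c (γ i) - y i‖ ^ 2 + 18 * L * Ω x + 18 * d * L * (e1 i x / η) +
          9 * d * ((2 * P x + 2 * κ i ^ 2) / η ^ 2) := by
      simp only [hw]; ring
    rw [e3]
    change _ ≤ d * (6 * L * (e1 i x / η) + 3 * ((u + κ i) / η) ^ 2) + 6 * L * Ω x at h4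
    linarith
  · have j4 : Integrable (fun x => (3 * δ ^ 2 + 18 * d / η ^ 2 * P x + 18 * L * Ω x) +
        ∑ i, r i x * w i) ρ := j1.add j2
    beta_reduce
    rw [integral_add j4 j3, integral_add j1 j2,
      integral_add (G.integrable (by fun_prop)) (G.integrable (by fun_prop)),
      integral_add (G.integrable (by fun_prop)) (G.integrable (by fun_prop)),
      integral_const_mul, integral_const_mul, integral_const_mul, integral_const_mul,
      integral_finsetSum _ fun i _ => ie i, integral_finsetSum _ fun i _ => (ir i).mul_const _]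
    simp only [integral_mul_const, ri, integral_const, probReal_univ, smul_eq_mul, one_mul]
    have b1 : ∫ x, P x ∂ρ = ∑ i, m i * κ i ^ 2 := by
      rw [hP, integral_finsetSum _ fun i _ => G.integrable (by fun_prop)]
      exact Finset.sum_congr rfl fun i _ => by rw [integral_mul_const, ← hψ i, MM]
    have b2 : ∫ x, Ω x ∂ρ ≤ d * (L * η * C) := by
      rw [hΩ, integral_finsetSum _ fun i _ => G.integrable (by fun_prop)]
      refine (Finset.sum_le_card_nsmul _ _ (L * η * C) fun k _ => ?_).trans (by simp)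
      rw [integral_div, div_le_iff₀ hη]
      exact (hC k).trans (le_of_eq (by ring))
    have b3 : ∑ i, m i * w i = 3 * ∑ i, m i * ‖c (γ i) - y i‖ ^ 2 +
        18 * d / η ^ 2 * ∑ i, m i * κ i ^ 2 := by
      rw [Finset.mul_sum, Finset.mul_sum, ← Finset.sum_add_distrib]
      exact Finset.sum_congr rfl fun i _ => by simp only [hw]; ring
    rw [b1, b3]
    have c1 := mul_le_mul_of_nonneg_left hκs (by positivity : (0 : ℝ) ≤ 18 * d / η ^ 2)
    have c2 := mul_le_mul_of_nonneg_left b2 (by positivity : (0 : ℝ) ≤ 18 * L)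
    have c3 := mul_le_mul_of_nonneg_left gap (by positivity : (0 : ℝ) ≤ 18 * d * L / η)
    have e4 : 3528 * d * R ^ 2 * V / η ^ 2 = 2 * (18 * d / η ^ 2 * (98 * R ^ 2 * V)) := by ring
    rw [e4]
    linarith

end Vale.Agent.P074
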