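import Mathlib
import Vale.Agent.P074.Side
import Vale.Agent.P074.Counter

open MeasureTheory Set Filter Topology ProbabilityTheory
open scoped ENNReal NNReal RealInnerProductSpace

namespace Vale.Agent.P074

variable {d : ℕ}

lemma lintegral_sq_eq {X : Type*} [MeasurableSpace X] {μ : Measure X} [IsFiniteMeasure μ]
    {f : X → EuclideanSpace ℝ (Fin d)} (hf : Measurable f) {B : ℝ} (hB : ∀ᵐ x ∂μ, ‖f x‖ ≤ B) :
    Integrable (fun x => ‖f x‖ ^ 2) μ ∧
      ∫⁻ x, enorm (f x) ^ 2 ∂μ = ENNReal.ofReal (∫ x, ‖f x‖ ^ 2 ∂μ) := by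
  have h : Integrable (fun x => ‖f x‖ ^ 2) μ :=
    Integrable.of_bound (C := B ^ 2) (hf.norm.pow_const 2).aestronglyMeasurable (by
      filter_upwards [hB] with x hx
      rw [Real.norm_eq_abs, abs_of_nonneg (sq_nonneg _)]
      gcongr)
  refine ⟨h, ?_⟩
  rw [ofReal_integral_eq_lintegral_ofReal h (Eventually.of_forall fun x => sq_nonneg _)]
  exact lintegral_congr fun x => enorm_sq_eq _

lemma unif_ac (K : Set (EuclideanSpace ℝ (Fin d))) : unif K ≪ volume :=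
  Measure.smul_absolutelyContinuous.trans Measure.absolutelyContinuous_restrict

/-- Stability for approximately optimal maps. -/
theorem approx_stab (i0 : Fin d) {K : Set (EuclideanSpace ℝ (Fin d))} (hK : IsCompact K)
    (hc : Convex ℝ K) (hi : (interior K).Nonempty) {Y : Set (EuclideanSpace ℝ (Fin d))}
    (hY : IsCompact Y) (hne : Y.Nonempty) :
    ∃ A : ℝ, 0 < A ∧ ∀ μ ν : Measure (EuclideanSpace ℝ (Fin d)),
      IsProbabilityMeasure μ → IsProbabilityMeasure ν → (∀ᵐ y ∂μ, y ∈ Y) → (∀ᵐ y ∂ν, y ∈ Y) →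
      ∀ T S : EuclideanSpace ℝ (Fin d) → EuclideanSpace ℝ (Fin d), Measurable T → Measurable S →
      (unif K).map T = μ → (unif K).map S = ν → ∀ θ : ℝ, 0 ≤ θ →
      (∀ σ : EuclideanSpace ℝ (Fin d) → EuclideanSpace ℝ (Fin d), Measurable σ →
        (unif K).map σ = μ → ∫ x, ⟪x, σ x⟫ ∂(unif K) ≤ ∫ x, ⟪x, T x⟫ ∂(unif K) + θ) →
      (∀ σ : EuclideanSpace ℝ (Fin d) → EuclideanSpace ℝ (Fin d), Measurable σ →
        (unif K).map σ = ν → ∫ x, ⟪x, σ x⟫ ∂(unif K) ≤ ∫ x, ⟪x, S x⟫ ∂(unif K) + θ) →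
      ∀ π : Measure (EuclideanSpace ℝ (Fin d) × EuclideanSpace ℝ (Fin d)),
      π.map Prod.fst = μ → π.map Prod.snd = ν → ∀ η : ℝ, 0 < η → η ≤ 1 →
      ∫ x, ‖T x - S x‖ ^ 2 ∂(unif K) ≤
        A * (η + θ / η + (∫ q, ‖q.1 - q.2‖ ^ 2 ∂π) / η ^ 2) := by
  obtain ⟨R, hR, hRb⟩ := hK.isBounded.exists_pos_norm_le
  obtain ⟨L, hL, hLb⟩ := hY.isBounded.exists_pos_norm_le
  have G := good_unif hK hc hi hR hRb
  have := G.prob
  set C := (volume K)⁻¹.toReal *
    volume.real (Metric.closedBall (0 : EuclideanSpace ℝ (Fin d)) (R + 2)) with hC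
  have hC0 : 0 ≤ C := by positivity
  refine ⟨4 * (9 + 10584 * d * R ^ 2 + 18 * d * L ^ 2 * C + 18 * d * L), by positivity, ?_⟩
  intro μ ν hμ hν hμY hνY T S hT hS mT mS θ hθ oT oS π h1 h2 η hη hη1
  set W := ∫ q, ‖q.1 - q.2‖ ^ 2 ∂π with hW
  have hW0 : 0 ≤ W := integral_nonneg fun q => sq_nonneg _
  have hπ : IsProbabilityMeasure π := ⟨by
    have := congrArg (fun μ : Measure _ => μ univ) h1
    simpa [Measure.map_apply measurable_fst] using this⟩
  have hμL : ∀ᵐ y ∂μ, ‖y‖ ≤ L := by filter_upwards [hμY] with y hy using hLb y hy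
  have hνL : ∀ᵐ y ∂ν, ‖y‖ ≤ L := by filter_upwards [hνY] with y hy using hLb y hy
  have hint : Integrable (fun q => ‖q.1 - q.2‖ ^ 2) π := by
    refine (lintegral_sq_eq (μ := π) (f := fun q => q.1 - q.2) (by fun_prop) (B := L + L) ?_).1
    rw [← h1] at hμL
    rw [← h2] at hνL
    filter_upwards [ae_of_ae_map measurable_fst.aemeasurable hμL,
      ae_of_ae_map measurable_snd.aemeasurable hνL] with q a b
    exact (norm_sub_le _ _).trans (add_le_add a b)
  set B : ℝ → ℝ := fun δ => 4 * (3 * δ ^ 2 + 3 * (3 * W + 6 * δ ^ 2) +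
    3528 * d * R ^ 2 * (3 * W + 6 * δ ^ 2) / η ^ 2 + 18 * d * L ^ 2 * C * η +
        18 * d * L / η * (θ + δ + (2 * R + 2 * L) * δ)) with hB
  have key : ∀ δ, 0 < δ → ∫ x, ‖T x - S x‖ ^ 2 ∂(unif K) ≤ B δ := by
    intro δ hδ
    obtain ⟨n, c, ι, hι, hcY, hcδ⟩ := exists_quantizer hY hne hδ
    have qμ : ∀ᵐ y ∂μ, ‖y - c (ι y)‖ ≤ δ := by filter_upwards [hμY] with y hy using hcδ y hy
    have qν : ∀ᵐ y ∂ν, ‖y - c (ι y)‖ ≤ δ := by filter_upwards [hνY] with y hy using hcδ y hy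
    obtain ⟨I, _, _, m, α, β, hm, hs, hα, hβ, hV⟩ := exists_discrete π h1 h2 c hι qμ qν hint
    rw [← hW] at hV
    have hlog : 0 ≤ Real.log (Fintype.card I) := Real.log_natCast_nonneg _
    set ε := δ / (Real.log (Fintype.card I) + 1) with hε
    have hε0 : 0 < ε := by positivity
    have hεδ : ε * Real.log (Fintype.card I) ≤ δ := by
      rw [hε, div_mul_eq_mul_div, div_le_iff₀ (by positivity)]
      nlinarith
    obtain ⟨ψ, hψ⟩ := G.exists_exact (ε⁻¹ • fun i => c (α i)) m hm hs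
    obtain ⟨χ, hχ, hχ2⟩ := G.pot_stab (ε⁻¹ • fun i => c (α i)) (ε⁻¹ • fun i => c (β i)) ψ
    simp only [hψ] at hχ hχ2
    have hV0 : 0 ≤ 3 * W + 6 * δ ^ 2 := by positivity
    have hV' : ∑ i, m i * (ε * (χ i - ψ i)) ^ 2 ≤ 48 * R ^ 2 * (3 * W + 6 * δ ^ 2) := by
      have e1 : ∑ i, m i * (ε * (χ i - ψ i)) ^ 2 = ε ^ 2 * ∑ i, m i * (χ i - ψ i) ^ 2 := by
        rw [Finset.mul_sum]; exact Finset.sum_congr rfl fun i _ => by ring
      have e2 : ε ^ 2 * ∑ i, m i * ‖(ε⁻¹ • fun i => c (β i)) i - (ε⁻¹ • fun i => c (α i)) i‖ ^ 2 =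
          ∑ i, m i * ‖c (β i) - c (α i)‖ ^ 2 := by
        rw [Finset.mul_sum]
        refine Finset.sum_congr rfl fun i _ => ?_
        simp only [Pi.smul_apply, ← smul_sub, norm_smul, norm_inv, Real.norm_eq_abs,
          abs_of_pos hε0]
        field_simp
      have h3 := mul_le_mul_of_nonneg_left hχ2 (sq_nonneg ε)
      rw [← e1, mul_left_comm, e2] at h3
      exact h3.trans (mul_le_mul_of_nonneg_left hV (by positivity))
    have hy : ∀ i, ‖c (α i)‖ ≤ L := fun i => hLb _ (hcY _)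
    have hosc : ∀ k, ∫ x, (pot ε (fun i => c (α i)) ψ (x + EuclideanSpace.single k η) -
        2 * pot ε (fun i => c (α i)) ψ x +
        pot ε (fun i => c (α i)) ψ (x - EuclideanSpace.single k η)) ∂(unif K) ≤ L * η ^ 2 * C := by
      intro k
      have hn : ‖(EuclideanSpace.single k η : EuclideanSpace ℝ (Fin d))‖ = η := by
        rw [PiLp.norm_single, Real.norm_eq_abs, abs_of_pos hη]
      have := second_diff_unif (continuous_pot ε (fun i => c (α i)) ψ) hL.le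
        (pot_lip hε0 _ ψ hy) (pot_cvx hε0 _ ψ) hK hRb (EuclideanSpace.single k η)
        (by rw [hn]; exact hη1)
      rwa [hn] at this
    obtain ⟨H1, i1, a1, b1⟩ := G.side (unif_ac K) i0 c hι hδ qμ hμL hm α hα hT mT oT hε0 hψ
      (fun i => c (α i)) hy hψ (V := 3 * W + 6 * δ ^ 2) (by simpa using hV0)
      (by simpa using mul_nonneg (by positivity) hV0) hη hosc
    obtain ⟨H2, i2, a2, b2⟩ := G.side (unif_ac K) i0 c hι hδ qν hνL hm β hβ hS mS oS hε0 hχ
      (fun i => c (α i)) hy hψ (V := 3 * W + 6 * δ ^ 2) hV hV' hη hosc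
    have s1 : ∫ x, ‖T x - S x‖ ^ 2 ∂(unif K) ≤ ∫ x, (2 * H1 x + 2 * H2 x) ∂(unif K) := by
      refine integral_mono_of_nonneg (Eventually.of_forall fun x => sq_nonneg _)
        ((i1.const_mul 2).add (i2.const_mul 2)) ?_
      filter_upwards [a1, a2] with x c1 c2
      set g := fwd (pot ε (fun i => c (α i)) ψ) η x
      have h3 : ‖T x - S x‖ ≤ ‖T x - g‖ + ‖S x - g‖ := by
        rw [show T x - S x = (T x - g) - (S x - g) by abel]; exact norm_sub_le _ _
      have h4 : ‖T x - S x‖ ^ 2 ≤ (‖T x - g‖ + ‖S x - g‖) ^ 2 := by gcongr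
      nlinarith [sq_nonneg (‖T x - g‖ - ‖S x - g‖)]
    rw [integral_add (i1.const_mul 2) (i2.const_mul 2), integral_const_mul,
      integral_const_mul] at s1
    have c3 : 18 * d * L / η * (θ + ε * Real.log (Fintype.card I) + (2 * R + 2 * L) * δ) ≤
        18 * d * L / η * (θ + δ + (2 * R + 2 * L) * δ) := by gcongr
    simp only [hB]
    linarith
  have hcont : Continuous B := by fun_prop
  have hlim : ∫ x, ‖T x - S x‖ ^ 2 ∂(unif K) ≤ B 0 := by
    refine ge_of_tendsto (hcont.continuousAt.tendsto.mono_left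
      (nhdsWithin_le_nhds (s := Ioi 0))) ?_
    filter_upwards [self_mem_nhdsWithin] with δ hδ using key δ hδ
  refine hlim.trans ?_
  have p1 : 0 ≤ θ / η := by positivity
  have p2 : W ≤ W / η ^ 2 := by
    rw [le_div_iff₀ (by positivity)]
    have : η ^ 2 ≤ 1 := by nlinarith
    nlinarith
  have e : B 0 = 4 * (9 * W + 10584 * d * R ^ 2 * (W / η ^ 2) + 18 * d * L ^ 2 * C * η +
      18 * d * L * (θ / η)) := by simp only [hB]; ring
  rw [e]
  set w := W / η ^ 2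
  set t := θ / η
  have hw : 0 ≤ w := hW0.trans p2
  set a1 := 10584 * d * R ^ 2
  set a2 := 18 * d * L ^ 2 * C
  set a3 := 18 * d * L
  have q1 : 0 ≤ a1 := by positivity
  have q2 : 0 ≤ a2 := by positivity
  have q3 : 0 ≤ a3 := by positivity
  nlinarith [mul_nonneg q1 hη.le, mul_nonneg q1 p1, mul_nonneg q2 p1, mul_nonneg q2 hw,
    mul_nonneg q3 hη.le, mul_nonneg q3 hw]

lemma cost_eq {ρ μ : Measure (EuclideanSpace ℝ (Fin d))} [IsProbabilityMeasure ρ] {R L : ℝ}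
    (hR : ∀ᵐ x ∂ρ, ‖x‖ ≤ R) (hL : ∀ᵐ y ∂μ, ‖y‖ ≤ L)
    {σ : EuclideanSpace ℝ (Fin d) → EuclideanSpace ℝ (Fin d)} (hσ : Measurable σ)
    (hm : ρ.map σ = μ) :
    ∫⁻ x, enorm (x - σ x) ^ 2 ∂ρ =
      ENNReal.ofReal (∫ x, ‖x‖ ^ 2 ∂ρ + ∫ y, ‖y‖ ^ 2 ∂μ - 2 * ∫ x, ⟪x, σ x⟫ ∂ρ) ∧
    0 ≤ ∫ x, ‖x‖ ^ 2 ∂ρ + ∫ y, ‖y‖ ^ 2 ∂μ - 2 * ∫ x, ⟪x, σ x⟫ ∂ρ ∧ |∫ x, ⟪x, σ x⟫ ∂ρ| ≤ R * L := by
  have a1 : ∀ᵐ x ∂ρ, ‖σ x‖ ≤ L := by
    rw [← hm] at hL; exact ae_of_ae_map hσ.aemeasurable hL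
  have h1 := lintegral_sq_eq (μ := ρ) (f := fun x => x - σ x) (measurable_id.sub hσ) (B := R + L)
    (by filter_upwards [hR, a1] with x a b using (norm_sub_le _ _).trans (add_le_add a b))
  have i1 := (lintegral_sq_eq (μ := ρ) (f := fun x => x) measurable_id hR).1
  have i2 := (lintegral_sq_eq (μ := ρ) hσ a1).1
  have bd : ∀ᵐ x ∂ρ, ‖⟪x, σ x⟫‖ ≤ R * L := by
    filter_upwards [hR, a1] with x h h'
    exact (norm_inner_le_norm _ _).trans
      (mul_le_mul h h' (norm_nonneg _) ((norm_nonneg _).trans h))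
  have i3 : Integrable (fun x => ⟪x, σ x⟫) ρ :=
    Integrable.of_bound (C := R * L) (measurable_id.inner hσ).aestronglyMeasurable bd
  have e : ∫ x, ‖x - σ x‖ ^ 2 ∂ρ = ∫ x, ‖x‖ ^ 2 ∂ρ + ∫ y, ‖y‖ ^ 2 ∂μ - 2 * ∫ x, ⟪x, σ x⟫ ∂ρ := by
    have i4 : Integrable (fun x => ‖x‖ ^ 2 + ‖σ x‖ ^ 2) ρ := i1.add i2
    rw [← hm, integral_map hσ.aemeasurable (by fun_prop), ← integral_add i1 i2,
      ← integral_const_mul, ← integral_sub i4 (i3.const_mul 2)]
    congr 1; ext x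
    rw [norm_sub_sq_real]; ring
  refine ⟨by rw [h1.2, e], by rw [← e]; exact integral_nonneg fun x => sq_nonneg _, ?_⟩
  have := norm_integral_le_of_norm_le_const bd
  simpa using this

theorem admissible_third (hd : 2 ≤ d) : Admissible d (1 / 3) := by
  refine ⟨by norm_num, by norm_num, fun K hK hc hi Y hY hne => ?_⟩
  obtain ⟨A, hA, H⟩ := approx_stab ⟨0, by omega⟩ hK hc hi hY hne
  obtain ⟨R, hR, hRb⟩ := hK.isBounded.exists_pos_norm_le
  obtain ⟨L, hL, hLb⟩ := hY.isBounded.exists_pos_norm_le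
  have G := good_unif hK hc hi hR hRb
  have := G.prob
  have hρR : ∀ᵐ x ∂(unif K), ‖x‖ ≤ R := by filter_upwards [G.ae] with x hx using hRb x hx
  set A' : ℝ := A * (1 + 4 * L ^ 2) * (4 * L ^ 2) ^ (-(1 / 3 : ℝ)) with hA'
  have hA'0 : 0 < A' := by positivity
  refine ⟨Real.toNNReal √A', fun μ ν hμ hν hμY hνY T S oT oS => ?_⟩
  have hμY' : ∀ᵐ y ∂μ, y ∈ Y := hμY
  have hνY' : ∀ᵐ y ∂ν, y ∈ Y := hνY
  have hμL : ∀ᵐ y ∂μ, ‖y‖ ≤ L := by filter_upwards [hμY'] with y hy using hLb y hy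
  have hνL : ∀ᵐ y ∂ν, ‖y‖ ≤ L := by filter_upwards [hνY'] with y hy using hLb y hy
  have corr : ∀ (μ : Measure (EuclideanSpace ℝ (Fin d))) T, (∀ᵐ y ∂μ, ‖y‖ ≤ L) →
      IsOptimalMap (unif K) μ T → ∀ σ : EuclideanSpace ℝ (Fin d) → EuclideanSpace ℝ (Fin d),
      Measurable σ → (unif K).map σ = μ →
      ∫ x, ⟪x, σ x⟫ ∂(unif K) ≤ ∫ x, ⟪x, T x⟫ ∂(unif K) + 0 := by
    intro μ T hμL oT σ hσ hm
    have h1 := oT.2.2 σ hσ hm
    obtain ⟨e1, -, -⟩ := cost_eq hρR hμL oT.1 oT.2.1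
    obtain ⟨e2, p2, -⟩ := cost_eq hρR hμL hσ hm
    rw [e1, e2, ENNReal.ofReal_le_ofReal_iff p2] at h1
    linarith
  have aT : ∀ᵐ x ∂(unif K), ‖T x‖ ≤ L := by
    rw [← oT.2.1] at hμL; exact ae_of_ae_map oT.1.aemeasurable hμL
  have aS : ∀ᵐ x ∂(unif K), ‖S x‖ ≤ L := by
    rw [← oS.2.1] at hνL; exact ae_of_ae_map oS.1.aemeasurable hνL
  have eD := (lintegral_sq_eq (μ := unif K) (f := fun x => T x - S x) (oT.1.sub oS.1) (B := L + L)
    (by filter_upwards [aT, aS] with x a b using (norm_sub_le _ _).trans (add_le_add a b))).2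
  set D := ∫ x, ‖T x - S x‖ ^ 2 ∂(unif K) with hD
  have hD0 : 0 ≤ D := integral_nonneg fun x => sq_nonneg _
  have main : ∀ π : Measure (EuclideanSpace ℝ (Fin d) × EuclideanSpace ℝ (Fin d)),
      π.map Prod.fst = μ → π.map Prod.snd = ν →
      ENNReal.ofReal ((D / A') ^ (3 / 2 : ℝ)) ≤ (∫⁻ p, enorm (p.1 - p.2) ^ 2 ∂π) ^ (1 / 2 : ℝ) := by
    intro π h1 h2
    have hπ : IsProbabilityMeasure π := ⟨by
      have := congrArg (fun μ : Measure _ => μ univ) h1
      simpa [Measure.map_apply measurable_fst] using this⟩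
    have hb : ∀ᵐ q ∂π, ‖q.1 - q.2‖ ≤ L + L := by
      rw [← h1] at hμL
      rw [← h2] at hνL
      filter_upwards [ae_of_ae_map measurable_fst.aemeasurable hμL,
        ae_of_ae_map measurable_snd.aemeasurable hνL] with q a b
      exact (norm_sub_le _ _).trans (add_le_add a b)
    obtain ⟨iW, eW⟩ := lintegral_sq_eq (μ := π) (f := fun q => q.1 - q.2) (by fun_prop) hb
    have H2 := H μ ν hμ hν hμY' hνY' T S oT.1 oS.1 oT.2.1 oS.2.1 0 le_rfl
      (corr μ T hμL oT) (corr ν S hνL oS) π h1 h2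
    set W := ∫ q, ‖q.1 - q.2‖ ^ 2 ∂π with hW
    have hW0 : 0 ≤ W := integral_nonneg fun q => sq_nonneg _
    have hW1 : W ≤ 4 * L ^ 2 := by
      have : W ≤ ∫ _, 4 * L ^ 2 ∂π := by
        refine integral_mono_ae iW (integrable_const _) ?_
        filter_upwards [hb] with q hq
        have : ‖q.1 - q.2‖ ^ 2 ≤ (L + L) ^ 2 := by gcongr
        linarith
      simpa using this
    have h3 : D ≤ A' * W ^ (1 / 3 : ℝ) := by
      rcases hW0.eq_or_lt with h0 | h0
      · rw [← h0, Real.zero_rpow (by norm_num), mul_zero]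
        have hlim : Tendsto (fun η : ℝ => A * η) (𝓝[>] 0) (𝓝 (A * 0)) :=
          ((continuous_const.mul continuous_id).tendsto 0).mono_left nhdsWithin_le_nhds
        rw [mul_zero] at hlim
        refine ge_of_tendsto hlim ?_
        filter_upwards [Ioc_mem_nhdsGT (show (0 : ℝ) < 1 by norm_num)] with η hη
        have := H2 η hη.1 hη.2
        rw [← h0] at this
        simpa using this
      · set η := (W / (4 * L ^ 2)) ^ (1 / 3 : ℝ) with hη
        have hη0 : 0 < η := by positivity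
        have hη1 : η ≤ 1 :=
          Real.rpow_le_one (by positivity) (by rwa [div_le_one (by positivity)]) (by norm_num)
        have hη3 : η ^ 3 = W / (4 * L ^ 2) := by
          rw [hη, ← Real.rpow_natCast, ← Real.rpow_mul (by positivity)]; norm_num
        have e1 : W / η ^ 2 = 4 * L ^ 2 * η := by
          rw [div_eq_iff (by positivity)]
          have : W = 4 * L ^ 2 * η ^ 3 := by rw [hη3]; field_simp
          rw [this]; ring
        have e2 : η = W ^ (1 / 3 : ℝ) * (4 * L ^ 2) ^ (-(1 / 3 : ℝ)) := by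
          rw [hη, Real.div_rpow hW0 (by positivity), Real.rpow_neg (by positivity), div_eq_mul_inv]
        have := H2 η hη0 hη1
        rw [e1, zero_div, add_zero] at this
        refine this.trans (le_of_eq ?_)
        rw [hA', mul_assoc _ _ (W ^ (1 / 3 : ℝ)), mul_comm _ (W ^ (1 / 3 : ℝ)), ← e2]
        ring
    rw [eW, ENNReal.ofReal_rpow_of_nonneg hW0 (by norm_num)]
    refine ENNReal.ofReal_le_ofReal ?_
    have h4 : D / A' ≤ W ^ (1 / 3 : ℝ) := by rw [div_le_iff₀ hA'0]; linarith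
    refine (Real.rpow_le_rpow (by positivity) h4 (by norm_num)).trans (le_of_eq ?_)
    rw [← Real.rpow_mul hW0]; norm_num
  have h5 : ENNReal.ofReal ((D / A') ^ (3 / 2 : ℝ)) ≤ W2 μ ν :=
    le_iInf₂ fun π h => main π h.1 h.2
  rw [eD]
  calc ENNReal.ofReal D ^ (1 / 2 : ℝ) =
        ENNReal.ofReal √A' *
          ENNReal.ofReal ((D / A') ^ (3 / 2 : ℝ)) ^ (1 / 3 : ℝ) := by
        rw [ENNReal.ofReal_rpow_of_nonneg hD0 (by norm_num),
          ENNReal.ofReal_rpow_of_nonneg (by positivity) (by norm_num),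
          ← Real.rpow_mul (by positivity), ← ENNReal.ofReal_mul (Real.sqrt_nonneg _)]
        congr 1
        rw [show (3 / 2 : ℝ) * (1 / 3) = 1 / 2 by norm_num, Real.sqrt_eq_rpow,
          ← Real.mul_rpow hA'0.le (by positivity), mul_div_cancel₀ _ hA'0.ne']
    _ ≤ ENNReal.ofReal √A' * W2 μ ν ^ (1 / 3 : ℝ) := by gcongr

theorem exists_optimalMap (hd : 2 ≤ d) {K : Set (EuclideanSpace ℝ (Fin d))} (hK : IsCompact K)
    (hc : Convex ℝ K) (hi : (interior K).Nonempty) {Y : Set (EuclideanSpace ℝ (Fin d))}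
    (hY : IsCompact Y) (μ : Measure (EuclideanSpace ℝ (Fin d))) [hμ : IsProbabilityMeasure μ]
    (hμY : μ (compl Y) = 0) : ∃ T, IsOptimalMap (unif K) μ T := by
  have hμY' : ∀ᵐ y ∂μ, y ∈ Y := hμY
  have hne : Y.Nonempty := hμY'.exists
  obtain ⟨A, hA, H⟩ := approx_stab ⟨0, by omega⟩ hK hc hi hY hne
  obtain ⟨R, hR, hRb⟩ := hK.isBounded.exists_pos_norm_le
  obtain ⟨L, hL, hLb⟩ := hY.isBounded.exists_pos_norm_le
  have G := good_unif hK hc hi hR hRb
  have := G.prob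
  have hρR : ∀ᵐ x ∂(unif K), ‖x‖ ≤ R := by filter_upwards [G.ae] with x hx using hRb x hx
  have hμL : ∀ᵐ y ∂μ, ‖y‖ ≤ L := by filter_upwards [hμY'] with y hy using hLb y hy
  set P : Set ℝ := {r | ∃ σ : EuclideanSpace ℝ (Fin d) → EuclideanSpace ℝ (Fin d), Measurable σ ∧
    (unif K).map σ = μ ∧ r = ∫ x, ⟪x, σ x⟫ ∂(unif K)} with hP
  have hPne : P.Nonempty := by
    obtain ⟨σ, h1, h2⟩ := exists_push ⟨0, by omega⟩ (unif K) μ (unif_ac K) (by simp)
    exact ⟨_, σ, h1, h2, rfl⟩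
  have hPb : BddAbove P := ⟨R * L, by
    rintro _ ⟨σ, h1, h2, rfl⟩
    exact (abs_le.1 (cost_eq hρR hμL h1 h2).2.2).2⟩
  have hex : ∀ n : ℕ, ∃ σ : EuclideanSpace ℝ (Fin d) → EuclideanSpace ℝ (Fin d), Measurable σ ∧
      (unif K).map σ = μ ∧ sSup P - (1 / 16) ^ n < ∫ x, ⟪x, σ x⟫ ∂(unif K) := by
    intro n
    obtain ⟨_, ⟨σ, h1, h2, rfl⟩, h3⟩ := exists_lt_of_lt_csSup hPne
      (show sSup P - (1 / 16) ^ n < sSup P from sub_lt_self _ (by positivity))
    exact ⟨σ, h1, h2, h3⟩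
  choose σ hσ hσm hσc using hex
  have hσL : ∀ n, ∀ᵐ x ∂(unif K), ‖σ n x‖ ≤ L := fun n => by
    rw [← hσm n] at hμL; exact ae_of_ae_map (hσ n).aemeasurable hμL
  have hopt : ∀ N n, N ≤ n → ∀ s : EuclideanSpace ℝ (Fin d) → EuclideanSpace ℝ (Fin d),
      Measurable s → (unif K).map s = μ →
      ∫ x, ⟪x, s x⟫ ∂(unif K) ≤ ∫ x, ⟪x, σ n x⟫ ∂(unif K) + (1 / 16) ^ N := by
    intro N n hn s h1 h2
    have h3 : ∫ x, ⟪x, s x⟫ ∂(unif K) ≤ sSup P := le_csSup hPb ⟨s, h1, h2, rfl⟩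
    have h4 : ((1 : ℝ) / 16) ^ n ≤ (1 / 16) ^ N :=
      pow_le_pow_of_le_one (by norm_num) (by norm_num) hn
    linarith [hσc n]
  have hdiag : Measurable (fun y : EuclideanSpace ℝ (Fin d) => (y, y)) := by fun_prop
  have hcau : ∀ N n m : ℕ, N ≤ n → N ≤ m → eLpNorm' (σ n - σ m) 2 (unif K) <
      ENNReal.ofReal ((√(2 * A) + 1) * (1 / 2) ^ N) := by
    intro N n m hn hm
    have h1 := H μ μ hμ hμ hμY' hμY' (σ n) (σ m) (hσ n) (hσ m) (hσm n) (hσm m) ((1 / 16) ^ N)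
      (by positivity) (hopt N n hn) (hopt N m hm) (μ.map fun y => (y, y))
      (by rw [Measure.map_map measurable_fst hdiag]; exact Measure.map_id)
      (by rw [Measure.map_map measurable_snd hdiag]; exact Measure.map_id)
      ((1 / 4) ^ N) (by positivity) (pow_le_one₀ (by norm_num) (by norm_num))
    rw [integral_map hdiag.aemeasurable (by fun_prop)] at h1
    have e1 : ((1 : ℝ) / 16) ^ N / (1 / 4) ^ N = (1 / 4) ^ N := by
      rw [← div_pow]; norm_num
    simp only [sub_self, norm_zero, ne_eq, OfNat.ofNat_ne_zero, not_false_eq_true, zero_pow,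
      integral_zero, zero_div, add_zero, e1] at h1
    have eD := (lintegral_sq_eq (μ := unif K) (f := fun x => σ n x - σ m x) ((hσ n).sub (hσ m))
      (B := L + L) (by
        filter_upwards [hσL n, hσL m] with x a b using (norm_sub_le _ _).trans (add_le_add a b))).2
    rw [eLpNorm'_eq_lintegral_enorm]
    simp only [Pi.sub_apply, ENNReal.rpow_ofNat]
    have hD0 : 0 ≤ ∫ x, ‖σ n x - σ m x‖ ^ 2 ∂(unif K) := integral_nonneg fun x => sq_nonneg _
    rw [eD, ENNReal.ofReal_rpow_of_nonneg hD0 (by norm_num),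
      ENNReal.ofReal_lt_ofReal_iff (by positivity), ← Real.sqrt_eq_rpow]
    have e2 : A * ((1 / 4) ^ N + (1 / 4) ^ N) = (√(2 * A) * (1 / 2) ^ N) ^ 2 := by
      rw [mul_pow, Real.sq_sqrt (by positivity), ← pow_mul, mul_comm N 2, pow_mul]
      norm_num; ring
    rw [e2] at h1
    refine (Real.sqrt_le_iff.2 ⟨by positivity, h1⟩).trans_lt ?_
    have : (0 : ℝ) < (1 / 2) ^ N := by positivity
    nlinarith
  have hsum : ∑' N : ℕ, ENNReal.ofReal ((√(2 * A) + 1) * (1 / 2) ^ N) ≠ ∞ := by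
    rw [← ENNReal.ofReal_tsum_of_nonneg (fun _ => by positivity)
      (summable_geometric_two.mul_left _)]
    exact ENNReal.ofReal_ne_top
  obtain ⟨T, hT, hlim⟩ := measurable_limit_of_tendsto_metrizable_ae
    (fun n => (hσ n).aemeasurable)
    (Lp.ae_tendsto_of_cauchy_eLpNorm' (fun n => (hσ n).aestronglyMeasurable) (by norm_num)
      hsum hcau)
  have hmap : (unif K).map T = μ := by
    refine ext_of_forall_integral_eq_of_IsFiniteMeasure fun f => ?_
    rw [integral_map hT.aemeasurable f.continuous.aestronglyMeasurable]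
    have h1 : Tendsto (fun n => ∫ x, f (σ n x) ∂(unif K)) atTop (𝓝 (∫ x, f (T x) ∂(unif K))) := by
      refine tendsto_integral_of_dominated_convergence (fun _ => ‖f‖)
        (fun n => (f.continuous.measurable.comp (hσ n)).aestronglyMeasurable)
        (integrable_const _) (fun n => Eventually.of_forall fun x => f.norm_coe_le_norm _) ?_
      filter_upwards [hlim] with x hx using (f.continuous.tendsto _).comp hx
    have h2 : ∀ n, ∫ x, f (σ n x) ∂(unif K) = ∫ y, f y ∂μ := fun n => by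
      rw [← hσm n, integral_map (hσ n).aemeasurable f.continuous.aestronglyMeasurable]
    simp only [h2] at h1
    exact tendsto_nhds_unique h1 tendsto_const_nhds
  have hcorr : sSup P ≤ ∫ x, ⟪x, T x⟫ ∂(unif K) := by
    have h1 : Tendsto (fun n => ∫ x, ⟪x, σ n x⟫ ∂(unif K)) atTop
        (𝓝 (∫ x, ⟪x, T x⟫ ∂(unif K))) := by
      refine tendsto_integral_of_dominated_convergence (fun _ => R * L)
        (fun n => (measurable_id.inner (hσ n)).aestronglyMeasurable)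
        (integrable_const _) (fun n => ?_) ?_
      · filter_upwards [hρR, hσL n] with x h h'
        exact (norm_inner_le_norm _ _).trans (mul_le_mul h h' (norm_nonneg _) hR.le)
      · filter_upwards [hlim] with x hx using tendsto_const_nhds.inner hx
    have h2 : Tendsto (fun n : ℕ => sSup P - (1 / 16) ^ n) atTop (𝓝 (sSup P - 0)) :=
      (tendsto_pow_atTop_nhds_zero_of_lt_one (by norm_num) (by norm_num)).const_sub _
    rw [sub_zero] at h2
    exact le_of_tendsto_of_tendsto' h2 h1 fun n => (hσc n).le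
  refine ⟨T, hT, hmap, fun S hS hSm => ?_⟩
  rw [(cost_eq hρR hμL hT hmap).1, (cost_eq hρR hμL hS hSm).1]
  refine ENNReal.ofReal_le_ofReal ?_
  have h3 : ∫ x, ⟪x, S x⟫ ∂(unif K) ≤ sSup P := le_csSup hPb ⟨S, hS, hSm, rfl⟩
  linarith

end Vale.Agent.P074
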